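import Mathlib

/-!
# P170: limiting threshold for random k-SAT.  Basic definitions.

`V` is a finite set of variables, an assignment is a map `V → Bool`, a literal is a pair
`(v, b)` (true at `σ` iff `σ v = b`).  `T V j` averages over a random `j`-clause all of whose
literals are independent and uniform.  It acts on functions of a set `A` of assignments.
`Q V k m` is the probability that `m` random `k`-clauses are simultaneously satisfiable.
-/

namespace Vale.Agent.P170

open Finset

abbrev Lit (V : Type) := V × Bool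

abbrev Asg (V : Type) := V → Bool

set_option linter.unusedSectionVars false

section
variable {V : Type} [Fintype V] [DecidableEq V]

/-- the assignments in `A` satisfying the clause `c` -/
def cut {j : ℕ} (c : Fin j → Lit V) (A : Finset (Asg V)) : Finset (Asg V) :=
  A.filter (fun σ => ∃ i, σ (c i).1 = (c i).2)

variable (V) in
/-- averaging over a random `j`-clause -/
noncomputable def T (j : ℕ) : Module.End ℝ (Finset (Asg V) → ℝ) where
  toFun Φ := fun A => (∑ c : Fin j → Lit V, Φ (cut c A)) / (2 * Fintype.card V : ℝ) ^ j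
  map_add' Φ Ψ := by
    funext A
    simp only [Pi.add_apply, sum_add_distrib, add_div]
  map_smul' r Φ := by
    funext A
    simp only [Pi.smul_apply, smul_eq_mul, RingHom.id_apply]
    rw [← mul_sum, mul_div_assoc]

/-- indicator of satisfiability -/
noncomputable def s : Finset (Asg V) → ℝ := fun A => if A.Nonempty then 1 else 0

/-- fraction of the literals which are false in all assignments of `A` -/
noncomputable def z : Finset (Asg V) → ℝ := fun A =>
  ((univ.filter (fun l : Lit V => ∀ σ ∈ A, σ l.1 ≠ l.2)).card : ℝ) / (2 * Fintype.card V : ℝ)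

variable (V) in
/-- probability that `m` random `k`-clauses are satisfiable -/
noncomputable def Q (k m : ℕ) : ℝ := ((T V k ^ m) s) univ

theorem T_apply (j : ℕ) (Φ : Finset (Asg V) → ℝ) (A : Finset (Asg V)) :
    T V j Φ A = (∑ c : Fin j → Lit V, Φ (cut c A)) / (2 * Fintype.card V : ℝ) ^ j := rfl

theorem cut_subset {j : ℕ} (c : Fin j → Lit V) (A : Finset (Asg V)) : cut c A ⊆ A :=
  filter_subset _ _

theorem cut_mono {j : ℕ} (c : Fin j → Lit V) {A B : Finset (Asg V)} (h : A ⊆ B) :
    cut c A ⊆ cut c B := filter_subset_filter _ h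

theorem cut_comm {i j : ℕ} (c : Fin i → Lit V) (d : Fin j → Lit V) (A : Finset (Asg V)) :
    cut c (cut d A) = cut d (cut c A) := by
  unfold cut
  rw [filter_filter, filter_filter]
  congr 1
  ext σ
  tauto

theorem card_clause (j : ℕ) : (Fintype.card (Fin j → Lit V) : ℝ) =
    (2 * Fintype.card V : ℝ) ^ j := by
  rw [Fintype.card_fun, Fintype.card_fin, Fintype.card_prod, Fintype.card_bool]
  push_cast
  ring

theorem den_nonneg (j : ℕ) : (0 : ℝ) ≤ (2 * Fintype.card V : ℝ) ^ j := by positivity

theorem den_pos [Nonempty V] (j : ℕ) : (0 : ℝ) < (2 * Fintype.card V : ℝ) ^ j := by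
  have : 0 < Fintype.card V := Fintype.card_pos
  positivity

theorem T_const [Nonempty V] (j : ℕ) (r : ℝ) : T V j (fun _ => r) = fun _ => r := by
  funext A
  rw [T_apply, sum_const, nsmul_eq_mul, card_univ, card_clause]
  field_simp [(den_pos (V := V) j).ne']

theorem T_mono (j : ℕ) {Φ Ψ : Finset (Asg V) → ℝ} (h : Φ ≤ Ψ) : T V j Φ ≤ T V j Ψ := by
  intro A
  rw [T_apply, T_apply]
  exact div_le_div_of_nonneg_right (sum_le_sum fun c _ => h _) (den_nonneg j)

theorem T_nonneg (j : ℕ) {Φ : Finset (Asg V) → ℝ} (h : 0 ≤ Φ) : 0 ≤ T V j Φ := by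
  have := T_mono j h
  rwa [map_zero] at this

theorem T_pow_mono (j m : ℕ) {Φ Ψ : Finset (Asg V) → ℝ} (h : Φ ≤ Ψ) :
    (T V j ^ m) Φ ≤ (T V j ^ m) Ψ := by
  induction m with
  | zero => simpa using h
  | succ m ih => rw [pow_succ', Module.End.mul_apply, Module.End.mul_apply]; exact T_mono j ih

theorem T_pow_nonneg (j m : ℕ) {Φ : Finset (Asg V) → ℝ} (h : 0 ≤ Φ) :
    0 ≤ (T V j ^ m) Φ := by
  have := T_pow_mono j m h
  rwa [map_zero] at this

theorem T_pow_const [Nonempty V] (j m : ℕ) (r : ℝ) :
    (T V j ^ m) (fun _ => r) = fun _ => r := by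
  induction m with
  | zero => simp
  | succ m ih => rw [pow_succ', Module.End.mul_apply, ih, T_const]

theorem T_comm (i j : ℕ) : Commute (T V i) (T V j) := by
  apply LinearMap.ext
  intro Φ
  funext A
  rw [Module.End.mul_apply, Module.End.mul_apply, T_apply, T_apply]
  simp only [T_apply]
  rw [← sum_div, ← sum_div, div_div, div_div, mul_comm ((2 * (Fintype.card V : ℝ)) ^ i)]
  congr 1
  rw [sum_comm]
  refine sum_congr rfl fun c _ => sum_congr rfl fun d _ => ?_
  rw [cut_comm]

/-- the operators commute with translation by a clause -/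
theorem T_cut (i j : ℕ) (c : Fin i → Lit V) (Φ : Finset (Asg V) → ℝ) (A : Finset (Asg V)) :
    T V j Φ (cut c A) = T V j (fun B => Φ (cut c B)) A := by
  rw [T_apply, T_apply]
  congr 1
  exact sum_congr rfl fun d _ => by rw [cut_comm]

theorem T_pow_cut (i j m : ℕ) (c : Fin i → Lit V) (Φ : Finset (Asg V) → ℝ)
    (A : Finset (Asg V)) :
    (T V j ^ m) Φ (cut c A) = (T V j ^ m) (fun B => Φ (cut c B)) A := by
  induction m generalizing Φ A with
  | zero => simp
  | succ m ih =>
    have e : (fun B => T V j Φ (cut c B)) = T V j (fun B => Φ (cut c B)) := by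
      funext B
      rw [T_cut]
    rw [pow_succ, Module.End.mul_apply, Module.End.mul_apply, ih, e]

theorem T_monotone (j : ℕ) {Φ : Finset (Asg V) → ℝ} (h : Monotone Φ) : Monotone (T V j Φ) := by
  intro A B hAB
  rw [T_apply, T_apply]
  exact div_le_div_of_nonneg_right (sum_le_sum fun c _ => h (cut_mono c hAB)) (den_nonneg j)

theorem T_pow_monotone (j m : ℕ) {Φ : Finset (Asg V) → ℝ} (h : Monotone Φ) :
    Monotone ((T V j ^ m) Φ) := by
  induction m with
  | zero => simpa using h
  | succ m ih => rw [pow_succ', Module.End.mul_apply]; exact T_monotone j ih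

theorem T_le [Nonempty V] (j : ℕ) {Φ : Finset (Asg V) → ℝ} (h : Monotone Φ) : T V j Φ ≤ Φ := by
  intro A
  rw [T_apply, div_le_iff₀ (den_pos j)]
  calc ∑ c : Fin j → Lit V, Φ (cut c A) ≤ ∑ _c : Fin j → Lit V, Φ A :=
        sum_le_sum fun c _ => h (cut_subset c A)
    _ = Φ A * (2 * Fintype.card V : ℝ) ^ j := by
        rw [sum_const, nsmul_eq_mul, card_univ, card_clause, mul_comm]

theorem s_nonneg : (0 : Finset (Asg V) → ℝ) ≤ s := by
  intro A; unfold s; split_ifs <;> simp

theorem s_le_one : (s : Finset (Asg V) → ℝ) ≤ fun _ => 1 := by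
  intro A; unfold s; split_ifs <;> simp

theorem s_monotone : Monotone (s : Finset (Asg V) → ℝ) := by
  intro A B h
  unfold s
  by_cases hA : A.Nonempty
  · rw [if_pos hA, if_pos (hA.mono h)]
  · rw [if_neg hA]; split_ifs <;> simp

theorem s_sq (A : Finset (Asg V)) : s A * s A = s A := by
  unfold s; split_ifs <;> simp

theorem z_nonneg (A : Finset (Asg V)) : 0 ≤ z A := by unfold z; positivity

theorem z_le_one (A : Finset (Asg V)) : z A ≤ 1 := by
  unfold z
  apply div_le_one_of_le₀ _ (by positivity)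
  calc ((univ.filter (fun l : Lit V => ∀ σ ∈ A, σ l.1 ≠ l.2)).card : ℝ)
      ≤ ((univ : Finset (Lit V)).card : ℝ) := by exact_mod_cast card_filter_le _ _
    _ = 2 * Fintype.card V := by
        rw [card_univ, Fintype.card_prod, Fintype.card_bool]; push_cast; ring

/-- indicator that all literals of the clause are false throughout `A` -/
noncomputable def kill {j : ℕ} (c : Fin j → Lit V) (A : Finset (Asg V)) : ℝ :=
  if ∀ i, ∀ σ ∈ A, σ (c i).1 ≠ (c i).2 then 1 else 0

theorem kill_nonneg {j : ℕ} (c : Fin j → Lit V) (A : Finset (Asg V)) : 0 ≤ kill c A := by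
  unfold kill; split_ifs <;> simp

theorem kill_le_one {j : ℕ} (c : Fin j → Lit V) (A : Finset (Asg V)) : kill c A ≤ 1 := by
  unfold kill; split_ifs <;> simp

/-- adding a clause makes a satisfiable formula unsatisfiable iff all its literals are killed -/
theorem s_sub_cut {j : ℕ} (c : Fin j → Lit V) (A : Finset (Asg V)) :
    s A - s (cut c A) = s A * kill c A := by
  unfold s kill cut
  by_cases hA : A.Nonempty
  · by_cases h : ∀ i, ∀ σ ∈ A, σ (c i).1 ≠ (c i).2
    · have : ¬ (A.filter (fun σ => ∃ i, σ (c i).1 = (c i).2)).Nonempty := by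
        rw [not_nonempty_iff_eq_empty, filter_eq_empty_iff]
        intro σ hσ ⟨i, hi⟩
        exact h i σ hσ hi
      rw [if_pos hA, if_neg this, if_pos h]; norm_num
    · have : (A.filter (fun σ => ∃ i, σ (c i).1 = (c i).2)).Nonempty := by
        push Not at h
        obtain ⟨i, σ, hσ, hi⟩ := h
        exact ⟨σ, mem_filter.2 ⟨hσ, i, hi⟩⟩
      rw [if_pos hA, if_pos this, if_neg h]; norm_num
  · have : ¬ (A.filter (fun σ => ∃ i, σ (c i).1 = (c i).2)).Nonempty := by
      rw [not_nonempty_iff_eq_empty] at hA ⊢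
      rw [hA, filter_empty]
    rw [if_neg hA, if_neg this]; norm_num

/-- average of `kill` over a random clause -/
theorem sum_kill (j : ℕ) (A : Finset (Asg V)) :
    (∑ c : Fin j → Lit V, kill c A) / (2 * Fintype.card V : ℝ) ^ j = z A ^ j := by
  unfold z
  rw [div_pow]
  congr 1
  unfold kill
  rw [sum_boole]
  have : (univ.filter fun c : Fin j → Lit V => ∀ i, ∀ σ ∈ A, σ (c i).1 ≠ (c i).2) =
      Fintype.piFinset (fun _ : Fin j => univ.filter (fun l : Lit V => ∀ σ ∈ A, σ l.1 ≠ l.2)) := by
    ext c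
    simp [Fintype.mem_piFinset]
  rw [this, Fintype.card_piFinset, prod_const, card_univ, Fintype.card_fin]
  push_cast
  rfl

/-- the key identity: `s - T_j s = z^j s` -/
theorem s_sub_T [Nonempty V] (j : ℕ) : s - T V j s = fun A => z A ^ j * s A := by
  funext A
  rw [Pi.sub_apply, T_apply, ← sum_kill j A]
  have h : s A = (∑ _c : Fin j → Lit V, s A) / (2 * Fintype.card V : ℝ) ^ j := by
    rw [sum_const, nsmul_eq_mul, card_univ, card_clause]
    field_simp [(den_pos (V := V) j).ne']
  conv_lhs => rw [h]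
  rw [← sub_div, ← sum_sub_distrib, div_mul_eq_mul_div, sum_mul]
  congr 1
  refine sum_congr rfl fun c _ => ?_
  rw [s_sub_cut, mul_comm]

/-! ### the functions `z^j s` -/

/-- `z^j s` -/
noncomputable def zs (j : ℕ) : Finset (Asg V) → ℝ := fun A => z A ^ j * s A

theorem zs_nonneg (j : ℕ) : (0 : Finset (Asg V) → ℝ) ≤ zs j := fun A =>
  mul_nonneg (pow_nonneg (z_nonneg A) j) (s_nonneg A)

theorem zs_le_one (j : ℕ) : (zs j : Finset (Asg V) → ℝ) ≤ fun _ => 1 := fun A =>
  mul_le_one₀ (pow_le_one₀ (z_nonneg A) (z_le_one A)) (s_nonneg A) (s_le_one A)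

theorem T_s [Nonempty V] (j : ℕ) : T V j s = s - zs j := by
  have h := s_sub_T (V := V) j
  have h' : s - T V j s = zs j := h
  rw [← h']; abel

theorem Q_zero (k : ℕ) : Q V k 0 = 1 := by
  unfold Q s
  rw [pow_zero, Module.End.one_apply, if_pos univ_nonempty]

theorem Q_nonneg (k m : ℕ) : 0 ≤ Q V k m := T_pow_nonneg k m s_nonneg univ

theorem Q_succ [Nonempty V] (k m : ℕ) :
    Q V k m - Q V k (m + 1) = ((T V k ^ m) (zs k)) univ := by
  unfold Q
  rw [pow_succ, Module.End.mul_apply, T_s, map_sub, Pi.sub_apply]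
  ring

theorem Q_succ_le [Nonempty V] (k m : ℕ) : Q V k (m + 1) ≤ Q V k m := by
  have h1 := Q_succ (V := V) k m
  have h2 : 0 ≤ ((T V k ^ m) (zs k)) univ := T_pow_nonneg k m (zs_nonneg k) univ
  linarith

theorem Q_antitone [Nonempty V] (k : ℕ) : Antitone (Q V k) :=
  antitone_nat_of_succ_le fun m => Q_succ_le k m

theorem Q_le_one [Nonempty V] (k m : ℕ) : Q V k m ≤ 1 := by
  rw [← Q_zero (V := V) k]
  exact Q_antitone k (Nat.zero_le m)

theorem sum_zs [Nonempty V] (k m R : ℕ) :
    ∑ N ∈ range R, ((T V k ^ (m + N)) (zs k)) univ = Q V k m - Q V k (m + R) := by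
  induction R with
  | zero => simp
  | succ R ih =>
    rw [sum_range_succ, ih, ← Q_succ]
    ring_nf

end

/-! ### invariance under renaming the variables -/

section
variable {V W : Type} [Fintype V] [DecidableEq V] [Fintype W] [DecidableEq W]

/-- transport of a set of assignments -/
def tr (e : V ≃ W) (A : Finset (Asg V)) : Finset (Asg W) :=
  A.image (fun σ w => σ (e.symm w))

theorem mem_tr (e : V ≃ W) (A : Finset (Asg V)) (τ : Asg W) :
    τ ∈ tr e A ↔ (fun v => τ (e v)) ∈ A := by
  unfold tr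
  rw [mem_image]
  constructor
  · rintro ⟨σ, hσ, rfl⟩
    simpa using hσ
  · intro h
    exact ⟨_, h, by funext w; simp⟩

theorem tr_cut (e : V ≃ W) {j : ℕ} (c : Fin j → Lit V) (A : Finset (Asg V)) :
    tr e (cut c A) = cut (fun i => (e (c i).1, (c i).2)) (tr e A) := by
  ext σ
  simp only [mem_tr, cut, mem_filter]

theorem T_tr (e : V ≃ W) (j : ℕ) (Φ : Finset (Asg W) → ℝ) (A : Finset (Asg V)) :
    T W j Φ (tr e A) = T V j (fun B => Φ (tr e B)) A := by
  rw [T_apply, T_apply, Fintype.card_congr e]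
  congr 1
  symm
  refine Fintype.sum_equiv
    (Equiv.arrowCongr (Equiv.refl (Fin j)) (Equiv.prodCongr e (Equiv.refl Bool))) _ _ ?_
  intro c
  rw [tr_cut]
  rfl

theorem T_pow_tr (e : V ≃ W) (j m : ℕ) (Φ : Finset (Asg W) → ℝ) (A : Finset (Asg V)) :
    (T W j ^ m) Φ (tr e A) = (T V j ^ m) (fun B => Φ (tr e B)) A := by
  induction m generalizing Φ A with
  | zero => simp
  | succ m ih =>
    have h : (fun B => T W j Φ (tr e B)) = T V j (fun B => Φ (tr e B)) := by
      funext B
      rw [T_tr]
    rw [pow_succ, Module.End.mul_apply, ih, h, pow_succ, Module.End.mul_apply]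

theorem tr_univ (e : V ≃ W) : tr e univ = univ := by
  ext σ
  simp only [mem_tr, mem_univ]

theorem s_tr (e : V ≃ W) (A : Finset (Asg V)) : s (tr e A) = s A := by
  unfold s tr
  simp only [image_nonempty]

theorem z_tr (e : V ≃ W) (A : Finset (Asg V)) : z (tr e A) = z A := by
  unfold z
  rw [Fintype.card_congr e]
  congr 2
  symm
  refine card_bij' (fun l _ => (e l.1, l.2)) (fun l _ => (e.symm l.1, l.2)) ?_ ?_ ?_ ?_
  · intro l hl
    rw [mem_filter] at hl ⊢
    refine ⟨mem_univ _, ?_⟩
    intro σ hσ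
    rw [mem_tr] at hσ
    exact hl.2 _ hσ
  · intro l hl
    rw [mem_filter] at hl ⊢
    refine ⟨mem_univ _, ?_⟩
    intro σ hσ
    have h := hl.2 (fun w => σ (e.symm w)) (by
      rw [mem_tr]
      simpa using hσ)
    simpa using h
  · intro l _
    simp
  · intro l _
    simp

theorem zs_tr (e : V ≃ W) (j : ℕ) (A : Finset (Asg V)) : zs j (tr e A) = zs j A := by
  unfold zs
  rw [z_tr, s_tr]

theorem Q_equiv (e : V ≃ W) (k m : ℕ) : Q V k m = Q W k m := by
  unfold Q
  have h : (fun B : Finset (Asg V) => s (tr e B)) = s := by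
    funext B
    rw [s_tr]
  rw [← tr_univ e, T_pow_tr, h]

end

end Vale.Agent.P170
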