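import Vale.Agent.Lib.P170.Basic

/-! # P170, module EMBED: fewer variables

`cyl A = {σ : V ⊕ W → Bool | σ ∘ inl ∈ A}`.  A clause over `V ⊕ W` has all its literals in `V`
with probability `p^j`, `p = |V| / (|V| + |W|)`; otherwise just use monotonicity. -/

namespace Vale.Agent.P170

open Finset

set_option linter.unusedSectionVars false

variable {V W : Type} [Fintype V] [DecidableEq V] [Fintype W] [DecidableEq W]

/-- cylinder over a set of assignments -/
def cyl (W : Type) [Fintype W] [DecidableEq W] (A : Finset (Asg V)) : Finset (Asg (V ⊕ W)) :=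
  univ.filter (fun σ => (fun v => σ (Sum.inl v)) ∈ A)

variable (V W) in
/-- proportion of the variables in `V` -/
noncomputable def pr : ℝ := (Fintype.card V : ℝ) / (Fintype.card V + Fintype.card W)

theorem pr_nonneg : 0 ≤ pr V W := by unfold pr; positivity

theorem pr_le_one : pr V W ≤ 1 := by
  unfold pr
  apply div_le_one_of_le₀ _ (by positivity)
  have : (0 : ℝ) ≤ Fintype.card W := by positivity
  linarith

theorem mem_cyl (A : Finset (Asg V)) (σ : Asg (V ⊕ W)) :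
    σ ∈ cyl W A ↔ (fun v => σ (Sum.inl v)) ∈ A := by
  unfold cyl; simp

theorem cyl_univ : cyl W (univ : Finset (Asg V)) = univ := by
  unfold cyl; simp

theorem cyl_mono {A B : Finset (Asg V)} (h : A ⊆ B) : cyl W A ⊆ cyl W B := by
  intro σ hσ
  rw [mem_cyl] at hσ ⊢
  exact h hσ

theorem s_cyl (A : Finset (Asg V)) : s (cyl W A) = s A := by
  unfold s
  have : (cyl W A).Nonempty ↔ A.Nonempty := by
    constructor
    · rintro ⟨σ, hσ⟩
      exact ⟨_, (mem_cyl A σ).1 hσ⟩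
    · rintro ⟨σ, hσ⟩
      exact ⟨Sum.elim σ (fun _ => true), by rw [mem_cyl]; simpa using hσ⟩
  by_cases h : A.Nonempty
  · rw [if_pos (this.2 h), if_pos h]
  · rw [if_neg (fun h' => h (this.1 h')), if_neg h]

/-- the clause over `V ⊕ W` obtained from a clause over `V` -/
def inlC (W : Type) {j : ℕ} (c : Fin j → Lit V) : Fin j → Lit (V ⊕ W) :=
  fun i => (Sum.inl (c i).1, (c i).2)

theorem inlC_injective (j : ℕ) : Function.Injective (inlC W : (Fin j → Lit V) → _) := by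
  intro c d h
  funext i
  have := congrFun h i
  unfold inlC at this
  rw [Prod.mk.injEq, Sum.inl.injEq] at this
  exact Prod.ext this.1 this.2

theorem cut_cyl {j : ℕ} (c : Fin j → Lit V) (A : Finset (Asg V)) :
    cut (inlC W c) (cyl W A) = cyl W (cut c A) := by
  ext σ
  unfold cut inlC
  rw [mem_filter, mem_cyl, mem_cyl, mem_filter]

theorem pr_pow [Nonempty V] (j : ℕ) : pr V W ^ j / (2 * Fintype.card V : ℝ) ^ j =
    1 / (2 * Fintype.card (V ⊕ W) : ℝ) ^ j := by
  have h1 : (0 : ℝ) < Fintype.card V := by exact_mod_cast Fintype.card_pos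
  have h2 : (0 : ℝ) ≤ Fintype.card W := by positivity
  unfold pr
  rw [Fintype.card_sum, ← div_pow, ← one_div_pow]
  congr 1
  push_cast
  field_simp

/-- one step -/
theorem T_cyl_le [Nonempty V] (j : ℕ) (Φ : Finset (Asg (V ⊕ W)) → ℝ) (hΦ : Monotone Φ)
    (A : Finset (Asg V)) :
    T (V ⊕ W) j Φ (cyl W A) ≤
      pr V W ^ j * T V j (fun B => Φ (cyl W B)) A + (1 - pr V W ^ j) * Φ (cyl W A) := by
  classical
  obtain ⟨N, hN⟩ : ∃ N : ℝ, N = (2 * Fintype.card (V ⊕ W) : ℝ) ^ j := ⟨_, rfl⟩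
  have hNpos : 0 < N := hN ▸ den_pos j
  obtain ⟨S, hS⟩ : ∃ S : Finset (Fin j → Lit (V ⊕ W)),
      S = (univ : Finset (Fin j → Lit V)).image (inlC W) := ⟨_, rfl⟩
  have hsumS : ∀ f : (Fin j → Lit (V ⊕ W)) → ℝ,
      ∑ c ∈ S, f c = ∑ c : Fin j → Lit V, f (inlC W c) := by
    intro f
    rw [hS, sum_image]
    intro c _ d _ h
    exact inlC_injective j h
  have h1 : ∑ c ∈ S, Φ (cut c (cyl W A)) = ∑ c : Fin j → Lit V, Φ (cyl W (cut c A)) := by
    rw [hsumS]
    exact sum_congr rfl fun c _ => by rw [cut_cyl]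
  have h2 : ∑ c ∈ Sᶜ, Φ (cut c (cyl W A)) ≤ (Sᶜ.card : ℝ) * Φ (cyl W A) := by
    rw [← nsmul_eq_mul]
    exact sum_le_card_nsmul _ _ _ fun c _ => hΦ (cut_subset c _)
  have h3 : (Sᶜ.card : ℝ) = N - (2 * Fintype.card V : ℝ) ^ j := by
    have h4 : S.card = Fintype.card (Fin j → Lit V) := by
      rw [hS, card_image_of_injective _ (inlC_injective j), card_univ]
    have h5 := card_add_card_compl S
    have h6 : ((S.card + Sᶜ.card : ℕ) : ℝ) = (Fintype.card (Fin j → Lit (V ⊕ W)) : ℝ) := by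
      rw [h5]
    rw [card_clause, ← hN] at h6
    push_cast at h6
    rw [h4, card_clause] at h6
    linarith
  have h7 : (2 * Fintype.card V : ℝ) ^ j / N = pr V W ^ j := by
    have h8 := pr_pow (V := V) (W := W) j
    rw [← hN] at h8
    have h9 := (den_pos (V := V) j).ne'
    field_simp at h8 ⊢
    linarith
  have h10 : (∑ c : Fin j → Lit V, Φ (cyl W (cut c A))) / N =
      pr V W ^ j * T V j (fun B => Φ (cyl W B)) A := by
    rw [T_apply, ← h7]
    have h9 := (den_pos (V := V) j).ne'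
    field_simp
  rw [T_apply, ← sum_add_sum_compl S, h1, ← hN, ← h10]
  have h11 : (1 - pr V W ^ j) * Φ (cyl W A) =
      (N - (2 * Fintype.card V : ℝ) ^ j) * Φ (cyl W A) / N := by
    rw [← h7]
    field_simp
  rw [h11, ← add_div]
  apply div_le_div_of_nonneg_right _ hNpos.le
  rw [h3] at h2
  linarith

/-- the operator `p T_j + (1 - p) id` -/
noncomputable def Mx (V : Type) [Fintype V] [DecidableEq V] (j : ℕ) (p : ℝ) :
    Module.End ℝ (Finset (Asg V) → ℝ) := p • T V j + (1 - p) • 1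

theorem Mx_app (j : ℕ) (p : ℝ) (Φ : Finset (Asg V) → ℝ) (A : Finset (Asg V)) :
    Mx V j p Φ A = p * T V j Φ A + (1 - p) * Φ A := by
  unfold Mx
  simp

theorem Mx_le_Mx (j : ℕ) (p : ℝ) (h0 : 0 ≤ p) (h1 : p ≤ 1) {Φ Ψ : Finset (Asg V) → ℝ}
    (h : Φ ≤ Ψ) : Mx V j p Φ ≤ Mx V j p Ψ := by
  intro A
  rw [Mx_app, Mx_app]
  exact add_le_add (mul_le_mul_of_nonneg_left (T_mono j h A) h0)
    (mul_le_mul_of_nonneg_left (h A) (by linarith))

theorem T_pow_cyl_aux [Nonempty V] (k m : ℕ) (Φ : Finset (Asg (V ⊕ W)) → ℝ) (hΦ : Monotone Φ)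
    (Ψ : Finset (Asg V) → ℝ) (h : (fun B => Φ (cyl W B)) ≤ Ψ) :
    (fun B => ((T (V ⊕ W) k ^ m) Φ) (cyl W B)) ≤ (Mx V k (pr V W ^ k) ^ m) Ψ := by
  induction m generalizing Φ Ψ with
  | zero => simpa using h
  | succ m ih =>
    have p0 : 0 ≤ pr V W ^ k := pow_nonneg pr_nonneg k
    have p1 : pr V W ^ k ≤ 1 := pow_le_one₀ pr_nonneg pr_le_one
    have h1 : (fun B => T (V ⊕ W) k Φ (cyl W B)) ≤ Mx V k (pr V W ^ k) Ψ := by
      refine le_trans ?_ (Mx_le_Mx k _ p0 p1 h)
      intro B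
      rw [Mx_app]
      exact T_cyl_le k Φ hΦ B
    have h2 := ih (T (V ⊕ W) k Φ) (T_monotone k hΦ) _ h1
    rw [pow_succ, pow_succ]
    exact h2

/-- iterated version, with `b` clauses of width `j` and `m` clauses of width `k` -/
theorem T_pow_cyl_le [Nonempty V] (k j m b : ℕ) :
    ((T (V ⊕ W) k ^ m) ((T (V ⊕ W) j ^ b) s)) univ ≤
      ((Mx V k (pr V W ^ k) ^ m) ((Mx V j (pr V W ^ j) ^ b) s)) univ := by
  have h0 : (fun B : Finset (Asg V) => s (cyl W B)) ≤ s := fun B => (s_cyl B).le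
  have h1 := T_pow_cyl_aux (V := V) (W := W) j b s s_monotone s h0
  have h2 := T_pow_cyl_aux (V := V) (W := W) k m _ (T_pow_monotone j b s_monotone) _ h1 univ
  rw [← cyl_univ (V := V) (W := W)]
  exact h2

/-- binomial expansion of the case `b = 0` -/
theorem embed [Nonempty V] (k m : ℕ) :
    Q (V ⊕ W) k m ≤ ∑ i ∈ range (m + 1),
      (m.choose i : ℝ) * (pr V W ^ k) ^ i * (1 - pr V W ^ k) ^ (m - i) * Q V k i := by
  have h := T_pow_cyl_le (V := V) (W := W) k 0 m 0
  rw [pow_zero, pow_zero, Module.End.one_apply, Module.End.one_apply] at h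
  refine h.trans (le_of_eq ?_)
  obtain ⟨p, hp⟩ : ∃ p, p = pr V W ^ k := ⟨_, rfl⟩
  rw [← hp]
  have hc : Commute (p • T V k) ((1 - p) • (1 : Module.End ℝ (Finset (Asg V) → ℝ))) :=
    ((Commute.one_right _).smul_left _).smul_right _
  unfold Mx
  rw [hc.add_pow, LinearMap.sum_apply, Finset.sum_apply]
  refine sum_congr rfl fun i _ => ?_
  have e : ((p • T V k) ^ i) * (((1 - p) • (1 : Module.End ℝ (Finset (Asg V) → ℝ))) ^ (m - i)) *
      ((m.choose i : ℕ) : Module.End ℝ (Finset (Asg V) → ℝ)) =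
      ((m.choose i : ℝ) * p ^ i * (1 - p) ^ (m - i)) • T V k ^ i := by
    rw [smul_pow, smul_pow, one_pow, mul_smul_comm, mul_one, smul_smul, ← nsmul_eq_mul',
      ← Nat.cast_smul_eq_nsmul ℝ, smul_smul]
    congr 1
    ring
  rw [e, LinearMap.smul_apply, Pi.smul_apply, smul_eq_mul]
  rfl

end Vale.Agent.P170
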