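import Vale.Agent.Lib.P170.Proper

/-! # P170, module TRANSFER: from independent literals to proper clauses -/

namespace Vale.Agent.P170

open Finset Filter Topology

theorem tr_TP_mono (n k : ℕ) {Φ Ψ : Finset (Asg (Fin n)) → ℝ} (h : Φ ≤ Ψ) :
    TP n k Φ ≤ TP n k Ψ := by
  intro A
  rw [TP_apply, TP_apply]
  exact div_le_div_of_nonneg_right (sum_le_sum fun C _ => h _) (Nat.cast_nonneg _)

theorem tr_TP_pow_mono (n k m : ℕ) {Φ Ψ : Finset (Asg (Fin n)) → ℝ} (h : Φ ≤ Ψ) :
    (TP n k ^ m) Φ ≤ (TP n k ^ m) Ψ := by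
  induction m with
  | zero => simpa using h
  | succ m ih =>
    rw [pow_succ', Module.End.mul_apply, Module.End.mul_apply]
    exact tr_TP_mono n k ih

theorem tr_TP_s_le {n k : ℕ} (hkn : k ≤ n) : TP n k s ≤ s := by
  intro A
  have hc : (0 : ℝ) < Fintype.card (PClause n k) := by exact_mod_cast PClause_card_pos hkn
  rw [TP_apply, div_le_iff₀ hc]
  calc ∑ C : PClause n k, s (prp_cut C A) ≤ ∑ _C : PClause n k, s A :=
        sum_le_sum fun C _ => s_monotone (prp_cut_subset C A)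
    _ = s A * (Fintype.card (PClause n k) : ℝ) := by
        rw [sum_const, nsmul_eq_mul, card_univ, mul_comm]

theorem tr_P_antitone {n k : ℕ} (hkn : k ≤ n) : Antitone (P k n) := by
  apply antitone_nat_of_succ_le
  intro m
  rw [P_eq, P_eq, pow_succ, Module.End.mul_apply]
  exact tr_TP_pow_mono n k m (tr_TP_s_le hkn) univ

theorem tr_P_nonneg (k n m : ℕ) : 0 ≤ P k n m := by
  unfold P
  positivity

theorem tr_P_le_one (k n m : ℕ) : P k n m ≤ 1 := by
  classical
  unfold P
  apply div_le_one_of_le₀ _ (by positivity)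
  rw [← card_univ]
  exact_mod_cast card_filter_le _ _

/-- a random clause is proper up to probability `k^2/n` -/
theorem tr_prp_ge {n k : ℕ} (hn : 1 ≤ n) (hkn : k ≤ n) : 1 - (k : ℝ) ^ 2 / n ≤ prp n k := by
  have hn' : (0 : ℝ) < n := by exact_mod_cast hn
  have h1 : ((n : ℝ) - k) ^ k ≤ (n.descFactorial k : ℝ) := by
    have h2 := Nat.pow_sub_le_descFactorial n k
    have h3 : (n - k) ^ k ≤ n.descFactorial k := le_trans (Nat.pow_le_pow_left (by omega) k) h2
    have h4 : (((n - k : ℕ) : ℝ)) ^ k ≤ (n.descFactorial k : ℝ) := by exact_mod_cast h3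
    rwa [Nat.cast_sub hkn] at h4
  have h5 : 1 + (k : ℝ) * (-((k : ℝ) / n)) ≤ (1 + (-((k : ℝ) / n))) ^ k := by
    apply one_add_mul_le_pow
    have : (k : ℝ) / n ≤ 1 := by
      rw [div_le_one hn']
      exact_mod_cast hkn
    linarith
  unfold prp
  calc 1 - (k : ℝ) ^ 2 / n = 1 + (k : ℝ) * (-((k : ℝ) / n)) := by ring
    _ ≤ (1 + (-((k : ℝ) / n))) ^ k := h5
    _ = ((n : ℝ) - k) ^ k / (n : ℝ) ^ k := by
        rw [← div_pow]
        congr 1
        field_simp
        ring
    _ ≤ _ := div_le_div_of_nonneg_right h1 (by positivity)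

theorem tr_binom_one (m : ℕ) (p : ℝ) :
    ∑ i ∈ range (m + 1), (m.choose i : ℝ) * p ^ i * (1 - p) ^ (m - i) = 1 := by
  have h := add_pow p (1 - p) m
  rw [add_sub_cancel, one_pow] at h
  refine Eq.trans (sum_congr rfl fun i _ => ?_) h.symm
  ring

theorem tr_binom_mean (m : ℕ) (p : ℝ) :
    ∑ i ∈ range (m + 1), (i : ℝ) * ((m.choose i : ℝ) * p ^ i * (1 - p) ^ (m - i)) = m * p := by
  have h := congrArg (Polynomial.eval p) (bernsteinPolynomial.sum_smul ℝ m)
  simpa [Polynomial.eval_finsetSum, bernsteinPolynomial] using h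

/-- comparison of `Q` with `P` at a smaller number of clauses -/
theorem tr_Q_le {k n m m0 : ℕ} (hn : 1 ≤ n) (hkn : k ≤ n) (hm : m0 < m) :
    Q (Fin n) k m ≤ P k n m0 + m * (1 - prp n k) / ((m : ℝ) - m0) := by
  have hp0 := prp_nonneg n k
  have hp1 := prp_le_one n k
  have hd : (0 : ℝ) < (m : ℝ) - m0 := by
    have : (m0 : ℝ) < m := by exact_mod_cast hm
    linarith
  refine (Q_le_P k n m hn hkn).trans ?_
  have h1 : ∀ i ∈ range (m + 1), (m.choose i : ℝ) * prp n k ^ i * (1 - prp n k) ^ (m - i) * P k n i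
      ≤ (m.choose i : ℝ) * prp n k ^ i * (1 - prp n k) ^ (m - i) *
        (P k n m0 + ((m : ℝ) - i) / ((m : ℝ) - m0)) := by
    intro i hi
    rw [mem_range] at hi
    have hw : 0 ≤ (m.choose i : ℝ) * prp n k ^ i * (1 - prp n k) ^ (m - i) := by
      have : 0 ≤ 1 - prp n k := by linarith
      positivity
    apply mul_le_mul_of_nonneg_left _ hw
    have him : (i : ℝ) ≤ m := by exact_mod_cast (by omega : i ≤ m)
    by_cases h : m0 ≤ i
    · have h2 := tr_P_antitone hkn h
      have h3 : 0 ≤ ((m : ℝ) - i) / ((m : ℝ) - m0) := div_nonneg (by linarith) hd.le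
      linarith
    · have h2 := tr_P_le_one k n i
      have h3 := tr_P_nonneg k n m0
      have h4 : 1 ≤ ((m : ℝ) - i) / ((m : ℝ) - m0) := by
        rw [le_div_iff₀ hd]
        have : (i : ℝ) ≤ m0 := by exact_mod_cast (by omega : i ≤ m0)
        linarith
      linarith
  refine (sum_le_sum h1).trans (le_of_eq ?_)
  have h2 := tr_binom_one m (prp n k)
  have h3 := tr_binom_mean m (prp n k)
  have h4 : ∑ i ∈ range (m + 1), (m.choose i : ℝ) * prp n k ^ i * (1 - prp n k) ^ (m - i) *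
        (P k n m0 + ((m : ℝ) - i) / ((m : ℝ) - m0)) =
      (P k n m0 + m / ((m : ℝ) - m0)) *
        ∑ i ∈ range (m + 1), (m.choose i : ℝ) * prp n k ^ i * (1 - prp n k) ^ (m - i) -
      (1 / ((m : ℝ) - m0)) * ∑ i ∈ range (m + 1),
        (i : ℝ) * ((m.choose i : ℝ) * prp n k ^ i * (1 - prp n k) ^ (m - i)) := by
    rw [mul_sum, mul_sum, ← sum_sub_distrib]
    refine sum_congr rfl fun i _ => ?_
    ring
  rw [h4, h2, h3]
  ring

/-- transfer to proper clauses -/
theorem transfer (k : ℕ) (hk : 3 ≤ k) (α : ℝ) (hα : 0 < α)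
    (h1 : ∀ c : ℝ, 0 ≤ c → c < α → Tendsto (fun n : ℕ => Q (Fin n) k ⌊c * n⌋₊) atTop (𝓝 1))
    (h2 : ∀ c : ℝ, α < c → Tendsto (fun n : ℕ => Q (Fin n) k ⌊c * n⌋₊) atTop (𝓝 0)) :
    (∀ c : ℝ, 0 ≤ c → c < α → Tendsto (fun n : ℕ => P k n ⌊c * n⌋₊) atTop (𝓝 1)) ∧
    (∀ c : ℝ, α < c → Tendsto (fun n : ℕ => P k n ⌊c * n⌋₊) atTop (𝓝 0)) := by
  constructor
  · intro c hc0 hc
    obtain ⟨c', hcc', hc'⟩ := exists_between hc
    have hc'0 : 0 ≤ c' := by linarith
    have hQ := h1 c' hc'0 hc'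
    have hlow : Tendsto (fun n : ℕ => Q (Fin n) k ⌊c' * n⌋₊ -
        c' * (k : ℝ) ^ 2 / ((c' - c) * n - 1)) atTop (𝓝 (1 - 0)) := by
      apply hQ.sub
      apply Tendsto.const_div_atTop
      apply tendsto_atTop_add_const_right
      exact Tendsto.const_mul_atTop (by linarith) tendsto_natCast_atTop_atTop
    rw [sub_zero] at hlow
    apply tendsto_of_tendsto_of_tendsto_of_le_of_le' hlow tendsto_const_nhds
    · have hev : ∀ᶠ n : ℕ in atTop, 1 < (c' - c) * n := by
        have : Tendsto (fun n : ℕ => (c' - c) * (n : ℝ)) atTop atTop :=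
          Tendsto.const_mul_atTop (by linarith) tendsto_natCast_atTop_atTop
        exact this.eventually_gt_atTop 1
      filter_upwards [hev, eventually_ge_atTop (max 1 k)] with n hn1 hn2
      have hn : 1 ≤ n := le_trans (le_max_left _ _) hn2
      have hkn : k ≤ n := le_trans (le_max_right _ _) hn2
      have hn' : (0 : ℝ) < n := by exact_mod_cast hn
      have hf1 : (⌊c' * n⌋₊ : ℝ) ≤ c' * n := Nat.floor_le (by positivity)
      have hf2 : c' * n < ⌊c' * n⌋₊ + 1 := Nat.lt_floor_add_one _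
      have hf3 : (⌊c * n⌋₊ : ℝ) ≤ c * n := Nat.floor_le (by positivity)
      have hdpos : 0 < (c' - c) * n - 1 := by linarith
      have hdle : (c' - c) * n - 1 ≤ (⌊c' * n⌋₊ : ℝ) - ⌊c * n⌋₊ := by
        have : (c' - c) * n = c' * n - c * n := by ring
        linarith
      have hlt : ⌊c * n⌋₊ < ⌊c' * n⌋₊ := by
        have : (⌊c * n⌋₊ : ℝ) < ⌊c' * n⌋₊ := by linarith
        exact_mod_cast this
      have hmain := tr_Q_le (k := k) hn hkn hlt
      have hprp := tr_prp_ge hn hkn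
      have hprp1 := prp_le_one n k
      have hnum : (⌊c' * n⌋₊ : ℝ) * (1 - prp n k) ≤ c' * (k : ℝ) ^ 2 := by
        calc (⌊c' * n⌋₊ : ℝ) * (1 - prp n k) ≤ (c' * n) * ((k : ℝ) ^ 2 / n) := by
              apply mul_le_mul hf1 (by linarith) (by linarith) (by positivity)
          _ = c' * (k : ℝ) ^ 2 := by field_simp
      have hfrac : (⌊c' * n⌋₊ : ℝ) * (1 - prp n k) / ((⌊c' * n⌋₊ : ℝ) - ⌊c * n⌋₊) ≤
          c' * (k : ℝ) ^ 2 / ((c' - c) * n - 1) := by
        apply div_le_div₀ (by positivity) hnum hdpos hdle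
      linarith
    · exact Eventually.of_forall fun n => tr_P_le_one k n _
  · intro c hc
    have hc0 : 0 < c := by linarith
    have hQ := h2 c hc
    have hup : Tendsto (fun n : ℕ => Real.exp (2 * (k : ℝ) ^ 2 * c) * Q (Fin n) k ⌊c * n⌋₊)
        atTop (𝓝 (Real.exp (2 * (k : ℝ) ^ 2 * c) * 0)) := hQ.const_mul _
    rw [mul_zero] at hup
    apply tendsto_of_tendsto_of_tendsto_of_le_of_le' tendsto_const_nhds hup
    · exact Eventually.of_forall fun n => tr_P_nonneg k n _
    · filter_upwards [eventually_ge_atTop (2 * k ^ 2 + k + 1)] with n hn2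
      have hn : 1 ≤ n := by omega
      have hkn : k ≤ n := by
        have : 0 ≤ 2 * k ^ 2 := by positivity
        omega
      have hn' : (0 : ℝ) < n := by exact_mod_cast hn
      have hx : (k : ℝ) ^ 2 / n ≤ 1 / 2 := by
        rw [div_le_div_iff₀ hn' (by norm_num)]
        have : (2 * k ^ 2 + k + 1 : ℝ) ≤ n := by exact_mod_cast hn2
        have hk0 : (0 : ℝ) ≤ k := Nat.cast_nonneg k
        linarith
      have hx0 : 0 ≤ (k : ℝ) ^ 2 / n := by positivity
      set x : ℝ := (k : ℝ) ^ 2 / n with hxdef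
      have hf : (⌊c * n⌋₊ : ℝ) ≤ c * n := Nat.floor_le (by positivity)
      set m := ⌊c * n⌋₊ with hm
      have h3 := P_le_Q k n m hn hkn
      have h4 := tr_prp_ge hn hkn
      have h5 : Real.exp (-(2 * x)) ≤ prp n k := by
        have h6 := Real.add_one_le_exp (2 * x)
        have h7 : 1 ≤ (1 - x) * (2 * x + 1) := by nlinarith
        have h8 : 1 ≤ (1 - x) * Real.exp (2 * x) :=
          h7.trans (mul_le_mul_of_nonneg_left h6 (by linarith))
        rw [Real.exp_neg]
        rw [inv_le_iff_one_le_mul₀ (Real.exp_pos _)]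
        calc 1 ≤ (1 - x) * Real.exp (2 * x) := h8
          _ ≤ prp n k * Real.exp (2 * x) :=
            mul_le_mul_of_nonneg_right h4 (Real.exp_pos _).le
      have h9 : Real.exp (-(2 * (k : ℝ) ^ 2 * c)) ≤ prp n k ^ m := by
        calc Real.exp (-(2 * (k : ℝ) ^ 2 * c)) ≤ Real.exp (m * (-(2 * x))) := by
              apply Real.exp_le_exp.2
              have : (m : ℝ) * (2 * x) ≤ (c * n) * (2 * x) :=
                mul_le_mul_of_nonneg_right hf (by linarith)
              have h10 : (c * n) * (2 * x) = 2 * (k : ℝ) ^ 2 * c := by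
                rw [hxdef]
                field_simp
              linarith
          _ = Real.exp (-(2 * x)) ^ m := by rw [Real.exp_nat_mul]
          _ ≤ prp n k ^ m := pow_le_pow_left₀ (Real.exp_pos _).le h5 m
      have h11 : Real.exp (-(2 * (k : ℝ) ^ 2 * c)) * P k n m ≤ Q (Fin n) k m :=
        (mul_le_mul_of_nonneg_right h9 (tr_P_nonneg k n m)).trans h3
      rw [Real.exp_neg] at h11
      rwa [inv_mul_le_iff₀ (Real.exp_pos _)] at h11

end Vale.Agent.P170
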