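import Vale.Agent.Lib.P170.ThresholdQ
import Vale.Agent.Lib.P170.Transfer

/-! # P170, module FINAL: assembly -/

namespace Vale.Agent.P170

open Finset Filter Topology

theorem threshold_P (k : ℕ) (hk : 3 ≤ k) : ∃ α : ℝ, 0 < α ∧
    (∀ c : ℝ, 0 ≤ c → c < α → Tendsto (fun n : ℕ => P k n ⌊c * n⌋₊) atTop (𝓝 1)) ∧
    (∀ c : ℝ, α < c → Tendsto (fun n : ℕ => P k n ⌊c * n⌋₊) atTop (𝓝 0)) := by
  obtain ⟨α, hα, h1, h2⟩ := threshold_Q k hk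
  exact ⟨α, hα, transfer k hk α hα h1 h2⟩

end Vale.Agent.P170
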