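import Vale.Agent.Lib.P170.Basic

/-! # P170, module FIRST: first moment bound

`s A ≤ |A|` and `T k (card) A = (1 - 2^{-k}) |A|` (each assignment satisfies a random clause with
probability `1 - 2^{-k}`), so `Q ≤ 2^n (1 - 2^{-k})^m`. -/

namespace Vale.Agent.P170

open Finset

/-- the number of elements -/
noncomputable def fi_card {V : Type} : Finset (Asg V) → ℝ := fun A => (A.card : ℝ)

theorem fi_count {V : Type} [Fintype V] [DecidableEq V] (k : ℕ) (σ : Asg V) :
    (∑ c : Fin k → Lit V, (if ∃ i, σ (c i).1 = (c i).2 then (1:ℝ) else 0)) =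
      (2 * Fintype.card V : ℝ) ^ k - (Fintype.card V : ℝ) ^ k := by
  have h1 : ∀ c : Fin k → Lit V, (if ∃ i, σ (c i).1 = (c i).2 then (1:ℝ) else 0) =
      1 - (if ∀ i, σ (c i).1 ≠ (c i).2 then (1:ℝ) else 0) := by
    intro c
    by_cases h : ∃ i, σ (c i).1 = (c i).2
    · have h' : ¬ ∀ i, σ (c i).1 ≠ (c i).2 := by push Not; exact h
      rw [if_pos h, if_neg h']; norm_num
    · have h' : ∀ i, σ (c i).1 ≠ (c i).2 := by push Not at h; exact h
      rw [if_neg h, if_pos h']; norm_num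
  rw [sum_congr rfl (fun c _ => h1 c), sum_sub_distrib, sum_const, nsmul_eq_mul, mul_one,
    card_univ, card_clause]
  congr 1
  rw [sum_boole]
  have h2 : (univ.filter fun c : Fin k → Lit V => ∀ i, σ (c i).1 ≠ (c i).2) =
      Fintype.piFinset (fun _ : Fin k => univ.filter (fun l : Lit V => σ l.1 ≠ l.2)) := by
    ext c
    simp [Fintype.mem_piFinset]
  have h3 : (univ.filter (fun l : Lit V => σ l.1 ≠ l.2)).card = Fintype.card V := by
    rw [← card_univ]
    symm
    refine card_bij (fun v _ => ((v, !(σ v)) : Lit V)) ?_ ?_ ?_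
    · intro v _
      simp
    · intro v _ w _ h
      exact (Prod.mk.inj h).1
    · intro l hl
      rw [mem_filter] at hl
      refine ⟨l.1, mem_univ _, ?_⟩
      apply Prod.ext
      · rfl
      · have := hl.2
        simp only
        cases h : σ l.1 <;> cases h' : l.2 <;> simp_all
  rw [h2, Fintype.card_piFinset, prod_const, card_univ, Fintype.card_fin, h3]
  push_cast
  rfl

theorem fi_T_card {V : Type} [Fintype V] [DecidableEq V] [Nonempty V] (k : ℕ) :
    T V k fi_card = (1 - (1 / 2 : ℝ) ^ k) • fi_card := by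
  funext A
  have hn : (0:ℝ) < Fintype.card V := by exact_mod_cast Fintype.card_pos
  rw [T_apply, Pi.smul_apply, smul_eq_mul]
  have h1 : ∀ c : Fin k → Lit V, fi_card (cut c A) =
      ∑ σ ∈ A, (if ∃ i, σ (c i).1 = (c i).2 then (1:ℝ) else 0) := by
    intro c
    unfold fi_card cut
    rw [sum_boole]
  rw [sum_congr rfl (fun c _ => h1 c), sum_comm, sum_congr rfl (fun σ _ => fi_count k σ),
    sum_const, nsmul_eq_mul]
  unfold fi_card
  rw [mul_pow, one_div, inv_pow]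
  field_simp

theorem first_moment {V : Type} [Fintype V] [DecidableEq V] [Nonempty V] (k m : ℕ) :
    Q V k m ≤ 2 ^ Fintype.card V * (1 - (1 / 2 : ℝ) ^ k) ^ m := by
  have h1 : (s : Finset (Asg V) → ℝ) ≤ fi_card := by
    intro A
    unfold s fi_card
    split_ifs with h
    · have h' : 1 ≤ A.card := h.card_pos
      exact Nat.one_le_cast.2 h'
    · positivity
  have h2 : ∀ m : ℕ, (T V k ^ m) fi_card = ((1 - (1 / 2 : ℝ) ^ k) ^ m) • fi_card := by
    intro m
    induction m with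
    | zero => simp
    | succ m ih =>
      rw [pow_succ, Module.End.mul_apply, fi_T_card, map_smul, ih, smul_smul]
      congr 1
      ring
  have h3 := T_pow_mono k m h1 univ
  rw [h2] at h3
  unfold Q
  refine h3.trans (le_of_eq ?_)
  rw [Pi.smul_apply, smul_eq_mul]
  unfold fi_card
  rw [card_univ, Fintype.card_fun, Fintype.card_bool]
  push_cast
  ring

/-- consequence -/
theorem top_bound (k : ℕ) : ∃ K : ℝ, 0 < K ∧ ∀ ε : ℝ, 0 < ε → ∃ n0 : ℕ, ∀ n m : ℕ, n0 ≤ n →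
    K * n ≤ m → Q (Fin n) k m ≤ ε := by
  have hr0 : (0:ℝ) ≤ 1 - (1 / 2 : ℝ) ^ k := by
    have : (1 / 2 : ℝ) ^ k ≤ 1 := pow_le_one₀ (by norm_num) (by norm_num)
    linarith
  have hr1 : 1 - (1 / 2 : ℝ) ^ k < 1 := by
    have : (0:ℝ) < (1 / 2 : ℝ) ^ k := by positivity
    linarith
  obtain ⟨K, hK⟩ := exists_pow_lt_of_lt_one (by norm_num : (0:ℝ) < 1 / 4) hr1
  refine ⟨(K:ℝ) + 1, by positivity, ?_⟩
  intro ε hε
  obtain ⟨N, hN⟩ := exists_pow_lt_of_lt_one hε (by norm_num : (1 / 2 : ℝ) < 1)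
  refine ⟨max N 1, ?_⟩
  intro n m hn hm
  have hn1 : 1 ≤ n := le_trans (le_max_right _ _) hn
  have hnN : N ≤ n := le_trans (le_max_left _ _) hn
  have : Nonempty (Fin n) := ⟨⟨0, by omega⟩⟩
  have h1 := first_moment (V := Fin n) k m
  rw [Fintype.card_fin] at h1
  have hKm : K * n ≤ m := by
    have h2 : ((K * n : ℕ) : ℝ) ≤ m := by
      push_cast
      have : (0:ℝ) ≤ n := Nat.cast_nonneg n
      linarith
    exact_mod_cast h2
  have h3 : (1 - (1 / 2 : ℝ) ^ k) ^ m ≤ (1 / 4) ^ n := by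
    calc (1 - (1 / 2 : ℝ) ^ k) ^ m ≤ (1 - (1 / 2 : ℝ) ^ k) ^ (K * n) :=
          pow_le_pow_of_le_one hr0 hr1.le hKm
      _ = ((1 - (1 / 2 : ℝ) ^ k) ^ K) ^ n := by rw [pow_mul]
      _ ≤ (1 / 4) ^ n := pow_le_pow_left₀ (pow_nonneg hr0 _) hK.le n
  calc Q (Fin n) k m ≤ 2 ^ n * (1 - (1 / 2 : ℝ) ^ k) ^ m := h1
    _ ≤ 2 ^ n * (1 / 4) ^ n := mul_le_mul_of_nonneg_left h3 (by positivity)
    _ = (1 / 2) ^ n := by rw [← mul_pow]; norm_num
    _ ≤ (1 / 2) ^ N := pow_le_pow_of_le_one (by norm_num) (by norm_num) hnN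
    _ ≤ ε := hN.le

end Vale.Agent.P170
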