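import Vale.Agent.Lib.P170.Star

/-! # P170, module FROZEN: the frozen variable bound

From `star` (with `V = Fin n`, `E (Fin (n+1)) = E (Fin n ⊕ Unit)` by transport, see `T_pow_tr`,
`tr_univ`, `zs_tr`) and, for `0 < η ≤ 1`, pointwise `z^{k-1} ≤ η^{k-2} z + η^{-1} z^k`
(`z ≤ η` or `z > η`) together with `E V k k b M ≤ 1` (telescoping; `T_s`).
Claim by induction on `j`: if `n ≥ n0 ≥ 1` and `a = M k / n0`, then for all `b`
`E (Fin (n0 + j)) k 1 b M ≤ (θ^j (M+1) + 2 D) 2^b`, where `θ = η^{k-2} e^{2a} ≤ 1/2` and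
`D = η^{-1} a e^{a} + (M+1)^2 k^2/n0^2 + 2 (M+1) k/n0`  (use `b ≤ 2^b`,
`∑_h a^h/h! 2^h ≤ e^{2a}`, `∑_h h a^h/h! ≤ a e^a`, and `E ≤ M+1` at `j = 0`).
Take `n0 = ⌈n/2⌉` or so.  `frozen`: `M ≤ c n`, `η` small depending on `k, c` (needs `k ≥ 3`).
`frozen_small`: `η = 1`: `E_{k-1} ≤ E_1`, no `η^{-1}` term; `a ≤ 4 c0 k` small so that
`∑_h a^h/h! (2^h - 1) ≤ 1/2`, `D = O(c0)`. -/

namespace Vale.Agent.P170

open Finset

section
variable {V W : Type} [Fintype V] [DecidableEq V] [Fintype W] [DecidableEq W]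

theorem fr_E_equiv (e : V ≃ W) (k j b M : ℕ) : E W k j b M = E V k j b M := by
  unfold E
  refine sum_congr rfl fun m _ => ?_
  have h : (fun B => ((T W (k - 1) ^ b) (zs j)) (tr e B)) = (T V (k - 1) ^ b) (zs j) := by
    funext B
    rw [T_pow_tr]
    have h' : (fun B' : Finset (Asg V) => zs j (tr e B')) = zs j := by
      funext B'
      rw [zs_tr]
    rw [h']
  rw [← tr_univ e, T_pow_tr, h]

theorem fr_E_nonneg (k j b M : ℕ) : 0 ≤ E V k j b M := by
  unfold E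
  exact sum_nonneg fun m _ => T_pow_nonneg k m (T_pow_nonneg (k-1) b (zs_nonneg j)) univ

theorem fr_E_le [Nonempty V] (k j b M : ℕ) : E V k j b M ≤ M + 1 := by
  unfold E
  calc ∑ m ∈ range (M + 1), ((T V k ^ m) ((T V (k - 1) ^ b) (zs j))) univ
      ≤ ∑ _m ∈ range (M + 1), (1 : ℝ) := by
        refine sum_le_sum fun m _ => ?_
        have h1 : (T V (k - 1) ^ b) (zs j) ≤ fun _ => (1 : ℝ) := by
          have := T_pow_mono (k-1) b (zs_le_one (V := V) j)
          rwa [T_pow_const] at this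
        have h2 := T_pow_mono k m h1
        rw [T_pow_const] at h2
        exact h2 univ
    _ = M + 1 := by simp

theorem fr_E_k_le_one [Nonempty V] (k b M : ℕ) : E V k k b M ≤ 1 := by
  have key : ∀ N : ℕ, ∑ m ∈ range N, ((T V k ^ m) ((T V (k - 1) ^ b) (zs k))) univ
      = ((T V (k - 1) ^ b) s) univ - ((T V k ^ N) ((T V (k-1) ^ b) s)) univ := by
    intro N
    induction N with
    | zero => simp
    | succ N ih =>
      rw [sum_range_succ, ih]
      have hz : (zs k : Finset (Asg V) → ℝ) = s - T V k s := by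
        rw [T_s]; abel
      have hcomm : (T V (k - 1) ^ b) (T V k s) = T V k ((T V (k-1) ^ b) s) := by
        have h := (T_comm (V := V) (k-1) k).pow_left b
        have := LinearMap.congr_fun h.eq s
        simpa [Module.End.mul_apply] using this
      rw [hz, map_sub, map_sub, hcomm, pow_succ, Module.End.mul_apply, Pi.sub_apply]
      ring
  unfold E
  rw [key]
  have h1 : ((T V (k - 1) ^ b) s) univ ≤ 1 := by
    have := T_pow_mono (k-1) b (s_le_one (V := V))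
    rw [T_pow_const] at this
    exact this univ
  have h2 : 0 ≤ ((T V k ^ (M+1)) ((T V (k-1) ^ b) s)) univ :=
    T_pow_nonneg k (M+1) (T_pow_nonneg (k-1) b s_nonneg) univ
  linarith

theorem fr_E_mono_fun (k b M : ℕ) {f g : Finset (Asg V) → ℝ} (h : f ≤ g) :
    ∑ m ∈ range (M + 1), ((T V k ^ m) ((T V (k - 1) ^ b) f)) univ ≤
    ∑ m ∈ range (M + 1), ((T V k ^ m) ((T V (k - 1) ^ b) g)) univ :=
  sum_le_sum fun m _ => T_pow_mono k m (T_pow_mono (k-1) b h) univ

theorem fr_interp [Nonempty V] (k b M : ℕ) (hk : 3 ≤ k) (η : ℝ) (h0 : 0 < η) (h1 : η ≤ 1) :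
    E V k (k - 1) b M ≤ η * E V k 1 b M + η⁻¹ := by
  have hpt : (zs (k-1) : Finset (Asg V) → ℝ) ≤ η • zs 1 + η⁻¹ • zs k := by
    intro A
    simp only [Pi.add_apply, Pi.smul_apply, smul_eq_mul, zs]
    have hs := s_nonneg (V := V) A
    simp only [Pi.zero_apply] at hs
    have hz0 := z_nonneg A
    have hz1 := z_le_one A
    have : z A ^ (k-1) ≤ η * z A ^ 1 + η⁻¹ * z A ^ k := by
      rcases le_or_gt (z A) η with h | h
      · have e : k - 1 = (k - 3) + 1 + 1 := by omega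
        have hp : z A ^ (k - 3) ≤ 1 := pow_le_one₀ hz0 hz1
        have hpos : 0 ≤ η⁻¹ * z A ^ k := by positivity
        rw [e, pow_succ, pow_succ, pow_one]
        have h2 : z A ^ (k-3) * z A * z A ≤ 1 * η * z A := by
          apply mul_le_mul_of_nonneg_right _ hz0
          exact mul_le_mul hp h hz0 (by norm_num)
        linarith
      · have e : k = (k - 1) + 1 := by omega
        have hpos : 0 ≤ η * z A ^ 1 := by positivity
        have h3 : η⁻¹ * z A ^ k = z A ^ (k-1) * (η⁻¹ * z A) := by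
          conv_lhs => rw [e, pow_succ]
          ring
        have h4 : 1 ≤ η⁻¹ * z A := by
          rw [inv_mul_eq_div, le_div_iff₀ h0]; linarith
        have h5 : z A ^ (k-1) * 1 ≤ z A ^ (k-1) * (η⁻¹ * z A) :=
          mul_le_mul_of_nonneg_left h4 (pow_nonneg hz0 _)
        rw [h3]
        linarith
    calc z A ^ (k-1) * s A ≤ (η * z A ^ 1 + η⁻¹ * z A ^ k) * s A :=
          mul_le_mul_of_nonneg_right this hs
      _ = _ := by ring
  have h2 := fr_E_mono_fun k b M hpt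
  have h3 : ∑ m ∈ range (M + 1), ((T V k ^ m) ((T V (k - 1) ^ b) (η • zs 1 + η⁻¹ • zs k))) univ
      = η * E V k 1 b M + η⁻¹ * E V k k b M := by
    unfold E
    rw [mul_sum, mul_sum, ← sum_add_distrib]
    refine sum_congr rfl fun m _ => ?_
    rw [map_add, map_add, map_smul, map_smul, map_smul, map_smul]
    simp only [Pi.add_apply, Pi.smul_apply, smul_eq_mul]
  rw [h3] at h2
  have h4 := fr_E_k_le_one (V := V) k b M
  have h5 : η⁻¹ * E V k k b M ≤ η⁻¹ * 1 := mul_le_mul_of_nonneg_left h4 (by positivity)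
  calc E V k (k-1) b M ≤ _ := h2
    _ ≤ _ := by linarith

theorem fr_le_one (k b M : ℕ) (hk : 2 ≤ k) :
    E V k (k - 1) b M ≤ E V k 1 b M := by
  have hpt : (zs (k-1) : Finset (Asg V) → ℝ) ≤ zs 1 := by
    intro A
    have hs := s_nonneg (V := V) A
    simp only [Pi.zero_apply] at hs
    exact mul_le_mul_of_nonneg_right
      (pow_le_pow_of_le_one (z_nonneg A) (z_le_one A) (by omega)) hs
  exact fr_E_mono_fun k b M hpt

end

theorem fr_exp_sum (x : ℝ) (hx : 0 ≤ x) (N : ℕ) :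
    ∑ h ∈ range (N + 1), x ^ h / h.factorial * (h : ℝ) ≤ x * Real.exp x := by
  rw [sum_range_succ']
  simp only [Nat.cast_zero, mul_zero, add_zero]
  have : ∀ i ∈ range N, x ^ (i + 1) / ((i+1).factorial : ℝ) * ((i + 1 : ℕ) : ℝ) =
      x * (x ^ i / (i.factorial : ℝ)) := by
    intro i _
    rw [Nat.factorial_succ]
    have h1 : ((i : ℝ) + 1) ≠ 0 := by positivity
    have h2 : (i.factorial : ℝ) ≠ 0 := by positivity
    push_cast
    field_simp
    ring
  rw [sum_congr rfl this, ← mul_sum]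
  exact mul_le_mul_of_nonneg_left (Real.sum_le_exp_of_nonneg hx N) hx

theorem fr_step (k M n0 : ℕ) (hk : 2 ≤ k) (hn0 : 1 ≤ n0) (A B a D : ℝ) (hA : 0 ≤ A)
    (hB : 0 ≤ B)
    (hAB : ∀ n b : ℕ, 1 ≤ n → E (Fin n) k (k - 1) b M ≤ A * E (Fin n) k 1 b M + B)
    (ha : a = (M * k : ℝ) / n0)
    (hD : D = B * (a * Real.exp a) + ((M + 1) * k / n0 : ℝ) ^ 2 + 2 * ((M + 1) * k / n0 : ℝ))
    (hθ : A * (2 * a * Real.exp (2 * a)) ≤ 1 / 2) :
    ∀ j b : ℕ, E (Fin (n0 + j)) k 1 b M ≤ ((1 / 2) ^ j * (M + 1) + 2 * D) * 2 ^ b := by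
  have ha0 : 0 ≤ a := by rw [ha]; positivity
  have hD0 : 0 ≤ D := by
    rw [hD]; positivity
  have hn0' : (0:ℝ) < n0 := by exact_mod_cast hn0
  intro j
  induction j with
  | zero =>
    intro b
    haveI : Nonempty (Fin (n0 + 0)) := ⟨⟨0, by omega⟩⟩
    have h1 := fr_E_le (V := Fin (n0 + 0)) k 1 b M
    have h2 : (1:ℝ) ≤ 2 ^ b := one_le_pow₀ (by norm_num)
    have h3 : (0:ℝ) ≤ (1 / 2) ^ 0 * ((M:ℝ) + 1) + 2 * D := by positivity
    calc E (Fin (n0 + 0)) k 1 b M ≤ M + 1 := h1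
      _ ≤ ((1 / 2) ^ 0 * (M + 1) + 2 * D) * 1 := by
        rw [pow_zero]; linarith
      _ ≤ _ := mul_le_mul_of_nonneg_left h2 h3
  | succ j ih =>
    intro b
    set K : ℝ := (1 / 2) ^ j * (M + 1) + 2 * D with hK
    have hK0 : 0 ≤ K := by rw [hK]; positivity
    haveI : Nonempty (Fin (n0 + j)) := ⟨⟨0, by omega⟩⟩
    have e : Fin (n0 + j) ⊕ Unit ≃ Fin (n0 + (j + 1)) :=
      Fintype.equivOfCardEq (by simp; omega)
    rw [fr_E_equiv e]
    refine le_trans (star k b M hk) ?_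
    have hn : (n0 : ℝ) ≤ (Fintype.card (Fin (n0 + j)) : ℝ) + 1 := by
      rw [Fintype.card_fin]; push_cast
      have : (0:ℝ) ≤ (j:ℝ) := Nat.cast_nonneg j
      linarith
    set ν : ℝ := (Fintype.card (Fin (n0 + j)) : ℝ) + 1 with hν
    have hν0 : 0 < ν := lt_of_lt_of_le hn0' hn
    -- main sum
    have hmain : ∑ h ∈ range (M + 1), ((M * k / ν : ℝ) ^ h / h.factorial) *
        ∑ i ∈ range h, E (Fin (n0 + j)) k (k - 1) (b + i) M ≤
        2 ^ b * (A * K * (2 * a * Real.exp (2 * a)) + B * (a * Real.exp a)) := by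
      have hterm : ∀ h ∈ range (M + 1), ((M * k / ν : ℝ) ^ h / h.factorial) *
          ∑ i ∈ range h, E (Fin (n0 + j)) k (k - 1) (b + i) M ≤
          2 ^ b * (A * K * ((2 * a) ^ h / h.factorial * (h:ℝ)) +
            B * (a ^ h / h.factorial * (h:ℝ))) := by
        intro h _
        have h1 : (M * k / ν : ℝ) ^ h ≤ a ^ h := by
          rw [ha]
          apply pow_le_pow_left₀ (by positivity)
          apply div_le_div_of_nonneg_left (by positivity) hn0' hn
        have h2 : ∑ i ∈ range h, E (Fin (n0 + j)) k (k - 1) (b + i) M ≤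
            2 ^ b * (A * K * (2 ^ h * h) + B * h) := by
          calc ∑ i ∈ range h, E (Fin (n0 + j)) k (k - 1) (b + i) M
              ≤ ∑ _i ∈ range h, 2 ^ b * (A * K * 2 ^ h + B) := by
                refine sum_le_sum fun i hi => ?_
                have h3 := hAB (n0 + j) (b + i) (by omega)
                have h4 := ih (b + i)
                have h5 : (2:ℝ) ^ (b + i) ≤ 2 ^ b * 2 ^ h := by
                  rw [← pow_add]
                  apply pow_le_pow_right₀ (by norm_num)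
                  have := mem_range.1 hi
                  omega
                have h6 : (1:ℝ) ≤ 2 ^ b := one_le_pow₀ (by norm_num)
                have h7 : A * E (Fin (n0 + j)) k 1 (b + i) M ≤ A * (K * (2 ^ b * 2 ^ h)) := by
                  apply mul_le_mul_of_nonneg_left _ hA
                  exact h4.trans (mul_le_mul_of_nonneg_left h5 hK0)
                have h8 : B ≤ 2 ^ b * B := by nlinarith
                calc _ ≤ A * E (Fin (n0 + j)) k 1 (b + i) M + B := h3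
                  _ ≤ A * (K * (2 ^ b * 2 ^ h)) + 2 ^ b * B := by linarith
                  _ = _ := by ring
            _ = _ := by
                rw [sum_const, card_range, nsmul_eq_mul]; ring
        have h9 : 0 ≤ ∑ i ∈ range h, E (Fin (n0 + j)) k (k - 1) (b + i) M :=
          sum_nonneg fun i _ => fr_E_nonneg _ _ _ _
        have h10 : (M * k / ν : ℝ) ^ h / h.factorial ≤ a ^ h / h.factorial :=
          div_le_div_of_nonneg_right h1 (by positivity)
        calc _ ≤ (a ^ h / h.factorial) * (2 ^ b * (A * K * (2 ^ h * h) + B * h)) :=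
              mul_le_mul h10 h2 h9 (by positivity)
          _ = _ := by rw [mul_pow]; ring
      refine le_trans (sum_le_sum hterm) ?_
      rw [← mul_sum, sum_add_distrib, ← mul_sum, ← mul_sum]
      apply mul_le_mul_of_nonneg_left _ (by positivity)
      apply add_le_add
      · exact mul_le_mul_of_nonneg_left (fr_exp_sum (2 * a) (by positivity) M) (by positivity)
      · exact mul_le_mul_of_nonneg_left (fr_exp_sum a ha0 M) hB
    have h2b : (1:ℝ) ≤ 2 ^ b := one_le_pow₀ (by norm_num)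
    have hb2 : (b:ℝ) ≤ 2 ^ b := by exact_mod_cast (Nat.lt_two_pow_self (n := b)).le
    have hsq : ((M:ℝ) + 1) ^ 2 * k ^ 2 / ν ^ 2 ≤ 2 ^ b * ((M + 1) * k / n0 : ℝ) ^ 2 := by
      have h1 : ((M:ℝ) + 1) ^ 2 * k ^ 2 / ν ^ 2 ≤ ((M + 1) * k / n0 : ℝ) ^ 2 := by
        rw [div_pow, mul_pow]
        apply div_le_div_of_nonneg_left (by positivity) (by positivity)
        exact pow_le_pow_left₀ hn0'.le hn 2
      have h2 : (0:ℝ) ≤ ((M + 1) * k / n0 : ℝ) ^ 2 := by positivity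
      nlinarith
    have hlin : 2 * (b:ℝ) * (M + 1) * k / ν ≤ 2 ^ b * (2 * ((M + 1) * k / n0 : ℝ)) := by
      have h1 : 2 * (b:ℝ) * (M + 1) * k / ν ≤ 2 * (b:ℝ) * (M + 1) * k / n0 :=
        div_le_div_of_nonneg_left (by positivity) hn0' hn
      have h2 : 2 * (b:ℝ) * (M + 1) * k / n0 = b * (2 * ((M + 1) * k / n0 : ℝ)) := by ring
      rw [h2] at h1
      exact h1.trans (mul_le_mul_of_nonneg_right hb2 (by positivity))
    have hfin : A * K * (2 * a * Real.exp (2 * a)) ≤ 1 / 2 * K := by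
      have := mul_le_mul_of_nonneg_right hθ hK0
      linarith
    have hgoal : 2 ^ b * (A * K * (2 * a * Real.exp (2 * a)) + B * (a * Real.exp a)) +
        2 ^ b * ((M + 1) * k / n0 : ℝ) ^ 2 + 2 ^ b * (2 * ((M + 1) * k / n0 : ℝ)) ≤
        ((1 / 2) ^ (j + 1) * (M + 1) + 2 * D) * 2 ^ b := by
      have h1 : (1 / 2 : ℝ) ^ (j + 1) * (M + 1) + 2 * D = 1 / 2 * K + D := by
        rw [hK, pow_succ]; ring
      have h2 : 2 ^ b * (A * K * (2 * a * Real.exp (2 * a)) + B * (a * Real.exp a)) +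
        2 ^ b * ((M + 1) * k / n0 : ℝ) ^ 2 + 2 ^ b * (2 * ((M + 1) * k / n0 : ℝ)) =
        (A * K * (2 * a * Real.exp (2 * a)) + D) * 2 ^ b := by
        rw [hD]; ring
      rw [h1, h2]
      apply mul_le_mul_of_nonneg_right _ (by positivity)
      linarith
    linarith

theorem fr_pow_half (n : ℕ) (c : ℝ) (hc : 0 ≤ c) (M : ℕ) (hM : (M : ℝ) ≤ c * n) :
    (1 / 2 : ℝ) ^ (n / 2) * (M + 1) ≤ 3 * (c + 1) := by
  have h1 : (n : ℝ) ≤ 2 * ((n / 2 : ℕ) : ℝ) + 1 := by
    have : n ≤ 2 * (n / 2) + 1 := by omega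
    exact_mod_cast this
  have h2 : (((n / 2 : ℕ)) : ℝ) ≤ 2 ^ (n / 2) := by
    exact_mod_cast (Nat.lt_two_pow_self (n := n / 2)).le
  have h3 : (1 : ℝ) ≤ 2 ^ (n / 2) := one_le_pow₀ (by norm_num)
  have h4 : (n : ℝ) ≤ 3 * 2 ^ (n / 2) := by linarith
  have h5 : (M : ℝ) + 1 ≤ 3 * (c + 1) * 2 ^ (n / 2) := by nlinarith
  calc (1 / 2 : ℝ) ^ (n / 2) * (M + 1) ≤ (1 / 2 : ℝ) ^ (n / 2) * (3 * (c + 1) * 2 ^ (n / 2)) :=
        mul_le_mul_of_nonneg_left h5 (by positivity)
    _ = 3 * (c + 1) * ((1 / 2 : ℝ) * 2) ^ (n / 2) := by rw [mul_pow]; ring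
    _ = 3 * (c + 1) := by norm_num

theorem frozen (k : ℕ) (hk : 3 ≤ k) (c : ℝ) (hc : 0 < c) : ∃ C : ℝ, 0 < C ∧ ∀ n M : ℕ,
    1 ≤ n → (M : ℝ) ≤ c * n → E (Fin n) k 1 0 M ≤ C := by
  have hk0 : (0:ℝ) < k := by exact_mod_cast (by omega : 0 < k)
  -- parameters
  set a1 : ℝ := 2 * c * k with ha1
  have ha10 : 0 < a1 := by positivity
  set η : ℝ := min 1 (1 / (2 * (2 * a1 * Real.exp (2 * a1)))) with hη
  have hη0 : 0 < η := by
    rw [hη]; apply lt_min one_pos; positivity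
  have hη1 : η ≤ 1 := min_le_left _ _
  set D1 : ℝ := η⁻¹ * (a1 * Real.exp a1) + (2 * (c + 1) * k) ^ 2 + 2 * (2 * (c + 1) * k) with hD1
  have hD10 : 0 < D1 := by positivity
  refine ⟨3 * (c + 1) + 2 * D1, by positivity, ?_⟩
  intro n M hn hM
  set n0 : ℕ := n - n / 2 with hn0
  have hn01 : 1 ≤ n0 := by omega
  have hnj : n = n0 + n / 2 := by omega
  have hn0' : (0:ℝ) < n0 := by exact_mod_cast hn01
  have hn2 : (n : ℝ) ≤ 2 * n0 := by
    have : n ≤ 2 * n0 := by omega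
    exact_mod_cast this
  have hn1 : (1:ℝ) ≤ n := by exact_mod_cast hn
  have haa : (M * k : ℝ) / n0 ≤ a1 := by
    rw [div_le_iff₀ hn0', ha1]
    have : (M:ℝ) ≤ c * (2 * n0) := hM.trans (mul_le_mul_of_nonneg_left hn2 hc.le)
    nlinarith
  have haa0 : 0 ≤ (M * k : ℝ) / n0 := by positivity
  have hMk : ((M:ℝ) + 1) * k / n0 ≤ 2 * (c + 1) * k := by
    rw [div_le_iff₀ hn0']
    have h1 : (M:ℝ) + 1 ≤ (c + 1) * (2 * n0) := by nlinarith
    nlinarith
  have hMk0 : 0 ≤ ((M:ℝ) + 1) * k / n0 := by positivity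
  have hexp1 : Real.exp ((M * k : ℝ) / n0) ≤ Real.exp a1 := Real.exp_le_exp.2 haa
  have hexp2 : Real.exp (2 * ((M * k : ℝ) / n0)) ≤ Real.exp (2 * a1) :=
    Real.exp_le_exp.2 (by linarith)
  have hstep := fr_step k M n0 (by omega) hn01 η η⁻¹ ((M * k : ℝ) / n0)
    (η⁻¹ * ((M * k : ℝ) / n0 * Real.exp ((M * k : ℝ) / n0)) + ((M + 1) * k / n0 : ℝ) ^ 2
      + 2 * ((M + 1) * k / n0 : ℝ)) hη0.le (by positivity)
    (fun n' b hn' => by
      haveI : Nonempty (Fin n') := ⟨⟨0, by omega⟩⟩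
      exact fr_interp k b M hk η hη0 hη1) rfl rfl
    (by
      have h1 : 2 * ((M * k : ℝ) / n0) * Real.exp (2 * ((M * k : ℝ) / n0)) ≤
          2 * a1 * Real.exp (2 * a1) :=
        mul_le_mul (by linarith) hexp2 (Real.exp_pos _).le (by positivity)
      have h2 : η ≤ 1 / (2 * (2 * a1 * Real.exp (2 * a1))) := min_le_right _ _
      calc η * (2 * ((M * k : ℝ) / n0) * Real.exp (2 * ((M * k : ℝ) / n0)))
          ≤ 1 / (2 * (2 * a1 * Real.exp (2 * a1))) * (2 * a1 * Real.exp (2 * a1)) :=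
            mul_le_mul h2 h1 (by positivity) (by positivity)
        _ = 1 / 2 := by
            have : 2 * a1 * Real.exp (2 * a1) ≠ 0 := by positivity
            field_simp) (n / 2) 0
  rw [← hnj, pow_zero, mul_one] at hstep
  refine hstep.trans ?_
  have h1 := fr_pow_half n c hc.le M hM
  have h2 : η⁻¹ * ((M * k : ℝ) / n0 * Real.exp ((M * k : ℝ) / n0)) ≤
      η⁻¹ * (a1 * Real.exp a1) :=
    mul_le_mul_of_nonneg_left (mul_le_mul haa hexp1 (Real.exp_pos _).le ha10.le) (by positivity)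
  have h3 : (((M:ℝ) + 1) * k / n0) ^ 2 ≤ (2 * (c + 1) * k) ^ 2 :=
    pow_le_pow_left₀ hMk0 hMk 2
  rw [hD1]
  linarith

theorem fr_pow_half' (j : ℕ) (hj : 8 ≤ j) : 8 * (2 * j + 2) ≤ 2 ^ j := by
  induction j, hj using Nat.le_induction with
  | base => norm_num
  | succ n hn ih => rw [pow_succ]; omega

theorem frozen_small (k : ℕ) (hk : 3 ≤ k) : ∃ c0 : ℝ, 0 < c0 ∧ ∃ n0 : ℕ, ∀ n M : ℕ,
    n0 ≤ n → (M : ℝ) ≤ c0 * n → E (Fin n) k 1 0 M ≤ 1 / 4 := by
  have hk0 : (0:ℝ) < k := by exact_mod_cast (by omega : 0 < k)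
  have hk3 : (3:ℝ) ≤ k := by exact_mod_cast hk
  refine ⟨1 / (200 * k), by positivity, 200 * k + 16, ?_⟩
  intro n M hn hM
  set n0 : ℕ := n - n / 2 with hn0
  have hn01 : 1 ≤ n0 := by omega
  have hnj : n = n0 + n / 2 := by omega
  have hn0' : (0:ℝ) < n0 := by exact_mod_cast hn01
  have hn2 : (n : ℝ) ≤ 2 * n0 := by
    have : n ≤ 2 * n0 := by omega
    exact_mod_cast this
  have hnn : (200 : ℝ) * k ≤ n := by
    have : 200 * k ≤ n := by omega
    exact_mod_cast this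
  have hMk' : (M:ℝ) * k ≤ n / 200 := by
    have := mul_le_mul_of_nonneg_right hM hk0.le
    calc (M:ℝ) * k ≤ 1 / (200 * k) * n * k := this
      _ = n / 200 := by field_simp
  have haa : (M * k : ℝ) / n0 ≤ 1 / 100 := by
    rw [div_le_iff₀ hn0']
    linarith
  have haa0 : 0 ≤ (M * k : ℝ) / n0 := by positivity
  have hMk : ((M:ℝ) + 1) * k / n0 ≤ 1 / 50 := by
    rw [div_le_iff₀ hn0']
    have h2 : ((M:ℝ) + 1) * k = M * k + k := by ring
    rw [h2]
    linarith
  have hMk0 : 0 ≤ ((M:ℝ) + 1) * k / n0 := by positivity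
  have hexp2 : Real.exp (2 * ((M * k : ℝ) / n0)) ≤ 3 := by
    have h1 : Real.exp (2 * ((M * k : ℝ) / n0)) ≤ Real.exp 1 :=
      Real.exp_le_exp.2 (by linarith)
    have h2 := Real.exp_one_lt_d9
    linarith
  have hstep := fr_step k M n0 (by omega) hn01 1 0 ((M * k : ℝ) / n0)
    (0 * ((M * k : ℝ) / n0 * Real.exp ((M * k : ℝ) / n0)) + ((M + 1) * k / n0 : ℝ) ^ 2
      + 2 * ((M + 1) * k / n0 : ℝ)) zero_le_one le_rfl
    (fun n' b hn' => by
      rw [one_mul, add_zero]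
      exact fr_le_one k b M (by omega)) rfl rfl
    (by
      have h1 : 2 * ((M * k : ℝ) / n0) * Real.exp (2 * ((M * k : ℝ) / n0)) ≤
          2 * (1 / 100) * 3 :=
        mul_le_mul (by linarith) hexp2 (Real.exp_pos _).le (by positivity)
      linarith) (n / 2) 0
  rw [← hnj, pow_zero, mul_one] at hstep
  refine hstep.trans ?_
  have h1 : (1 / 2 : ℝ) ^ (n / 2) * (M + 1) ≤ 1 / 8 := by
    have h2 := fr_pow_half' (n / 2) (by omega)
    have h3 : M ≤ n := by
      have : (M:ℝ) ≤ n := by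
        refine hM.trans ?_
        rw [div_mul_eq_mul_div, one_mul, div_le_iff₀ (by positivity)]
        nlinarith [Nat.cast_nonneg (α := ℝ) n]
      exact_mod_cast this
    have h4 : 8 * (M + 1) ≤ 2 ^ (n / 2) := by omega
    have h5 : (8:ℝ) * (M + 1) ≤ 2 ^ (n / 2) := by exact_mod_cast h4
    calc (1 / 2 : ℝ) ^ (n / 2) * (M + 1) ≤ (1 / 2 : ℝ) ^ (n / 2) * (2 ^ (n / 2) / 8) :=
          mul_le_mul_of_nonneg_left (by linarith) (by positivity)
      _ = ((1 / 2 : ℝ) * 2) ^ (n / 2) / 8 := by rw [mul_pow]; ring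
      _ = 1 / 8 := by norm_num
  have h3 : (((M:ℝ) + 1) * k / n0) ^ 2 ≤ (1 / 50) ^ 2 :=
    pow_le_pow_left₀ hMk0 hMk 2
  linarith

end Vale.Agent.P170
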