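import Vale.Agent.Lib.P170.Embed

/-! # P170, module INTERP: supermultiplicativity (Franz-Leone / Bayati-Gamarnik-Tetali)

On `V ⊕ W`: `BV Φ A` = average of `Φ (cut c A)` over clauses `c` with all literals in `V`, similarly
`BW`; `B = p BV + (1-p) BW` with `p = pr V W`.  All these operators and `T = T (V ⊕ W) k` commute
and are positive.  `(T - B) s ≥ 0` pointwise: `s - T s = z^k s`, `s - B s = (p zV^k + (1-p) zW^k) s`,
where `zV`, `zW` are the fractions of falsified literals over `V`, `W`, `z = p zV + (1-p) zW`, and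
`x ↦ x^k` is convex.  Hence `T^m s - B^m s = ∑_{i<m} T^{m-1-i} B^i (T - B) s ≥ 0` at `univ`.
`B^m = ∑_j C(m,j) p^j (1-p)^{m-j} BV^j BW^{m-j}` (`Commute.add_pow`) and
`BV^j BW^i s univ = Q V k j * Q W k i` (sets of the form `A ×ˢ A'`,
`s (A ×ˢ A') = s A * s A'`). -/

namespace Vale.Agent.P170

open Finset

set_option linter.unusedSectionVars false

section
variable {V U : Type} [Fintype V] [DecidableEq V] [Fintype U] [DecidableEq U]

/-- the clause over `V` seen as a clause over `U` -/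
def ip_emb (f : V → U) {k : ℕ} (c : Fin k → Lit V) : Fin k → Lit U :=
  fun i => (f (c i).1, (c i).2)

/-- averaging over random clauses whose literals come from `f : V → U` -/
noncomputable def ip_T (f : V → U) (k : ℕ) : Module.End ℝ (Finset (Asg U) → ℝ) where
  toFun Φ := fun A => (∑ c : Fin k → Lit V, Φ (cut (ip_emb f c) A)) / (2 * Fintype.card V : ℝ) ^ k
  map_add' Φ Ψ := by
    funext A
    simp only [Pi.add_apply, sum_add_distrib, add_div]
  map_smul' r Φ := by
    funext A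
    simp only [Pi.smul_apply, smul_eq_mul, RingHom.id_apply]
    rw [← mul_sum, mul_div_assoc]

theorem ip_T_apply (f : V → U) (k : ℕ) (Φ : Finset (Asg U) → ℝ) (A : Finset (Asg U)) :
    ip_T f k Φ A = (∑ c : Fin k → Lit V, Φ (cut (ip_emb f c) A)) / (2 * Fintype.card V : ℝ) ^ k :=
  rfl

theorem ip_T_mono (f : V → U) (k : ℕ) {Φ Ψ : Finset (Asg U) → ℝ} (h : Φ ≤ Ψ) :
    ip_T f k Φ ≤ ip_T f k Ψ := by
  intro A
  rw [ip_T_apply, ip_T_apply]
  exact div_le_div_of_nonneg_right (sum_le_sum fun c _ => h _) (den_nonneg k)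

theorem ip_T_comm {W : Type} [Fintype W] [DecidableEq W] (f : V → U) (g : W → U) (i j : ℕ) :
    Commute (ip_T f i) (ip_T g j) := by
  apply LinearMap.ext
  intro Φ
  funext A
  rw [Module.End.mul_apply, Module.End.mul_apply, ip_T_apply, ip_T_apply]
  simp only [ip_T_apply]
  rw [← sum_div, ← sum_div, div_div, div_div, mul_comm ((2 * (Fintype.card V : ℝ)) ^ i)]
  congr 1
  rw [sum_comm]
  refine sum_congr rfl fun c _ => sum_congr rfl fun d _ => ?_
  rw [cut_comm]

theorem ip_T_id (k : ℕ) : ip_T (id : V → V) k = T V k := by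
  apply LinearMap.ext
  intro Φ
  funext A
  rw [ip_T_apply, T_apply]
  rfl

/-- fraction of the falsified literals coming from `V` -/
noncomputable def ip_z (f : V → U) (A : Finset (Asg U)) : ℝ :=
  ((univ.filter (fun l : Lit V => ∀ σ ∈ A, σ (f l.1) ≠ l.2)).card : ℝ) /
    (2 * Fintype.card V : ℝ)

theorem ip_z_nonneg (f : V → U) (A : Finset (Asg U)) : 0 ≤ ip_z f A := by
  unfold ip_z; positivity

theorem ip_sum_kill (f : V → U) (k : ℕ) (A : Finset (Asg U)) :
    (∑ c : Fin k → Lit V, kill (ip_emb f c) A) / (2 * Fintype.card V : ℝ) ^ k =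
      ip_z f A ^ k := by
  unfold ip_z
  rw [div_pow]
  congr 1
  unfold kill
  rw [sum_boole]
  have : (univ.filter fun c : Fin k → Lit V =>
      ∀ i, ∀ σ ∈ A, σ (ip_emb f c i).1 ≠ (ip_emb f c i).2) =
      Fintype.piFinset (fun _ : Fin k =>
        univ.filter (fun l : Lit V => ∀ σ ∈ A, σ (f l.1) ≠ l.2)) := by
    ext c
    rw [mem_filter, Fintype.mem_piFinset]
    simp only [mem_univ, true_and, mem_filter]
    rfl
  rw [this, Fintype.card_piFinset, prod_const, card_univ, Fintype.card_fin]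
  push_cast
  rfl

theorem ip_T_s [Nonempty V] (f : V → U) (k : ℕ) (A : Finset (Asg U)) :
    ip_T f k s A = s A - ip_z f A ^ k * s A := by
  rw [ip_T_apply, ← ip_sum_kill f k A]
  have h : s A = (∑ _c : Fin k → Lit V, s A) / (2 * Fintype.card V : ℝ) ^ k := by
    rw [sum_const, nsmul_eq_mul, card_univ, card_clause]
    field_simp [(den_pos (V := V) k).ne']
  have h2 : ∀ c : Fin k → Lit V, s (cut (ip_emb f c) A) = s A - kill (ip_emb f c) A * s A := by
    intro c
    have := s_sub_cut (ip_emb f c) A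
    linarith
  rw [sum_congr rfl (fun c _ => h2 c), sum_sub_distrib, sub_div, ← h, ← sum_mul,
    div_mul_eq_mul_div]

end

section
variable {V W : Type} [Fintype V] [DecidableEq V] [Fintype W] [DecidableEq W]

/-- product sets -/
def ip_ps (A : Finset (Asg V)) (A' : Finset (Asg W)) : Finset (Asg (V ⊕ W)) :=
  univ.filter (fun σ => (fun v => σ (Sum.inl v)) ∈ A ∧ (fun w => σ (Sum.inr w)) ∈ A')

theorem ip_ps_univ : ip_ps (univ : Finset (Asg V)) (univ : Finset (Asg W)) = univ := by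
  unfold ip_ps; simp

theorem ip_s_ps (A : Finset (Asg V)) (A' : Finset (Asg W)) : s (ip_ps A A') = s A * s A' := by
  have key : (ip_ps A A').Nonempty ↔ A.Nonempty ∧ A'.Nonempty := by
    constructor
    · rintro ⟨σ, hσ⟩
      unfold ip_ps at hσ
      rw [mem_filter] at hσ
      exact ⟨⟨_, hσ.2.1⟩, ⟨_, hσ.2.2⟩⟩
    · rintro ⟨⟨σ, hσ⟩, ⟨τ, hτ⟩⟩
      refine ⟨Sum.elim σ τ, ?_⟩
      unfold ip_ps
      rw [mem_filter]
      exact ⟨mem_univ _, by simpa using hσ, by simpa using hτ⟩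
  unfold s
  by_cases h1 : A.Nonempty
  · by_cases h2 : A'.Nonempty
    · rw [if_pos (key.2 ⟨h1, h2⟩), if_pos h1, if_pos h2]; norm_num
    · rw [if_neg (fun h => h2 (key.1 h).2), if_pos h1, if_neg h2]; norm_num
  · rw [if_neg (fun h => h1 (key.1 h).1), if_neg h1]; norm_num

theorem ip_cut_inl {k : ℕ} (c : Fin k → Lit V) (A : Finset (Asg V)) (A' : Finset (Asg W)) :
    cut (ip_emb Sum.inl c) (ip_ps A A') = ip_ps (cut c A) A' := by
  ext σ
  simp only [cut, ip_ps, mem_filter, mem_univ, true_and]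
  simp only [ip_emb]
  tauto

theorem ip_cut_inr {k : ℕ} (c : Fin k → Lit W) (A : Finset (Asg V)) (A' : Finset (Asg W)) :
    cut (ip_emb Sum.inr c) (ip_ps A A') = ip_ps A (cut c A') := by
  ext σ
  simp only [cut, ip_ps, mem_filter, mem_univ, true_and]
  simp only [ip_emb]
  tauto

theorem ip_pow_inl (k j : ℕ) (Φ : Finset (Asg (V ⊕ W)) → ℝ) (A : Finset (Asg V))
    (A' : Finset (Asg W)) :
    ((ip_T (Sum.inl : V → V ⊕ W) k ^ j) Φ) (ip_ps A A') =
      ((T V k ^ j) (fun B => Φ (ip_ps B A'))) A := by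
  induction j generalizing Φ A with
  | zero => simp
  | succ j ih =>
    have h : (fun B => ip_T (Sum.inl : V → V ⊕ W) k Φ (ip_ps B A')) =
        T V k (fun B => Φ (ip_ps B A')) := by
      funext B
      rw [ip_T_apply, T_apply]
      congr 1
      exact sum_congr rfl fun c _ => by rw [ip_cut_inl]
    rw [pow_succ, Module.End.mul_apply, ih, h, pow_succ, Module.End.mul_apply]

theorem ip_pow_inr (k j : ℕ) (Φ : Finset (Asg (V ⊕ W)) → ℝ) (A : Finset (Asg V))
    (A' : Finset (Asg W)) :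
    ((ip_T (Sum.inr : W → V ⊕ W) k ^ j) Φ) (ip_ps A A') =
      ((T W k ^ j) (fun B => Φ (ip_ps A B))) A' := by
  induction j generalizing Φ A' with
  | zero => simp
  | succ j ih =>
    have h : (fun B => ip_T (Sum.inr : W → V ⊕ W) k Φ (ip_ps A B)) =
        T W k (fun B => Φ (ip_ps A B)) := by
      funext B
      rw [ip_T_apply, T_apply]
      congr 1
      exact sum_congr rfl fun c _ => by rw [ip_cut_inr]
    rw [pow_succ, Module.End.mul_apply, ih, h, pow_succ, Module.End.mul_apply]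

theorem ip_prod (k j i : ℕ) :
    ((ip_T (Sum.inl : V → V ⊕ W) k ^ j) ((ip_T (Sum.inr : W → V ⊕ W) k ^ i) s)) univ =
      Q V k j * Q W k i := by
  rw [← ip_ps_univ, ip_pow_inl]
  have h : (fun B : Finset (Asg V) =>
      ((ip_T (Sum.inr : W → V ⊕ W) k ^ i) s) (ip_ps B univ)) = (Q W k i) • s := by
    funext B
    rw [ip_pow_inr]
    have h2 : (fun B' : Finset (Asg W) => s (ip_ps B B')) = (s B) • s := by
      funext B'
      rw [ip_s_ps]; rfl
    rw [h2, map_smul, Pi.smul_apply, Pi.smul_apply, smul_eq_mul, smul_eq_mul]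
    unfold Q
    ring
  rw [h, map_smul, Pi.smul_apply, smul_eq_mul]
  unfold Q
  ring

theorem ip_z_sum [Nonempty V] [Nonempty W] (A : Finset (Asg (V ⊕ W))) :
    z A = pr V W * ip_z (Sum.inl : V → V ⊕ W) A +
      (1 - pr V W) * ip_z (Sum.inr : W → V ⊕ W) A := by
  have hV : (0:ℝ) < Fintype.card V := by exact_mod_cast Fintype.card_pos
  have hW : (0:ℝ) < Fintype.card W := by exact_mod_cast Fintype.card_pos
  have hcard : (univ.filter (fun l : Lit (V ⊕ W) => ∀ σ ∈ A, σ l.1 ≠ l.2)).card =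
      (univ.filter (fun l : Lit V => ∀ σ ∈ A, σ (Sum.inl l.1) ≠ l.2)).card +
      (univ.filter (fun l : Lit W => ∀ σ ∈ A, σ (Sum.inr l.1) ≠ l.2)).card := by
    rw [card_filter, card_filter, card_filter]
    rw [Fintype.sum_prod_type, Fintype.sum_sum_type, Fintype.sum_prod_type,
      Fintype.sum_prod_type]
  unfold z ip_z pr
  rw [hcard, Fintype.card_sum]
  push_cast
  field_simp
  ring

/-- the block operator -/
noncomputable def ip_B (V W : Type) [Fintype V] [DecidableEq V] [Fintype W] [DecidableEq W]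
    (k : ℕ) : Module.End ℝ (Finset (Asg (V ⊕ W)) → ℝ) :=
  pr V W • ip_T (Sum.inl : V → V ⊕ W) k + (1 - pr V W) • ip_T (Sum.inr : W → V ⊕ W) k

theorem ip_B_mono (k : ℕ) {Φ Ψ : Finset (Asg (V ⊕ W)) → ℝ} (h : Φ ≤ Ψ) :
    ip_B V W k Φ ≤ ip_B V W k Ψ := by
  intro A
  simp only [ip_B, LinearMap.add_apply, LinearMap.smul_apply, Pi.add_apply, Pi.smul_apply,
    smul_eq_mul]
  apply add_le_add
  · exact mul_le_mul_of_nonneg_left (ip_T_mono _ k h A) pr_nonneg
  · exact mul_le_mul_of_nonneg_left (ip_T_mono _ k h A) (sub_nonneg.2 pr_le_one)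

theorem ip_B_comm (k : ℕ) : Commute (T (V ⊕ W) k) (ip_B V W k) := by
  rw [← ip_T_id]
  unfold ip_B
  exact ((ip_T_comm _ _ k k).smul_right _).add_right ((ip_T_comm _ _ k k).smul_right _)

theorem ip_B_s [Nonempty V] [Nonempty W] (k : ℕ) : ip_B V W k s ≤ T (V ⊕ W) k s := by
  intro A
  rw [T_s]
  simp only [ip_B, LinearMap.add_apply, LinearMap.smul_apply, Pi.add_apply, Pi.smul_apply,
    smul_eq_mul, Pi.sub_apply, zs]
  rw [ip_T_s, ip_T_s, ip_z_sum]
  have hs := s_nonneg A
  simp only [Pi.zero_apply] at hs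
  have hconv := (convexOn_pow k).2 (Set.mem_Ici.2 (ip_z_nonneg (Sum.inl : V → V ⊕ W) A))
    (Set.mem_Ici.2 (ip_z_nonneg (Sum.inr : W → V ⊕ W) A)) (pr_nonneg (V := V) (W := W))
    (sub_nonneg.2 (pr_le_one (V := V) (W := W))) (by ring)
  simp only [smul_eq_mul] at hconv
  have := mul_le_mul_of_nonneg_right hconv hs
  nlinarith [this]

theorem ip_pow_le [Nonempty V] [Nonempty W] (k m : ℕ) :
    (ip_B V W k ^ m) s ≤ (T (V ⊕ W) k ^ m) s := by
  induction m with
  | zero => simp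
  | succ m ih =>
    have h1 : (T (V ⊕ W) k ^ (m + 1)) s = (T (V ⊕ W) k ^ m) (T (V ⊕ W) k s) := by
      rw [pow_succ, Module.End.mul_apply]
    have h2 : (T (V ⊕ W) k ^ m) (ip_B V W k s) ≤ (T (V ⊕ W) k ^ m) (T (V ⊕ W) k s) :=
      T_pow_mono k m (ip_B_s k)
    have h3 : (T (V ⊕ W) k ^ m) (ip_B V W k s) = ip_B V W k ((T (V ⊕ W) k ^ m) s) := by
      have h := (ip_B_comm (V := V) (W := W) k).pow_left m
      have := LinearMap.congr_fun h.eq s
      simpa [Module.End.mul_apply] using this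
    rw [h1, pow_succ', Module.End.mul_apply]
    refine le_trans ?_ h2
    rw [h3]
    exact ip_B_mono k ih

end

theorem interp {V W : Type} [Fintype V] [DecidableEq V] [Fintype W] [DecidableEq W]
    [Nonempty V] [Nonempty W] (k m : ℕ) :
    ∑ j ∈ range (m + 1), (m.choose j : ℝ) * pr V W ^ j * (1 - pr V W) ^ (m - j) *
      (Q V k j * Q W k (m - j)) ≤ Q (V ⊕ W) k m := by
  have h1 := ip_pow_le (V := V) (W := W) k m univ
  refine le_trans (le_of_eq ?_) h1
  have hc : Commute (pr V W • ip_T (Sum.inl : V → V ⊕ W) k)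
      ((1 - pr V W) • ip_T (Sum.inr : W → V ⊕ W) k) :=
    ((ip_T_comm _ _ k k).smul_left _).smul_right _
  have h2 : ip_B V W k ^ m = ∑ j ∈ range (m + 1),
      (pr V W • ip_T (Sum.inl : V → V ⊕ W) k) ^ j *
        ((1 - pr V W) • ip_T (Sum.inr : W → V ⊕ W) k) ^ (m - j) * (m.choose j : ℕ) := by
    unfold ip_B
    exact hc.add_pow m
  rw [h2, LinearMap.sum_apply, Finset.sum_apply]
  refine sum_congr rfl fun j _ => ?_
  have h3 : (((pr V W • ip_T (Sum.inl : V → V ⊕ W) k) ^ j *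
        ((1 - pr V W) • ip_T (Sum.inr : W → V ⊕ W) k) ^ (m - j) * (m.choose j : ℕ)) s) =
      ((m.choose j : ℝ) * pr V W ^ j * (1 - pr V W) ^ (m - j)) •
      ((ip_T (Sum.inl : V → V ⊕ W) k ^ j) ((ip_T (Sum.inr : W → V ⊕ W) k ^ (m - j)) s)) := by
    rw [smul_pow, smul_pow, ← nsmul_eq_mul']
    rw [LinearMap.smul_apply, Module.End.mul_apply, LinearMap.smul_apply, LinearMap.smul_apply,
      map_smul, ← Nat.cast_smul_eq_nsmul ℝ, smul_smul, smul_smul]
  rw [h3, Pi.smul_apply, smul_eq_mul, ip_prod]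

end Vale.Agent.P170
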