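import Mathlib

/-! # P170, module LIMIT (pure real analysis, independent of the other modules)

`R n = ⌈n^{7/8}⌉`; `limM q n = min {m | q n m < 3/4}`.
1. `lim_window`: for `0 < δ ≤ 1/4` there are `L, n1` such that for `n ≥ n1`: `q n m ≤ 1 - δ` implies
   `q n (m + L * R n) ≤ δ`.
2. `lim_super` (`hint` and Chebyshev's inequality for the binomial distribution): along balanced
   splittings `M(a+b)/(a+b) ≥ min (M a/a) (M b/b) - C (a+b)^{-1/8}`.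
3. `lim_mult`: `M(L n0)/(L n0) ≥ M n0/n0 - B (n0^{-1/8} - (L n0)^{-1/8})`.
4. `lim_fill` (one term of `hint`: all clauses fall into the big part, and the small part carries
   no clause): `M N/N ≥ M(L n0)/(L n0) - E N^{-1/8}` for a suitable `L`.
5. `lim_conv`: `M n/n` converges; `limit_exists` follows from `lim_window`. -/

namespace Vale.Agent.P170

open Finset Filter Topology

/-- total mass of the binomial distribution -/
theorem lim_binom_sum (m : ℕ) (p : ℝ) :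
    ∑ j ∈ range (m + 1), (m.choose j : ℝ) * p ^ j * (1 - p) ^ (m - j) = 1 := by
  have h := congrArg (Polynomial.eval p) (bernsteinPolynomial.sum ℝ m)
  rw [Polynomial.eval_finsetSum] at h
  simpa [bernsteinPolynomial] using h

/-- variance of the binomial distribution -/
theorem lim_binom_var (m : ℕ) (p : ℝ) :
    ∑ j ∈ range (m + 1), (m.choose j : ℝ) * p ^ j * (1 - p) ^ (m - j) * (m * p - j) ^ 2 =
      m * p * (1 - p) := by
  have h := congrArg (Polynomial.eval p) (bernsteinPolynomial.variance ℝ m)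
  rw [Polynomial.eval_finsetSum] at h
  simp only [bernsteinPolynomial, nsmul_eq_mul, Polynomial.eval_mul, Polynomial.eval_pow,
    Polynomial.eval_sub, Polynomial.eval_natCast, Polynomial.eval_X, Polynomial.eval_one] at h
  rw [← h]
  refine Finset.sum_congr rfl fun j _ => ?_
  ring

/-- `u n = n^{-1/8}` tends to zero -/
theorem lim_u_tendsto : Tendsto (fun n : ℕ => (n : ℝ) ^ (-(1 / 8) : ℝ)) atTop (𝓝 0) :=
  (tendsto_rpow_neg_atTop (by norm_num : (0 : ℝ) < 1 / 8)).comp tendsto_natCast_atTop_atTop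

theorem lim_inv_tendsto : Tendsto (fun n : ℕ => 1 / (n : ℝ)) atTop (𝓝 0) :=
  tendsto_one_div_atTop_nhds_zero_nat

/-- `⌈n^{7/8}⌉ / n ≤ 2 n^{-1/8}` -/
theorem lim_R_le (n : ℕ) (hn : 1 ≤ n) :
    ((⌈(n : ℝ) ^ (7 / 8 : ℝ)⌉₊ : ℕ) : ℝ) ≤ 2 * (n : ℝ) ^ (-(1 / 8) : ℝ) * n := by
  have hn' : (1 : ℝ) ≤ n := by exact_mod_cast hn
  have h0 : (0 : ℝ) < n := by linarith
  have h1 : (n : ℝ) ^ (7 / 8 : ℝ) = (n : ℝ) ^ (-(1 / 8) : ℝ) * n := by
    rw [← Real.rpow_add_one h0.ne']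
    norm_num
  have h2 : (1 : ℝ) ≤ (n : ℝ) ^ (7 / 8 : ℝ) := Real.one_le_rpow hn' (by norm_num)
  have h3 := (Nat.ceil_lt_add_one (by positivity : (0 : ℝ) ≤ (n : ℝ) ^ (7 / 8 : ℝ))).le
  rw [h1] at h3 h2
  rw [h1]
  linarith

/-- the binomial convolution bound (Chebyshev): if `f ≥ 9/16` on `|j - m p| < s` and `f ≥ 0`, then
the binomial average of `f` is larger than `1/4`, for `m ≤ s²`. -/
theorem lim_cheb (m : ℕ) (p s : ℝ) (hp0 : 0 ≤ p) (hp1 : p ≤ 1) (hs : 0 < s)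
    (hms : (m : ℝ) ≤ s ^ 2) (f : ℕ → ℝ) (hf : ∀ j ∈ range (m + 1), 0 ≤ f j)
    (hf' : ∀ j ∈ range (m + 1), |(m : ℝ) * p - j| < s → 9 / 16 ≤ f j) :
    1 / 4 < ∑ j ∈ range (m + 1), (m.choose j : ℝ) * p ^ j * (1 - p) ^ (m - j) * f j := by
  have h1p : 0 ≤ 1 - p := by linarith
  have key : ∀ j ∈ range (m + 1),
      9 / 16 * ((m.choose j : ℝ) * p ^ j * (1 - p) ^ (m - j)) -
        9 / 16 / s ^ 2 * ((m.choose j : ℝ) * p ^ j * (1 - p) ^ (m - j) * (m * p - j) ^ 2) ≤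
      (m.choose j : ℝ) * p ^ j * (1 - p) ^ (m - j) * f j := by
    intro j hj
    have hB : 0 ≤ (m.choose j : ℝ) * p ^ j * (1 - p) ^ (m - j) := by positivity
    have : 9 / 16 * ((m.choose j : ℝ) * p ^ j * (1 - p) ^ (m - j)) -
        9 / 16 / s ^ 2 * ((m.choose j : ℝ) * p ^ j * (1 - p) ^ (m - j) * (m * p - j) ^ 2) =
        (m.choose j : ℝ) * p ^ j * (1 - p) ^ (m - j) *
          (9 / 16 * (1 - (m * p - j) ^ 2 / s ^ 2)) := by ring
    rw [this]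
    refine mul_le_mul_of_nonneg_left ?_ hB
    by_cases hc : |(m : ℝ) * p - j| < s
    · have h1 := hf' j hj hc
      have h2 : 0 ≤ (m * p - j) ^ 2 / s ^ 2 := by positivity
      nlinarith
    · have h1 := hf j hj
      have hc' : s ≤ |(m : ℝ) * p - j| := not_lt.mp hc
      have h2 : 1 ≤ (m * p - j) ^ 2 / s ^ 2 := by
        rw [le_div_iff₀ (by positivity), one_mul, ← sq_abs ((m : ℝ) * p - j)]
        exact pow_le_pow_left₀ hs.le hc' 2
      nlinarith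
  have hsum := Finset.sum_le_sum key
  rw [Finset.sum_sub_distrib, ← Finset.mul_sum, ← Finset.mul_sum, lim_binom_sum, lim_binom_var]
    at hsum
  refine lt_of_lt_of_le ?_ hsum
  have h4 : p * (1 - p) ≤ 1 / 4 := by nlinarith [sq_nonneg (p - 1 / 2)]
  have h5 : m * p * (1 - p) ≤ s ^ 2 * (1 / 4) := by
    have : m * p * (1 - p) = m * (p * (1 - p)) := by ring
    rw [this]
    exact mul_le_mul hms h4 (mul_nonneg hp0 h1p) (by positivity)
  have h6 : 9 / 16 / s ^ 2 * (m * p * (1 - p)) ≤ 9 / 16 * (1 / 4) := by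
    calc 9 / 16 / s ^ 2 * (m * p * (1 - p)) ≤ 9 / 16 / s ^ 2 * (s ^ 2 * (1 / 4)) := by gcongr
      _ = 9 / 16 * (1 / 4) := by field_simp
  linarith

/-- the iterated window -/
theorem lim_window (q : ℕ → ℕ → ℝ) (K : ℝ)
    (hanti : ∀ n, 1 ≤ n → Antitone (q n))
    (hwin : ∃ C : ℝ, ∃ n0 : ℕ, ∀ n m : ℕ, n0 ≤ n → (m : ℝ) ≤ K * n →
      q n m * (1 - q n m) ≤ 2 * (q n m - q n (m + ⌈(n : ℝ) ^ (7 / 8 : ℝ)⌉₊)) +
        C * (n : ℝ) ^ (-(1 / 8) : ℝ))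
    (htop : ∀ ε : ℝ, 0 < ε → ∃ n0 : ℕ, ∀ n m : ℕ, n0 ≤ n → K * n ≤ m → q n m ≤ ε)
    (δ : ℝ) (hδ : 0 < δ) (hδ4 : δ ≤ 1 / 4) :
    ∃ L n1 : ℕ, ∀ n : ℕ, n1 ≤ n → ∀ m : ℕ, q n m ≤ 1 - δ →
      q n (m + L * ⌈(n : ℝ) ^ (7 / 8 : ℝ)⌉₊) ≤ δ := by
  obtain ⟨C, n0, hC⟩ := hwin
  obtain ⟨n2, h2⟩ := htop δ hδ
  have hu : ∀ᶠ n : ℕ in atTop, C * (n : ℝ) ^ (-(1 / 8) : ℝ) ≤ δ / 4 := by
    have h := (lim_u_tendsto.const_mul C)
    rw [mul_zero] at h
    exact h.eventually_le_const (by positivity)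
  obtain ⟨n3, h3⟩ := eventually_atTop.1 hu
  refine ⟨⌈4 / δ⌉₊, max (max n0 n2) (max n3 1), fun n hn m hm => ?_⟩
  have hn0 : n0 ≤ n := le_trans (le_trans (le_max_left _ _) (le_max_left _ _)) hn
  have hn2 : n2 ≤ n := le_trans (le_trans (le_max_right _ _) (le_max_left _ _)) hn
  have hn3 : n3 ≤ n := le_trans (le_trans (le_max_left _ _) (le_max_right _ _)) hn
  have hn1 : 1 ≤ n := le_trans (le_trans (le_max_right _ _) (le_max_right _ _)) hn
  set R := ⌈(n : ℝ) ^ (7 / 8 : ℝ)⌉₊ with hR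
  have key : ∀ i : ℕ, q n (m + i * R) ≤ δ ∨ q n (m + i * R) ≤ 1 - δ - i * (δ / 4) := by
    intro i
    induction i with
    | zero => right; simpa using hm
    | succ i ih =>
      have hmono : q n (m + (i + 1) * R) ≤ q n (m + i * R) :=
        hanti n hn1 (by nlinarith)
      rcases le_or_gt (q n (m + i * R)) δ with h | h
      · left; exact hmono.trans h
      · rcases ih with ih | ih
        · linarith
        · right
          have hlt : ((m + i * R : ℕ) : ℝ) ≤ K * n := by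
            by_contra hcon
            exact absurd (h2 n _ hn2 (not_le.mp hcon).le) (not_le.mpr h)
          have h5 := hC n (m + i * R) hn0 hlt
          have h6 := h3 n hn3
          have h7 : m + i * R + R = m + (i + 1) * R := by ring
          rw [h7] at h5
          have h8 : q n (m + i * R) ≤ 1 - δ := by
            have : (0 : ℝ) ≤ i * (δ / 4) := by positivity
            linarith
          have h9 : δ * (1 - δ) ≤ q n (m + i * R) * (1 - q n (m + i * R)) := by nlinarith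
          have h10 : δ * (3 / 4) ≤ δ * (1 - δ) := by nlinarith
          push_cast
          linarith
  rcases key ⌈4 / δ⌉₊ with h | h
  · exact h
  · have h1 := Nat.le_ceil (4 / δ)
    have h4 : 1 ≤ (⌈4 / δ⌉₊ : ℝ) * (δ / 4) := by
      have h5 : 4 / δ * (δ / 4) = 1 := by field_simp
      calc (1 : ℝ) = 4 / δ * (δ / 4) := h5.symm
        _ ≤ _ := by gcongr
    linarith

/-- the threshold -/
noncomputable def limM (q : ℕ → ℕ → ℝ) (n : ℕ) : ℕ := sInf {m | q n m < 3 / 4}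

theorem limM_lt (q : ℕ → ℕ → ℝ) (n m : ℕ) (h : m < limM q n) : 3 / 4 ≤ q n m := by
  have := Nat.notMem_of_lt_sInf h
  simpa using this

theorem limM_le (q : ℕ → ℕ → ℝ) (n m : ℕ) (h : q n m < 3 / 4) : limM q n ≤ m :=
  Nat.sInf_le h

/-- basic facts about the threshold for large `n` -/
theorem limM_facts (q : ℕ → ℕ → ℝ) (K : ℝ) (hK : 0 < K)
    (hanti : ∀ n, 1 ≤ n → Antitone (q n))
    (htop : ∀ ε : ℝ, 0 < ε → ∃ n0 : ℕ, ∀ n m : ℕ, n0 ≤ n → K * n ≤ m → q n m ≤ ε) :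
    ∃ nt : ℕ, 1 ≤ nt ∧ ∀ n, nt ≤ n → q n (limM q n) < 3 / 4 ∧
      ((limM q n : ℕ) : ℝ) ≤ (K + 1) * n ∧ ∀ m, 3 / 4 ≤ q n m → m < limM q n := by
  obtain ⟨n0, h0⟩ := htop (1 / 2) (by norm_num)
  refine ⟨max n0 1, le_max_right _ _, fun n hn => ?_⟩
  have hn0 : n0 ≤ n := (le_max_left _ _).trans hn
  have hn1 : 1 ≤ n := (le_max_right _ _).trans hn
  have hn1' : (1 : ℝ) ≤ n := by exact_mod_cast hn1
  have h1 : q n ⌈K * n⌉₊ < 3 / 4 := by
    have := h0 n ⌈K * n⌉₊ hn0 (Nat.le_ceil _)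
    linarith
  have h2 : q n (limM q n) < 3 / 4 := Nat.sInf_mem (⟨_, h1⟩ : {m | q n m < 3 / 4}.Nonempty)
  refine ⟨h2, ?_, ?_⟩
  · have h3 : ((limM q n : ℕ) : ℝ) ≤ ⌈K * n⌉₊ := by exact_mod_cast limM_le q n _ h1
    have h4 := (Nat.ceil_lt_add_one (by positivity : 0 ≤ K * (n : ℝ))).le
    linarith
  · intro m hm
    by_contra hcon
    have := hanti n hn1 (not_lt.mp hcon)
    linarith

/-- if `q n m > δ` then `m` is at most the threshold plus a lower order term -/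
theorem lim_back (q : ℕ → ℕ → ℝ) (K : ℝ) (hK : 0 < K)
    (hanti : ∀ n, 1 ≤ n → Antitone (q n))
    (hwin : ∃ C : ℝ, ∃ n0 : ℕ, ∀ n m : ℕ, n0 ≤ n → (m : ℝ) ≤ K * n →
      q n m * (1 - q n m) ≤ 2 * (q n m - q n (m + ⌈(n : ℝ) ^ (7 / 8 : ℝ)⌉₊)) +
        C * (n : ℝ) ^ (-(1 / 8) : ℝ))
    (htop : ∀ ε : ℝ, 0 < ε → ∃ n0 : ℕ, ∀ n m : ℕ, n0 ≤ n → K * n ≤ m → q n m ≤ ε)
    (δ : ℝ) (hδ : 0 < δ) (hδ4 : δ ≤ 1 / 4) :
    ∃ D : ℝ, 0 ≤ D ∧ ∃ n1 : ℕ, ∀ n : ℕ, n1 ≤ n → ∀ m : ℕ, δ < q n m →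
      (m : ℝ) ≤ limM q n + D * (n : ℝ) ^ (-(1 / 8) : ℝ) * n := by
  obtain ⟨L, n1, hL⟩ := lim_window q K hanti hwin htop δ hδ hδ4
  obtain ⟨nt, hnt1, hnt⟩ := limM_facts q K hK hanti htop
  refine ⟨2 * L, by positivity, max n1 nt, fun n hn m hm => ?_⟩
  have hn1 : n1 ≤ n := (le_max_left _ _).trans hn
  have hnt' : nt ≤ n := (le_max_right _ _).trans hn
  have hn0 : 1 ≤ n := hnt1.trans hnt'
  obtain ⟨h1, -, -⟩ := hnt n hnt'
  have h2 := hL n hn1 (limM q n) (by linarith)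
  have h3 : m ≤ limM q n + L * ⌈(n : ℝ) ^ (7 / 8 : ℝ)⌉₊ := by
    by_contra hcon
    have := hanti n hn0 (not_le.mp hcon).le
    linarith
  have h4 : (m : ℝ) ≤ limM q n + L * (⌈(n : ℝ) ^ (7 / 8 : ℝ)⌉₊ : ℝ) := by exact_mod_cast h3
  have h5 := lim_R_le n hn0
  have h6 : (L : ℝ) * (⌈(n : ℝ) ^ (7 / 8 : ℝ)⌉₊ : ℝ) ≤
      L * (2 * (n : ℝ) ^ (-(1 / 8) : ℝ) * n) := by gcongr
  linarith

/-- `√(c n) / n ≤ √c n^{-1/8}` -/
theorem lim_sqrt_le (c : ℝ) (hc : 0 ≤ c) (n : ℕ) (hn : 1 ≤ n) :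
    √(c * n) ≤ √c * (n : ℝ) ^ (-(1 / 8) : ℝ) * n := by
  have hn' : (1 : ℝ) ≤ n := by exact_mod_cast hn
  have h0 : (0 : ℝ) < n := by linarith
  rw [Real.sqrt_mul hc, mul_assoc]
  refine mul_le_mul_of_nonneg_left ?_ (Real.sqrt_nonneg _)
  rw [← Real.rpow_add_one h0.ne', Real.sqrt_eq_rpow]
  exact Real.rpow_le_rpow_of_exponent_le hn' (by norm_num)

theorem lim_one_le (n : ℕ) (hn : 1 ≤ n) : (1 : ℝ) ≤ (n : ℝ) ^ (-(1 / 8) : ℝ) * n := by
  have hn' : (1 : ℝ) ≤ n := by exact_mod_cast hn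
  have h0 : (0 : ℝ) < n := by linarith
  rw [← Real.rpow_add_one h0.ne']
  exact Real.one_le_rpow hn' (by norm_num)

/-- the deviation computation -/
theorem lim_dev (a b t s m j : ℝ) (ha : 0 < a) (hb : 0 < b) (ha3 : a + b ≤ 3 * a)
    (hb3 : a + b ≤ 3 * b) (hs : 0 < s) (hm : m ≤ t * (a + b) - 6 * s)
    (hdev : |m * (a / (a + b)) - j| < s) : j < t * a ∧ m - j < t * b := by
  have hn0 : 0 < a + b := by linarith
  rw [abs_lt] at hdev
  have hp3 : 1 / 3 ≤ a / (a + b) := by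
    rw [div_le_div_iff₀ (by norm_num) hn0]; linarith
  have hp3' : 1 / 3 ≤ 1 - a / (a + b) := by
    have : 1 - a / (a + b) = b / (a + b) := by field_simp; ring
    rw [this, div_le_div_iff₀ (by norm_num) hn0]; linarith
  have hpn : (a + b) * (a / (a + b)) = a := by field_simp
  set p := a / (a + b) with hp
  constructor
  · have e1 : m * p ≤ (t * (a + b) - 6 * s) * p :=
      mul_le_mul_of_nonneg_right hm (by linarith)
    have e2 : (t * (a + b) - 6 * s) * p = t * ((a + b) * p) - 6 * s * p := by ring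
    rw [hpn] at e2
    have e3 : 6 * s * (1 / 3) ≤ 6 * s * p := mul_le_mul_of_nonneg_left hp3 (by linarith)
    linarith [hdev.1]
  · have e1 : m * (1 - p) ≤ (t * (a + b) - 6 * s) * (1 - p) :=
      mul_le_mul_of_nonneg_right hm (by linarith)
    have e2 : (t * (a + b) - 6 * s) * (1 - p) = t * ((a + b) - (a + b) * p) - 6 * s * (1 - p) := by
      ring
    rw [hpn] at e2
    have e3 : 6 * s * (1 / 3) ≤ 6 * s * (1 - p) := mul_le_mul_of_nonneg_left hp3' (by linarith)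
    linarith [hdev.2]

/-- near-superadditivity of the threshold along balanced splittings -/
theorem lim_super (q : ℕ → ℕ → ℝ) (K : ℝ) (hK : 0 < K)
    (h01 : ∀ n m, 1 ≤ n → 0 ≤ q n m ∧ q n m ≤ 1) (hanti : ∀ n, 1 ≤ n → Antitone (q n))
    (hwin : ∃ C : ℝ, ∃ n0 : ℕ, ∀ n m : ℕ, n0 ≤ n → (m : ℝ) ≤ K * n →
      q n m * (1 - q n m) ≤ 2 * (q n m - q n (m + ⌈(n : ℝ) ^ (7 / 8 : ℝ)⌉₊)) +
        C * (n : ℝ) ^ (-(1 / 8) : ℝ))
    (hint : ∀ a b m : ℕ, 1 ≤ a → 1 ≤ b →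
      ∑ j ∈ range (m + 1), (m.choose j : ℝ) * ((a : ℝ) / (a + b)) ^ j *
        (1 - (a : ℝ) / (a + b)) ^ (m - j) * (q a j * q b (m - j)) ≤ q (a + b) m)
    (htop : ∀ ε : ℝ, 0 < ε → ∃ n0 : ℕ, ∀ n m : ℕ, n0 ≤ n → K * n ≤ m → q n m ≤ ε) :
    ∃ C : ℝ, 0 ≤ C ∧ ∃ n2 : ℕ, 1 ≤ n2 ∧ ∀ a b : ℕ, n2 ≤ a → n2 ≤ b → a + b ≤ 3 * a →
      a + b ≤ 3 * b →
      min ((limM q a : ℝ) / a) ((limM q b : ℝ) / b) - C * ((a + b : ℕ) : ℝ) ^ (-(1 / 8) : ℝ) ≤
        (limM q (a + b) : ℝ) / ((a + b : ℕ) : ℝ) := by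
  obtain ⟨D, hD0, n1, hD⟩ := lim_back q K hK hanti hwin htop (1 / 4) (by norm_num) le_rfl
  obtain ⟨nt, hnt1, hnt⟩ := limM_facts q K hK hanti htop
  refine ⟨6 * √(K + 1) + 1 + D, by positivity, max n1 nt, hnt1.trans (le_max_right _ _),
    fun a b ha hb hab3 hab3' => ?_⟩
  have ha1 : 1 ≤ a := hnt1.trans ((le_max_right _ _).trans ha)
  have hb1 : 1 ≤ b := hnt1.trans ((le_max_right _ _).trans hb)
  have hn1 : n1 ≤ a + b := ((le_max_left _ _).trans ha).trans (Nat.le_add_right _ _)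
  have hnN1 : 1 ≤ a + b := ha1.trans (Nat.le_add_right _ _)
  have haR : (1 : ℝ) ≤ a := by exact_mod_cast ha1
  have hbR : (1 : ℝ) ≤ b := by exact_mod_cast hb1
  obtain ⟨n, hn⟩ : ∃ n : ℕ, n = a + b := ⟨_, rfl⟩
  have hnR : (n : ℝ) = a + b := by rw [hn]; push_cast; ring
  rw [← hn] at hn1 hnN1 ⊢
  have hn0 : (0 : ℝ) < n := by rw [hnR]; linarith
  have ha3 : (n : ℝ) ≤ 3 * a := by rw [hnR]; exact_mod_cast hab3
  have hb3 : (n : ℝ) ≤ 3 * b := by rw [hnR]; exact_mod_cast hab3'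
  set u := (n : ℝ) ^ (-(1 / 8) : ℝ) with hu
  have hu0 : 0 < u := Real.rpow_pos_of_pos hn0 _
  set t := min ((limM q a : ℝ) / a) ((limM q b : ℝ) / b) with ht
  have hta : t * a ≤ limM q a := by
    have : t ≤ (limM q a : ℝ) / a := min_le_left _ _
    rwa [le_div_iff₀ (by linarith)] at this
  have htb : t * b ≤ limM q b := by
    have : t ≤ (limM q b : ℝ) / b := min_le_right _ _
    rwa [le_div_iff₀ (by linarith)] at this
  have htK : t ≤ K + 1 := by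
    have h1 := (hnt a ((le_max_right _ _).trans ha)).2.1
    have h2 : t * a ≤ (K + 1) * a := hta.trans h1
    exact le_of_mul_le_mul_right h2 (by linarith)
  set s := √((K + 1) * n) with hs
  have hs0 : 0 < s := Real.sqrt_pos.mpr (by positivity)
  have hs2 : s ^ 2 = (K + 1) * n := Real.sq_sqrt (by positivity)
  have hsu : s ≤ √(K + 1) * u * n := lim_sqrt_le (K + 1) (by positivity) n hnN1
  have h1u : 1 ≤ u * n := lim_one_le n hnN1
  rw [le_div_iff₀ hn0]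
  have hgoal : (t - (6 * √(K + 1) + 1 + D) * u) * n =
      t * n - 6 * (√(K + 1) * u * n) - u * n - D * u * n := by ring
  rw [hgoal]
  have hDun : 0 ≤ D * u * n := by positivity
  rcases le_or_gt (t * n) (6 * s) with hsmall | hbig
  · have : (0 : ℝ) ≤ limM q n := Nat.cast_nonneg _
    linarith
  · set m := ⌊t * n - 6 * s⌋₊ with hm
    have hm1 : (m : ℝ) ≤ t * n - 6 * s := Nat.floor_le (by linarith)
    have hm2 : t * n - 6 * s < m + 1 := Nat.lt_floor_add_one _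
    have hp0 : (0 : ℝ) ≤ a / (a + b) := by positivity
    have hp1 : (a : ℝ) / (a + b) ≤ 1 := by
      rw [div_le_one (by linarith)]; linarith
    have hms : (m : ℝ) ≤ s ^ 2 := by
      rw [hs2]
      have : t * n ≤ (K + 1) * n := by gcongr
      linarith
    have hcheb := lim_cheb m ((a : ℝ) / (a + b)) s hp0 hp1 hs0 hms
      (fun j => q a j * q b (m - j))
      (fun j _ => mul_nonneg (h01 a j ha1).1 (h01 b (m - j) hb1).1) (by
        intro j hj hdev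
        have hjm : j ≤ m := Nat.lt_succ_iff.mp (Finset.mem_range.mp hj)
        obtain ⟨g1, g2⟩ := lim_dev a b t s m j (by linarith) (by linarith) (hnR ▸ ha3)
          (hnR ▸ hb3) hs0 (hnR ▸ hm1) hdev
        rw [← Nat.cast_sub hjm] at g2
        have f1 := limM_lt q a j (by exact_mod_cast g1.trans_le hta)
        have f2 := limM_lt q b (m - j) (by exact_mod_cast g2.trans_le htb)
        have f3 : (9 : ℝ) / 16 = 3 / 4 * (3 / 4) := by norm_num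
        rw [f3]
        exact mul_le_mul f1 f2 (by norm_num) ((by norm_num : (0 : ℝ) ≤ 3 / 4).trans f1))
    have hint' := hint a b m ha1 hb1
    have hq : 1 / 4 < q n m := by
      rw [hn]
      exact lt_of_lt_of_le hcheb hint'
    have hback := hD n hn1 m hq
    linarith

/-- the induction on the multiplicity -/
theorem lim_mult (A : ℕ → ℝ) (C : ℝ) (hC : 0 ≤ C) (n2 : ℕ) (hn2 : 1 ≤ n2)
    (hA : ∀ a b : ℕ, n2 ≤ a → n2 ≤ b → a + b ≤ 3 * a → a + b ≤ 3 * b →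
      min (A a) (A b) - C * ((a + b : ℕ) : ℝ) ^ (-(1 / 8) : ℝ) ≤ A (a + b)) :
    ∃ B : ℝ, 0 ≤ B ∧ ∀ n0 : ℕ, n2 ≤ n0 → ∀ L : ℕ, 1 ≤ L →
      A n0 - B * ((n0 : ℝ) ^ (-(1 / 8) : ℝ) - ((L * n0 : ℕ) : ℝ) ^ (-(1 / 8) : ℝ)) ≤
        A (L * n0) := by
  have hθ : 1 < (3 / 2 : ℝ) ^ (1 / 8 : ℝ) := Real.one_lt_rpow (by norm_num) (by norm_num)
  set θ := (3 / 2 : ℝ) ^ (1 / 8 : ℝ) with hθd
  refine ⟨C / (θ - 1), div_nonneg hC (by linarith), fun n0 hn0 => ?_⟩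
  set B := C / (θ - 1) with hB
  have hB0 : 0 ≤ B := div_nonneg hC (by linarith)
  have hBC : B * θ - B = C := by
    rw [hB]
    have : θ - 1 ≠ 0 := by linarith
    field_simp
  have hn0' : 1 ≤ n0 := hn2.trans hn0
  have hn0R : (1 : ℝ) ≤ n0 := by exact_mod_cast hn0'
  intro L
  induction L using Nat.strong_induction_on with
  | _ L ih =>
    intro hL
    rcases Nat.eq_or_lt_of_le hL with h1 | h1
    · rw [← h1]; simp
    · obtain ⟨L', L'', hL1, hL2, hsum, hle, h3⟩ : ∃ L' L'' : ℕ, 1 ≤ L' ∧ L' ≤ L'' ∧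
          L' + L'' = L ∧ 3 * L'' ≤ 2 * L ∧ L ≤ 3 * L' :=
        ⟨L / 2, L - L / 2, by omega, by omega, by omega, by omega, by omega⟩
      have i1 := ih L' (by omega) hL1
      have i2 := ih L'' (by omega) (hL1.trans hL2)
      have hab : L' * n0 + L'' * n0 = L * n0 := by rw [← hsum]; ring
      have hs := hA (L' * n0) (L'' * n0) (hn0.trans (Nat.le_mul_of_pos_left _ hL1))
        (hn0.trans (Nat.le_mul_of_pos_left _ (hL1.trans hL2))) (by rw [hab]; nlinarith)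
        (by rw [hab]; nlinarith)
      rw [hab] at hs
      have hLn0 : (0 : ℝ) < ((L * n0 : ℕ) : ℝ) := by
        have : 0 < L * n0 := Nat.mul_pos (by omega) (by omega)
        exact_mod_cast this
      have hu : ∀ l : ℕ, 1 ≤ l → 3 * l ≤ 2 * L →
          θ * ((L * n0 : ℕ) : ℝ) ^ (-(1 / 8) : ℝ) ≤ ((l * n0 : ℕ) : ℝ) ^ (-(1 / 8) : ℝ) := by
        intro l hl hl3
        have hlR : (0 : ℝ) < ((l * n0 : ℕ) : ℝ) := by
          have : 0 < l * n0 := Nat.mul_pos (by omega) (by omega)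
          exact_mod_cast this
        have e1 : ((l * n0 : ℕ) : ℝ) ≤ (3 / 2 : ℝ)⁻¹ * ((L * n0 : ℕ) : ℝ) := by
          push_cast
          have : (3 : ℝ) * l ≤ 2 * L := by exact_mod_cast hl3
          nlinarith
        have e2 : θ * ((L * n0 : ℕ) : ℝ) ^ (-(1 / 8) : ℝ) =
            ((3 / 2 : ℝ)⁻¹ * ((L * n0 : ℕ) : ℝ)) ^ (-(1 / 8) : ℝ) := by
          rw [Real.mul_rpow (by norm_num) hLn0.le, hθd, Real.inv_rpow (by norm_num),
            ← Real.rpow_neg (by norm_num)]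
          norm_num
        rw [e2]
        exact Real.rpow_le_rpow_of_nonpos hlR e1 (by norm_num)
      have u1 := hu L' hL1 (by omega)
      have u2 := hu L'' (hL1.trans hL2) hle
      have v1 := mul_le_mul_of_nonneg_left u1 hB0
      have v2 := mul_le_mul_of_nonneg_left u2 hB0
      have key : A n0 - B * ((n0 : ℝ) ^ (-(1 / 8) : ℝ)) +
          B * (θ * ((L * n0 : ℕ) : ℝ) ^ (-(1 / 8) : ℝ)) ≤
          min (A (L' * n0)) (A (L'' * n0)) := by
        refine le_min ?_ ?_ <;> linarith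
      have : B * (θ * ((L * n0 : ℕ) : ℝ) ^ (-(1 / 8) : ℝ)) =
          B * ((L * n0 : ℕ) : ℝ) ^ (-(1 / 8) : ℝ) + C * ((L * n0 : ℕ) : ℝ) ^ (-(1 / 8) : ℝ) := by
        rw [← hBC]; ring
      linarith

/-- filling up to an arbitrary `N` -/
theorem lim_fill (q : ℕ → ℕ → ℝ) (K : ℝ) (hK : 0 < K)
    (h01 : ∀ n m, 1 ≤ n → 0 ≤ q n m ∧ q n m ≤ 1) (hanti : ∀ n, 1 ≤ n → Antitone (q n))
    (hwin : ∃ C : ℝ, ∃ n0 : ℕ, ∀ n m : ℕ, n0 ≤ n → (m : ℝ) ≤ K * n →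
      q n m * (1 - q n m) ≤ 2 * (q n m - q n (m + ⌈(n : ℝ) ^ (7 / 8 : ℝ)⌉₊)) +
        C * (n : ℝ) ^ (-(1 / 8) : ℝ))
    (hint : ∀ a b m : ℕ, 1 ≤ a → 1 ≤ b →
      ∑ j ∈ range (m + 1), (m.choose j : ℝ) * ((a : ℝ) / (a + b)) ^ j *
        (1 - (a : ℝ) / (a + b)) ^ (m - j) * (q a j * q b (m - j)) ≤ q (a + b) m)
    (htop : ∀ ε : ℝ, 0 < ε → ∃ n0 : ℕ, ∀ n m : ℕ, n0 ≤ n → K * n ≤ m → q n m ≤ ε)
    (nb : ℕ) (hnb1 : 1 ≤ nb) (hnb : ∀ n : ℕ, nb ≤ n → 3 / 4 ≤ q n 0) :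
    ∃ nt : ℕ, 1 ≤ nt ∧ ∀ n0 : ℕ, nt ≤ n0 → ∃ E : ℝ, ∃ N1 : ℕ, ∀ N : ℕ, N1 ≤ N →
      ∃ L : ℕ, 1 ≤ L ∧ (limM q (L * n0) : ℝ) / ((L * n0 : ℕ) : ℝ) -
        E * (N : ℝ) ^ (-(1 / 8) : ℝ) ≤ (limM q N : ℝ) / N := by
  obtain ⟨nt, hnt1, hnt⟩ := limM_facts q K hK hanti htop
  refine ⟨max nt nb, hnt1.trans (le_max_left _ _), fun n0 hn0 => ?_⟩
  have hn0nt : nt ≤ n0 := (le_max_left _ _).trans hn0
  have hn0nb : nb ≤ n0 := (le_max_right _ _).trans hn0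
  have hn01 : 1 ≤ n0 := hnt1.trans hn0nt
  set b0 : ℕ := nb + n0 with hb0
  set δ : ℝ := min (1 / 4) (1 / 2 * Real.exp (-((K + 1) * b0))) with hδ
  have hδ0 : 0 < δ := lt_min (by norm_num) (by positivity)
  obtain ⟨D, hD0, n1, hD⟩ := lim_back q K hK hanti hwin htop δ hδ0 (min_le_left _ _)
  refine ⟨(K + 1) * b0 + 1 + D, max n1 (2 * b0), fun N hN => ?_⟩
  have hNn1 : n1 ≤ N := (le_max_left _ _).trans hN
  have hNb0 : 2 * b0 ≤ N := (le_max_right _ _).trans hN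
  have hN1 : 1 ≤ N := by omega
  obtain ⟨L, hL⟩ : ∃ L : ℕ, L = (N - nb) / n0 := ⟨_, rfl⟩
  have hL1 : 1 ≤ L := by
    rw [hL, Nat.one_le_div_iff (by omega)]; omega
  refine ⟨L, hL1, ?_⟩
  obtain ⟨a, ha⟩ : ∃ a : ℕ, a = L * n0 := ⟨_, rfl⟩
  have hdm := Nat.div_add_mod (N - nb) n0
  have hmod := Nat.mod_lt (N - nb) (by omega : n0 > 0)
  rw [← hL] at hdm
  obtain ⟨b, hb⟩ : ∃ b : ℕ, b = nb + (N - nb) % n0 := ⟨_, rfl⟩
  have hab : N = a + b := by
    have : n0 * L = L * n0 := mul_comm _ _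
    omega
  have hbnb : nb ≤ b := by omega
  have hbb0 : b ≤ b0 := by omega
  have han0 : n0 ≤ a := by rw [ha]; exact Nat.le_mul_of_pos_left _ hL1
  have ha1 : 1 ≤ a := hn01.trans han0
  have hb1 : 1 ≤ b := hnb1.trans hbnb
  rw [← ha]
  have haR : (1 : ℝ) ≤ a := by exact_mod_cast ha1
  have hbR : (1 : ℝ) ≤ b := by exact_mod_cast hb1
  have hNR : (N : ℝ) = a + b := by rw [hab]; push_cast; ring
  have hbb0R : (b : ℝ) ≤ b0 := by exact_mod_cast hbb0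
  have hN0 : (0 : ℝ) < N := by rw [hNR]; linarith
  obtain ⟨-, hMK, hMgt⟩ := hnt a (hn0nt.trans han0)
  have hM1 : 0 < limM q a := hMgt 0 (hnb a (hn0nb.trans han0))
  obtain ⟨m, hm⟩ : ∃ m : ℕ, m + 1 = limM q a := ⟨limM q a - 1, by omega⟩
  have hqa : 3 / 4 ≤ q a m := limM_lt q a m (by omega)
  have hqb : 3 / 4 ≤ q b 0 := hnb b hbnb
  have hmK : (m : ℝ) ≤ (K + 1) * a := by
    have : (m : ℝ) + 1 = limM q a := by exact_mod_cast hm
    linarith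
  have hp0 : (0 : ℝ) ≤ a / (a + b) := by positivity
  have hp1 : (a : ℝ) / (a + b) ≤ 1 := by
    rw [div_le_one (by linarith)]; linarith
  have hterm : ((a : ℝ) / (a + b)) ^ m * (9 / 16) ≤ q N m := by
    rw [hab]
    refine le_trans ?_ (hint a b m ha1 hb1)
    refine le_trans ?_ (Finset.single_le_sum (f := fun j => (m.choose j : ℝ) *
      ((a : ℝ) / (a + b)) ^ j * (1 - (a : ℝ) / (a + b)) ^ (m - j) * (q a j * q b (m - j)))
      (fun j _ => ?_) (Finset.self_mem_range_succ m))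
    · simp only [Nat.choose_self, Nat.cast_one, one_mul, Nat.sub_self, pow_zero, mul_one]
      refine mul_le_mul_of_nonneg_left ?_ (by positivity)
      have f3 : (9 : ℝ) / 16 = 3 / 4 * (3 / 4) := by norm_num
      rw [f3]
      exact mul_le_mul hqa hqb (by norm_num) ((by norm_num : (0 : ℝ) ≤ 3 / 4).trans hqa)
    · have h1 := (h01 a j ha1).1
      have h2 := (h01 b (m - j) hb1).1
      have h3 : 0 ≤ 1 - (a : ℝ) / (a + b) := by linarith
      positivity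
  have hpow : Real.exp (-((K + 1) * b0)) ≤ ((a : ℝ) / (a + b)) ^ m := by
    have e1 : (a : ℝ) / (a + b) = (1 + (b : ℝ) / a)⁻¹ := by field_simp
    rw [e1, inv_pow, Real.exp_neg]
    refine inv_anti₀ (by positivity) ?_
    calc (1 + (b : ℝ) / a) ^ m ≤ (Real.exp (b / a)) ^ m := by
          refine pow_le_pow_left₀ (by positivity) ?_ m
          linarith [Real.add_one_le_exp ((b : ℝ) / a)]
      _ = Real.exp (m * (b / a)) := by rw [← Real.exp_nat_mul]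
      _ ≤ Real.exp ((K + 1) * b0) := by
          refine Real.exp_le_exp.mpr ?_
          calc (m : ℝ) * (b / a) ≤ (K + 1) * a * (b / a) := by gcongr
            _ = (K + 1) * b := by field_simp
            _ ≤ (K + 1) * b0 := by gcongr
  have hq : δ < q N m := by
    have h1 : δ ≤ 1 / 2 * Real.exp (-((K + 1) * b0)) := min_le_right _ _
    have h2 := Real.exp_pos (-((K + 1) * (b0 : ℝ)))
    linarith
  have hback := hD N hNn1 m hq
  have h1u := lim_one_le N hN1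
  set u := (N : ℝ) ^ (-(1 / 8) : ℝ) with hu
  have hu0 : 0 < u := Real.rpow_pos_of_pos hN0 _
  rw [le_div_iff₀ hN0]
  have hm' : (m : ℝ) + 1 = limM q a := by exact_mod_cast hm
  have hquot : (limM q a : ℝ) / a * N = limM q a + (limM q a : ℝ) / a * b := by
    rw [hNR]; field_simp
  have hquot2 : (limM q a : ℝ) / a * b ≤ (K + 1) * b0 := by
    have : (limM q a : ℝ) / a ≤ K + 1 := by rwa [div_le_iff₀ (by linarith)]
    gcongr
  have hquot3 : (K + 1) * b0 * 1 ≤ (K + 1) * b0 * (u * N) := by gcongr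
  have : ((limM q a : ℝ) / a - ((K + 1) * b0 + 1 + D) * u) * N =
    (limM q a : ℝ) / a * N - (K + 1) * b0 * (u * N) - u * N - D * u * N := by ring
  rw [this, hquot]
  linarith

/-- the rescaled threshold converges -/
theorem lim_conv (A : ℕ → ℝ) (B K' : ℝ) (hB : 0 ≤ B) (N3 : ℕ)
    (hAK : ∀ n, N3 ≤ n → A n ≤ K')
    (hmult : ∀ n0 : ℕ, N3 ≤ n0 → ∀ L : ℕ, 1 ≤ L →
      A n0 - B * ((n0 : ℝ) ^ (-(1 / 8) : ℝ) - ((L * n0 : ℕ) : ℝ) ^ (-(1 / 8) : ℝ)) ≤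
        A (L * n0))
    (hfill : ∀ n0 : ℕ, N3 ≤ n0 → ∃ E : ℝ, ∃ N1 : ℕ, ∀ N : ℕ, N1 ≤ N →
      ∃ L : ℕ, 1 ≤ L ∧ A (L * n0) - E * (N : ℝ) ^ (-(1 / 8) : ℝ) ≤ A N) :
    ∃ α : ℝ, Tendsto A atTop (𝓝 α) := by
  set S : Set ℝ := {x | ∃ n : ℕ, N3 ≤ n ∧ x = A n - B * (n : ℝ) ^ (-(1 / 8) : ℝ)} with hS
  have hne : S.Nonempty := ⟨_, N3, le_rfl, rfl⟩
  have hu0 : ∀ n : ℕ, 0 ≤ (n : ℝ) ^ (-(1 / 8) : ℝ) := fun n => by positivity
  have hbdd : BddAbove S := by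
    refine ⟨K', ?_⟩
    rintro x ⟨n, hn, rfl⟩
    have := hAK n hn
    have := mul_nonneg hB (hu0 n)
    linarith
  refine ⟨sSup S, ?_⟩
  rw [Metric.tendsto_atTop]
  intro ε hε
  have huB : ∀ᶠ n : ℕ in atTop, B * (n : ℝ) ^ (-(1 / 8) : ℝ) ≤ ε / 2 := by
    have h := (lim_u_tendsto.const_mul B)
    rw [mul_zero] at h
    exact h.eventually_le_const (by positivity)
  obtain ⟨x, ⟨n0, hn0, rfl⟩, hx⟩ := exists_lt_of_lt_csSup hne
    (by linarith : sSup S - ε / 2 < sSup S)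
  obtain ⟨E, N1, hE⟩ := hfill n0 hn0
  have huE : ∀ᶠ n : ℕ in atTop, E * (n : ℝ) ^ (-(1 / 8) : ℝ) ≤ ε / 4 := by
    have h := (lim_u_tendsto.const_mul E)
    rw [mul_zero] at h
    exact h.eventually_le_const (by positivity)
  obtain ⟨M, hM⟩ := eventually_atTop.1 (huB.and huE)
  refine ⟨max M (max N1 N3), fun N hN => ?_⟩
  have hNM : M ≤ N := (le_max_left _ _).trans hN
  have hN1 : N1 ≤ N := (le_max_left _ _).trans ((le_max_right _ _).trans hN)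
  have hN3 : N3 ≤ N := (le_max_right _ _).trans ((le_max_right _ _).trans hN)
  obtain ⟨h1, h2⟩ := hM N hNM
  obtain ⟨L, hL1, hL⟩ := hE N hN1
  have h3 := hmult n0 hn0 L hL1
  have h4 : A N - B * (N : ℝ) ^ (-(1 / 8) : ℝ) ≤ sSup S := le_csSup hbdd ⟨N, hN3, rfl⟩
  have h5 := mul_nonneg hB (hu0 (L * n0))
  rw [Real.dist_eq, abs_lt]
  constructor <;> linarith

theorem limit_exists (q : ℕ → ℕ → ℝ) (k : ℕ) (K : ℝ) (hK : 0 < K)
    (h01 : ∀ n m, 1 ≤ n → 0 ≤ q n m ∧ q n m ≤ 1) (hanti : ∀ n, 1 ≤ n → Antitone (q n))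
    (hwin : ∃ C : ℝ, ∃ n0 : ℕ, ∀ n m : ℕ, n0 ≤ n → (m : ℝ) ≤ K * n →
      q n m * (1 - q n m) ≤ 2 * (q n m - q n (m + ⌈(n : ℝ) ^ (7 / 8 : ℝ)⌉₊)) +
        C * (n : ℝ) ^ (-(1 / 8) : ℝ))
    (hint : ∀ a b m : ℕ, 1 ≤ a → 1 ≤ b →
      ∑ j ∈ range (m + 1), (m.choose j : ℝ) * ((a : ℝ) / (a + b)) ^ j *
        (1 - (a : ℝ) / (a + b)) ^ (m - j) * (q a j * q b (m - j)) ≤ q (a + b) m)
    (hemb : ∀ a b m : ℕ, 1 ≤ a →
      q (a + b) m ≤ ∑ i ∈ range (m + 1), (m.choose i : ℝ) * (((a : ℝ) / (a + b)) ^ k) ^ i *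
        (1 - ((a : ℝ) / (a + b)) ^ k) ^ (m - i) * q a i)
    (htop : ∀ ε : ℝ, 0 < ε → ∃ n0 : ℕ, ∀ n m : ℕ, n0 ≤ n → K * n ≤ m → q n m ≤ ε)
    (hbot : ∃ c0 : ℝ, 0 < c0 ∧ ∃ n0 : ℕ, ∀ n m : ℕ, n0 ≤ n → (m : ℝ) ≤ c0 * n →
      3 / 4 ≤ q n m) :
    ∃ α : ℝ, 0 < α ∧
      (∀ c : ℝ, 0 ≤ c → c < α → Tendsto (fun n : ℕ => q n ⌊c * n⌋₊) atTop (𝓝 1)) ∧
      (∀ c : ℝ, α < c → Tendsto (fun n : ℕ => q n ⌊c * n⌋₊) atTop (𝓝 0)) := by
  obtain ⟨c0, hc0, nb, hb⟩ := hbot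
  obtain ⟨nt, hnt1, hnt⟩ := limM_facts q K hK hanti htop
  obtain ⟨C, hC0, n2, hn2, hsup⟩ := lim_super q K hK h01 hanti hwin hint htop
  obtain ⟨B, hB0, hB⟩ := lim_mult (fun n => (limM q n : ℝ) / n) C hC0 n2 hn2 hsup
  obtain ⟨nf, hnf1, hnf⟩ := lim_fill q K hK h01 hanti hwin hint htop (max nb 1) (le_max_right _ _)
    (fun n hn => hb n 0 ((le_max_left _ _).trans hn) (by rw [Nat.cast_zero]; positivity))
  obtain ⟨α, hα⟩ := lim_conv (fun n => (limM q n : ℝ) / n) B (K + 1) hB0 (max nt (max n2 nf))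
    (fun n hn => by
      have h1 := (hnt n ((le_max_left _ _).trans hn)).2.1
      have h2 : (0 : ℝ) < n := by
        have : 1 ≤ n := hnt1.trans ((le_max_left _ _).trans hn)
        exact_mod_cast this
      rwa [div_le_iff₀ h2])
    (fun n0 hn0 => hB n0 ((le_max_left _ _).trans ((le_max_right _ _).trans hn0)))
    (fun n0 hn0 => hnf n0 ((le_max_right _ _).trans ((le_max_right _ _).trans hn0)))
  refine ⟨α, ?_, ?_, ?_⟩
  · refine hc0.trans_le (ge_of_tendsto hα ?_)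
    filter_upwards [eventually_ge_atTop (max nb nt)] with n hn
    have h1 : nb ≤ n := (le_max_left _ _).trans hn
    have h2 : nt ≤ n := (le_max_right _ _).trans hn
    have h3 : (0 : ℝ) < n := by
      have : 1 ≤ n := hnt1.trans h2
      exact_mod_cast this
    have h4 := (hnt n h2).2.2 ⌊c0 * n⌋₊ (hb n _ h1 (Nat.floor_le (by positivity)))
    rw [le_div_iff₀ h3]
    have h5 := Nat.lt_floor_add_one (c0 * (n : ℝ))
    have h6 : ((⌊c0 * n⌋₊ + 1 : ℕ) : ℝ) ≤ limM q n := by exact_mod_cast h4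
    push_cast at h6
    linarith
  · intro c hc hcα
    rw [Metric.tendsto_atTop]
    intro ε hε
    set δ := min (1 / 4) (ε / 2) with hδ
    have hδ0 : 0 < δ := lt_min (by norm_num) (by positivity)
    have hδ4 : δ ≤ 1 / 4 := min_le_left _ _
    have hδε : δ ≤ ε / 2 := min_le_right _ _
    obtain ⟨L, n1, hL⟩ := lim_window q K hanti hwin htop δ hδ0 hδ4
    have hu : ∀ᶠ n : ℕ in atTop, (L * 2 : ℝ) * (n : ℝ) ^ (-(1 / 8) : ℝ) < (α - c) / 2 := by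
      have h := (lim_u_tendsto.const_mul (L * 2 : ℝ))
      rw [mul_zero] at h
      exact h.eventually_lt_const (by linarith)
    have hA : ∀ᶠ n : ℕ in atTop, (α + c) / 2 < (limM q n : ℝ) / n :=
      hα.eventually_const_lt (by linarith)
    obtain ⟨N, hN⟩ := eventually_atTop.1 (hu.and hA)
    refine ⟨max N (max n1 nt), fun n hn => ?_⟩
    have g1 : N ≤ n := (le_max_left _ _).trans hn
    have g2 : n1 ≤ n := (le_max_left _ _).trans ((le_max_right _ _).trans hn)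
    have g3 : nt ≤ n := (le_max_right _ _).trans ((le_max_right _ _).trans hn)
    obtain ⟨k1, k2⟩ := hN n g1
    have hn1 : 1 ≤ n := hnt1.trans g3
    have hn0 : (0 : ℝ) < n := by exact_mod_cast hn1
    have h1 : 1 - δ < q n ⌊c * n⌋₊ := by
      by_contra hcon
      have h2 := hL n g2 _ (not_lt.mp hcon)
      have h3 := limM_le q n (⌊c * n⌋₊ + L * ⌈(n : ℝ) ^ (7 / 8 : ℝ)⌉₊) (by linarith)
      have h4 : (limM q n : ℝ) ≤ (⌊c * n⌋₊ : ℝ) + L * (⌈(n : ℝ) ^ (7 / 8 : ℝ)⌉₊ : ℝ) := by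
        exact_mod_cast h3
      have h5 := Nat.floor_le (by positivity : 0 ≤ c * (n : ℝ))
      have h6 := mul_le_mul_of_nonneg_left (lim_R_le n hn1) (Nat.cast_nonneg L : (0 : ℝ) ≤ L)
      have h7 := mul_lt_mul_of_pos_right k1 hn0
      rw [lt_div_iff₀ hn0] at k2
      linarith
    have h8 := (h01 n ⌊c * n⌋₊ hn1).2
    rw [Real.dist_eq, abs_lt]
    constructor <;> linarith
  · intro c hcα
    have hα0 : 0 ≤ α := ge_of_tendsto' hα fun n => by positivity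
    rw [Metric.tendsto_atTop]
    intro ε hε
    set δ := min (1 / 4) (ε / 2) with hδ
    have hδ0 : 0 < δ := lt_min (by norm_num) (by positivity)
    have hδ4 : δ ≤ 1 / 4 := min_le_left _ _
    have hδε : δ ≤ ε / 2 := min_le_right _ _
    obtain ⟨L, n1, hL⟩ := lim_window q K hanti hwin htop δ hδ0 hδ4
    have hu : ∀ᶠ n : ℕ in atTop, (L * 2 + 1 : ℝ) * (n : ℝ) ^ (-(1 / 8) : ℝ) < (c - α) / 2 := by
      have h := (lim_u_tendsto.const_mul (L * 2 + 1 : ℝ))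
      rw [mul_zero] at h
      exact h.eventually_lt_const (by linarith)
    have hA : ∀ᶠ n : ℕ in atTop, (limM q n : ℝ) / n < (α + c) / 2 :=
      hα.eventually_lt_const (by linarith)
    obtain ⟨N, hN⟩ := eventually_atTop.1 (hu.and hA)
    refine ⟨max N (max n1 nt), fun n hn => ?_⟩
    have g1 : N ≤ n := (le_max_left _ _).trans hn
    have g2 : n1 ≤ n := (le_max_left _ _).trans ((le_max_right _ _).trans hn)
    have g3 : nt ≤ n := (le_max_right _ _).trans ((le_max_right _ _).trans hn)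
    obtain ⟨k1, k2⟩ := hN n g1
    have hn1 : 1 ≤ n := hnt1.trans g3
    have hn0 : (0 : ℝ) < n := by exact_mod_cast hn1
    have h2 := hL n g2 (limM q n) (by linarith [(hnt n g3).1])
    have h3 : limM q n + L * ⌈(n : ℝ) ^ (7 / 8 : ℝ)⌉₊ ≤ ⌊c * n⌋₊ := by
      refine Nat.le_floor ?_
      push_cast
      have h6 := mul_le_mul_of_nonneg_left (lim_R_le n hn1) (Nat.cast_nonneg L : (0 : ℝ) ≤ L)
      have h7 := mul_lt_mul_of_pos_right k1 hn0
      have h8 := lim_one_le n hn1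
      rw [div_lt_iff₀ hn0] at k2
      linarith
    have h4 := hanti n hn1 h3
    have h8 := (h01 n ⌊c * n⌋₊ hn1).1
    rw [Real.dist_eq, abs_lt]
    constructor <;> linarith

end Vale.Agent.P170
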