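import Vale.Agent.Lib.P170.Basic

/-! # P170, module PROPER: the model of the problem and its comparison with `Q`

A proper `k`-clause over `n` variables is a set of `k` literals on distinct variables.  An
injective-on-variables `c : Fin k → Lit (Fin n)` gives the proper clause `image c`, each proper
clause arising from `k!` such `c`; the number of such `c` is `n.descFactorial k * 2^k`, so a random
`k`-clause is proper with probability `π = n.descFactorial k / n^k`.
`P k n m` = `(TP^m s) univ` for the averaging operator `TP` over proper clauses.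
`T = π TP + (1-π) TI`, `TI` = average over the improper ones, `0 ≤ TI Φ ≤ Φ` for monotone `Φ ≥ 0`. -/

namespace Vale.Agent.P170

open Finset

/-- proper `k`-clauses: sets of `k` literals on distinct variables -/
def PClause (n k : ℕ) : Type :=
  {C : Finset (Fin n × Bool) // C.card = k ∧ ∀ l ∈ C, ∀ l' ∈ C, l.1 = l'.1 → l = l'}

noncomputable instance (n k : ℕ) : Fintype (PClause n k) := by
  unfold PClause; infer_instance

/-- satisfiability of a list of proper clauses -/
def PSat {n k m : ℕ} (F : Fin m → PClause n k) : Prop :=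
  ∃ σ : Fin n → Bool, ∀ i, ∃ l ∈ (F i).1, σ l.1 = l.2

open Classical in
/-- probability that `m` independent uniform proper `k`-clauses are satisfiable -/
noncomputable def P (k n m : ℕ) : ℝ :=
  ((univ.filter fun F : Fin m → PClause n k => PSat F).card : ℝ) /
    (Fintype.card (Fin m → PClause n k) : ℝ)

/-- probability that a random `k`-clause is proper -/
noncomputable def prp (n k : ℕ) : ℝ := (n.descFactorial k : ℝ) / (n : ℝ) ^ k

/-- the assignments in `A` satisfying the proper clause `C` -/
def prp_cut {n k : ℕ} (C : PClause n k) (A : Finset (Asg (Fin n))) : Finset (Asg (Fin n)) :=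
  A.filter (fun σ => ∃ l ∈ C.1, σ l.1 = l.2)

theorem prp_cut_mono {n k : ℕ} (C : PClause n k) {A B : Finset (Asg (Fin n))} (h : A ⊆ B) :
    prp_cut C A ⊆ prp_cut C B := filter_subset_filter _ h

theorem prp_cut_subset {n k : ℕ} (C : PClause n k) (A : Finset (Asg (Fin n))) :
    prp_cut C A ⊆ A := filter_subset _ _

/-- averaging over a random proper clause -/
noncomputable def TP (n k : ℕ) : Module.End ℝ (Finset (Asg (Fin n)) → ℝ) where
  toFun Φ := fun A => (∑ C : PClause n k, Φ (prp_cut C A)) / (Fintype.card (PClause n k) : ℝ)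
  map_add' Φ Ψ := by
    funext A
    simp only [Pi.add_apply, sum_add_distrib, add_div]
  map_smul' r Φ := by
    funext A
    simp only [Pi.smul_apply, smul_eq_mul, RingHom.id_apply]
    rw [← mul_sum, mul_div_assoc]

theorem TP_apply (n k : ℕ) (Φ : Finset (Asg (Fin n)) → ℝ) (A : Finset (Asg (Fin n))) :
    TP n k Φ A = (∑ C : PClause n k, Φ (prp_cut C A)) / (Fintype.card (PClause n k) : ℝ) := rfl

theorem TP_nonneg (n k : ℕ) {Φ : Finset (Asg (Fin n)) → ℝ} (h : 0 ≤ Φ) : 0 ≤ TP n k Φ := by
  intro A
  rw [TP_apply]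
  exact div_nonneg (sum_nonneg fun C _ => h _) (Nat.cast_nonneg _)

theorem TP_pow_nonneg (n k m : ℕ) {Φ : Finset (Asg (Fin n)) → ℝ} (h : 0 ≤ Φ) :
    0 ≤ (TP n k ^ m) Φ := by
  induction m with
  | zero => simpa using h
  | succ m ih => rw [pow_succ', Module.End.mul_apply]; exact TP_nonneg n k ih

theorem TP_monotone (n k : ℕ) {Φ : Finset (Asg (Fin n)) → ℝ} (h : Monotone Φ) :
    Monotone (TP n k Φ) := by
  intro A B hAB
  rw [TP_apply, TP_apply]
  exact div_le_div_of_nonneg_right (sum_le_sum fun C _ => h (prp_cut_mono C hAB))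
    (Nat.cast_nonneg _)

open Classical in
/-- fraction of the formulas of `m` proper clauses which are satisfied by some member of `A` -/
theorem TP_pow_s (n k m : ℕ) (A : Finset (Asg (Fin n))) :
    (TP n k ^ m) s A = ((univ.filter fun F : Fin m → PClause n k =>
      ∃ σ ∈ A, ∀ i, ∃ l ∈ (F i).1, σ l.1 = l.2).card : ℝ) /
        (Fintype.card (PClause n k) : ℝ) ^ m := by
  induction m generalizing A with
  | zero =>
    simp only [pow_zero, Module.End.one_apply, div_one]
    unfold s
    by_cases hA : A.Nonempty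
    · rw [if_pos hA]
      obtain ⟨σ, hσ⟩ := hA
      rw [filter_true_of_mem]
      · simp
      · intro F _
        exact ⟨σ, hσ, fun i => i.elim0⟩
    · rw [if_neg hA]
      rw [filter_false_of_mem]
      · simp
      · rintro F _ ⟨σ, hσ, _⟩
        exact hA ⟨σ, hσ⟩
  | succ m ih =>
    rw [pow_succ', Module.End.mul_apply, TP_apply]
    simp only [ih]
    rw [← sum_div, div_div, ← pow_succ]
    congr 1
    rw [← Nat.cast_sum, Nat.cast_inj, ← card_sigma]
    refine card_bij' (fun x _ => Fin.cons (α := fun _ => PClause n k) x.1 x.2)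
      (fun F _ => ⟨F 0, Fin.tail F⟩) ?_ ?_ ?_ ?_
    · rintro ⟨C, F⟩ hx
      simp only [mem_sigma, mem_univ, mem_filter, true_and] at hx ⊢
      obtain ⟨σ, hσ, hF⟩ := hx
      unfold prp_cut at hσ
      rw [mem_filter] at hσ
      refine ⟨σ, hσ.1, ?_⟩
      intro i
      refine Fin.cases ?_ ?_ i
      · simpa using hσ.2
      · intro j
        simpa using hF j
    · intro F hF
      simp only [mem_sigma, mem_univ, mem_filter, true_and] at hF ⊢
      obtain ⟨σ, hσ, hF⟩ := hF
      refine ⟨σ, ?_, fun i => hF i.succ⟩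
      unfold prp_cut
      rw [mem_filter]
      exact ⟨hσ, hF 0⟩
    · rintro ⟨C, F⟩ hx
      simp
    · intro F hF
      simp

theorem P_eq (k n m : ℕ) : P k n m = (TP n k ^ m) s univ := by
  classical
  rw [TP_pow_s]
  unfold P PSat
  rw [Fintype.card_fun, Fintype.card_fin]
  push_cast
  congr 3
  ext F
  simp

/-- proper sequences of literals -/
def prp_seq {n k : ℕ} (c : Fin k → Lit (Fin n)) : Prop := Function.Injective fun i => (c i).1

/-- the clause of a proper sequence -/
def prp_clause {n k : ℕ} (c : Fin k → Lit (Fin n)) (h : prp_seq c) : PClause n k :=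
  ⟨univ.image c, by
    constructor
    · rw [card_image_of_injective, card_univ, Fintype.card_fin]
      intro i j hij
      exact h (congrArg Prod.fst hij)
    · intro l hl l' hl' e
      rw [mem_image] at hl hl'
      obtain ⟨i, _, rfl⟩ := hl
      obtain ⟨j, _, rfl⟩ := hl'
      rw [h e]⟩

theorem prp_cut_clause {n k : ℕ} (c : Fin k → Lit (Fin n)) (h : prp_seq c)
    (A : Finset (Asg (Fin n))) : prp_cut (prp_clause c h) A = cut c A := by
  unfold prp_cut cut prp_clause
  apply filter_congr
  intro σ _
  simp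

open Classical in
/-- each proper clause comes from `k!` sequences -/
theorem prp_fiber {n k : ℕ} (C : PClause n k) :
    (univ.filter fun c : Fin k → Lit (Fin n) => ∃ h : prp_seq c, prp_clause c h = C).card =
      k.factorial := by
  have e : Fintype.card (Fin k ≃ {l // l ∈ C.1}) = k.factorial := by
    have h1 : Fintype.card {l // l ∈ C.1} = k := by
      rw [Fintype.card_coe]; exact C.2.1
    have e0 : Fin k ≃ {l // l ∈ C.1} := (finCongr h1.symm).trans (Fintype.equivFin _).symm
    rw [Fintype.card_equiv e0, Fintype.card_fin]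
  rw [← e, ← card_univ (α := Fin k ≃ {l // l ∈ C.1})]
  symm
  refine card_bij (fun f _ => fun i => (f i).1) ?_ ?_ ?_
  · intro f _
    simp only [mem_filter, mem_univ, true_and]
    have hs : prp_seq (fun i => (f i).1) := by
      intro i j hij
      have := C.2.2 _ (f i).2 _ (f j).2 hij
      exact f.injective (Subtype.ext this)
    refine ⟨hs, ?_⟩
    unfold prp_clause
    apply Subtype.ext
    ext l
    simp only [mem_image, mem_univ, true_and]
    constructor
    · rintro ⟨i, rfl⟩
      exact (f i).2
    · intro hl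
      exact ⟨f.symm ⟨l, hl⟩, by simp⟩
  · intro f _ g _ hfg
    apply Equiv.ext
    intro i
    exact Subtype.ext (congrFun hfg i)
  · intro c hc
    simp only [mem_filter, mem_univ, true_and] at hc
    obtain ⟨h, hC⟩ := hc
    have hm : ∀ i, c i ∈ C.1 := by
      intro i
      rw [← hC]
      unfold prp_clause
      simp
    have hinj : Function.Injective (fun i => (⟨c i, hm i⟩ : {l // l ∈ C.1})) := by
      intro i j hij
      exact h (congrArg (fun x => x.1.1) hij)
    have hbij : Function.Bijective (fun i => (⟨c i, hm i⟩ : {l // l ∈ C.1})) := by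
      rw [Fintype.bijective_iff_injective_and_card]
      refine ⟨hinj, ?_⟩
      rw [Fintype.card_fin, Fintype.card_coe]
      exact C.2.1.symm
    refine ⟨Equiv.ofBijective _ hbij, mem_univ _, ?_⟩
    funext i
    simp

open Classical in
theorem prp_sum {n k : ℕ} (Φ : Finset (Asg (Fin n)) → ℝ) (A : Finset (Asg (Fin n))) :
    ∑ c ∈ univ.filter (fun c : Fin k → Lit (Fin n) => prp_seq c), Φ (cut c A) =
      (k.factorial : ℝ) * ∑ C : PClause n k, Φ (prp_cut C A) := by
  rw [mul_sum]
  have h1 : ∀ C : PClause n k, (k.factorial : ℝ) * Φ (prp_cut C A) =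
      ∑ c ∈ (univ.filter fun c : Fin k → Lit (Fin n) => ∃ h : prp_seq c, prp_clause c h = C),
        Φ (cut c A) := by
    intro C
    rw [← prp_fiber C, ← nsmul_eq_mul, ← sum_const]
    refine sum_congr rfl fun c hc => ?_
    rw [mem_filter] at hc
    obtain ⟨_, h, rfl⟩ := hc
    rw [prp_cut_clause]
  rw [sum_congr rfl fun C _ => h1 C]
  rw [← sum_biUnion]
  · apply sum_congr _ fun _ _ => rfl
    ext c
    simp
  · intro C _ D _ hCD
    rw [Function.onFun, disjoint_left]
    intro c hc hd
    rw [mem_filter] at hc hd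
    obtain ⟨_, h, rfl⟩ := hc
    obtain ⟨_, h', rfl⟩ := hd
    exact hCD rfl

open Classical in
theorem prp_count (n k : ℕ) :
    (univ.filter (fun c : Fin k → Lit (Fin n) => prp_seq c)).card = n.descFactorial k * 2 ^ k := by
  have e : Fintype.card ((Fin k ↪ Fin n) × (Fin k → Bool)) = n.descFactorial k * 2 ^ k := by
    rw [Fintype.card_prod, Fintype.card_embedding_eq, Fintype.card_fin, Fintype.card_fin,
      Fintype.card_fun, Fintype.card_bool, Fintype.card_fin]
  rw [← e, ← card_univ (α := (Fin k ↪ Fin n) × (Fin k → Bool))]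
  symm
  refine card_bij (fun x _ => fun i => (x.1 i, x.2 i)) ?_ ?_ ?_
  · intro x _
    simp only [mem_filter, mem_univ, true_and]
    exact x.1.injective
  · intro x _ y _ hxy
    apply Prod.ext
    · ext i
      have := congrArg Prod.fst (congrFun hxy i)
      simpa using congrArg Fin.val this
    · funext i
      exact congrArg Prod.snd (congrFun hxy i)
  · intro c hc
    simp only [mem_filter, mem_univ, true_and] at hc
    exact ⟨(⟨fun i => (c i).1, hc⟩, fun i => (c i).2), mem_univ _, rfl⟩

theorem prp_card (n k : ℕ) :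
    n.descFactorial k * 2 ^ k = k.factorial * Fintype.card (PClause n k) := by
  classical
  rw [← prp_count]
  have h := prp_sum (n := n) (k := k) (fun _ => 1) univ
  simp only [sum_const, nsmul_eq_mul, mul_one, card_univ] at h
  exact_mod_cast h

theorem PClause_card_pos {n k : ℕ} (hkn : k ≤ n) : 0 < Fintype.card (PClause n k) := by
  have h := prp_card n k
  have h1 : 0 < n.descFactorial k := Nat.pos_of_ne_zero (by
    rw [Ne, Nat.descFactorial_eq_zero_iff_lt]; omega)
  have h2 : 0 < n.descFactorial k * 2 ^ k := by positivity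
  rw [h] at h2
  exact Nat.pos_of_mul_pos_left h2

theorem prp_nonneg (n k : ℕ) : 0 ≤ prp n k := by unfold prp; positivity

theorem prp_le_one (n k : ℕ) : prp n k ≤ 1 := by
  unfold prp
  apply div_le_one_of_le₀ _ (by positivity)
  exact_mod_cast Nat.descFactorial_le_pow n k

open Classical in
/-- the proper part of `T` -/
theorem T_proper {n k : ℕ} (hn : 1 ≤ n) (hkn : k ≤ n) (Φ : Finset (Asg (Fin n)) → ℝ)
    (A : Finset (Asg (Fin n))) :
    (∑ c ∈ univ.filter (fun c : Fin k → Lit (Fin n) => prp_seq c), Φ (cut c A)) /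
      (2 * Fintype.card (Fin n) : ℝ) ^ k = prp n k * TP n k Φ A := by
  rw [prp_sum, TP_apply, Fintype.card_fin]
  unfold prp
  have h := prp_card n k
  have h' : (n.descFactorial k : ℝ) * 2 ^ k = k.factorial * Fintype.card (PClause n k) := by
    exact_mod_cast h
  have hc : (0 : ℝ) < Fintype.card (PClause n k) := by exact_mod_cast PClause_card_pos hkn
  have hn' : (0 : ℝ) < n := by exact_mod_cast hn
  rw [mul_pow, div_mul_div_comm, div_eq_div_iff (by positivity) (by positivity)]
  linear_combination (-(∑ C : PClause n k, Φ (prp_cut C A)) * (n : ℝ) ^ k) * h'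

theorem T_ge_TP {n k : ℕ} (hn : 1 ≤ n) (hkn : k ≤ n) {Φ : Finset (Asg (Fin n)) → ℝ}
    (h : 0 ≤ Φ) : prp n k • TP n k Φ ≤ T (Fin n) k Φ := by
  classical
  intro A
  rw [Pi.smul_apply, smul_eq_mul, ← T_proper hn hkn, T_apply]
  apply div_le_div_of_nonneg_right _ (den_nonneg k)
  exact sum_le_sum_of_subset_of_nonneg (filter_subset _ _) fun c _ _ => h _

theorem T_le_TP {n k : ℕ} (hn : 1 ≤ n) (hkn : k ≤ n) {Φ : Finset (Asg (Fin n)) → ℝ}
    (h : Monotone Φ) : T (Fin n) k Φ ≤ prp n k • TP n k Φ + (1 - prp n k) • Φ := by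
  classical
  intro A
  have hne : Nonempty (Fin n) := ⟨⟨0, by omega⟩⟩
  rw [Pi.add_apply, Pi.smul_apply, Pi.smul_apply, smul_eq_mul, smul_eq_mul, ← T_proper hn hkn,
    T_apply, ← sum_filter_add_sum_filter_not univ (fun c : Fin k → Lit (Fin n) => prp_seq c),
    add_div]
  have hd := den_pos (V := Fin n) k
  have h1 : (∑ c ∈ univ.filter (fun c : Fin k → Lit (Fin n) => ¬ prp_seq c), Φ (cut c A)) ≤
      ((univ.filter (fun c : Fin k → Lit (Fin n) => ¬ prp_seq c)).card : ℝ) * Φ A := by
    rw [← nsmul_eq_mul, ← sum_const]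
    exact sum_le_sum fun c _ => h (cut_subset c A)
  have h2 : ((univ.filter (fun c : Fin k → Lit (Fin n) => ¬ prp_seq c)).card : ℝ) /
      (2 * Fintype.card (Fin n) : ℝ) ^ k = 1 - prp n k := by
    have h3 := card_filter_add_card_filter_not (s := (univ : Finset (Fin k → Lit (Fin n))))
      (fun c : Fin k → Lit (Fin n) => prp_seq c)
    rw [prp_count, card_univ] at h3
    have h4 : ((n.descFactorial k : ℝ) * 2 ^ k +
        ((univ.filter (fun c : Fin k → Lit (Fin n) => ¬ prp_seq c)).card : ℝ)) =
          (2 * Fintype.card (Fin n) : ℝ) ^ k := by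
      rw [← card_clause]
      exact_mod_cast h3
    rw [div_eq_iff hd.ne', ← h4]
    have h5 : prp n k * ((2 * Fintype.card (Fin n) : ℝ) ^ k) = (n.descFactorial k : ℝ) * 2 ^ k := by
      unfold prp
      rw [Fintype.card_fin, mul_pow]
      have hn' : (0 : ℝ) < n := by exact_mod_cast hn
      field_simp
    rw [← h4] at h5
    linear_combination h5
  calc _ ≤ (∑ c ∈ univ.filter (fun c : Fin k → Lit (Fin n) => prp_seq c), Φ (cut c A)) /
      (2 * Fintype.card (Fin n) : ℝ) ^ k +
      (((univ.filter (fun c : Fin k → Lit (Fin n) => ¬ prp_seq c)).card : ℝ) * Φ A) /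
      (2 * Fintype.card (Fin n) : ℝ) ^ k := by
        gcongr
    _ = _ := by
        rw [← h2]
        ring

theorem Q_le_P (k n m : ℕ) (hn : 1 ≤ n) (hkn : k ≤ n) :
    Q (Fin n) k m ≤ ∑ i ∈ range (m + 1),
      (m.choose i : ℝ) * prp n k ^ i * (1 - prp n k) ^ (m - i) * P k n i := by
  have hp0 := prp_nonneg n k
  have hp1 := prp_le_one n k
  set R : Module.End ℝ (Finset (Asg (Fin n)) → ℝ) :=
    prp n k • TP n k + (1 - prp n k) • 1 with hR
  have hRm : ∀ Φ : Finset (Asg (Fin n)) → ℝ, Monotone Φ → Monotone (R Φ) := by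
    intro Φ hΦ A B hAB
    rw [hR]
    simp only [LinearMap.add_apply, LinearMap.smul_apply, Module.End.one_apply, Pi.add_apply,
      Pi.smul_apply, smul_eq_mul]
    have h1 := TP_monotone n k hΦ hAB
    have h2 := hΦ hAB
    have h3 := mul_le_mul_of_nonneg_left h1 hp0
    have h4 := mul_le_mul_of_nonneg_left h2 (sub_nonneg.mpr hp1)
    linarith
  have hRp : ∀ m, Monotone ((R ^ m) s) := by
    intro m
    induction m with
    | zero => simpa using s_monotone
    | succ m ih => rw [pow_succ', Module.End.mul_apply]; exact hRm _ ih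
  have hT : ∀ m, (T (Fin n) k ^ m) s ≤ (R ^ m) s := by
    intro m
    induction m with
    | zero => simp
    | succ m ih =>
      rw [pow_succ', pow_succ', Module.End.mul_apply, Module.End.mul_apply]
      refine (T_mono k ih).trans ?_
      exact T_le_TP hn hkn (hRp m)
  have hc : Commute (prp n k • TP n k) ((1 - prp n k) • (1 : Module.End ℝ
      (Finset (Asg (Fin n)) → ℝ))) := by
    apply Commute.smul_right
    exact Commute.one_right _
  have h := hT m univ
  unfold Q
  refine h.trans (le_of_eq ?_)
  rw [hR, hc.add_pow]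
  rw [LinearMap.sum_apply, Finset.sum_apply]
  refine sum_congr rfl fun i _ => ?_
  rw [P_eq, smul_pow, smul_pow, one_pow]
  simp only [smul_mul_assoc, mul_smul_comm, mul_one]
  rw [show ((m.choose i : ℕ) : Module.End ℝ (Finset (Asg (Fin n)) → ℝ)) =
    ((m.choose i : ℝ)) • 1 by
      apply LinearMap.ext
      intro Φ
      funext A
      simp]
  simp only [mul_smul_comm, mul_one, LinearMap.smul_apply, Pi.smul_apply, smul_eq_mul]
  ring

theorem P_le_Q (k n m : ℕ) (hn : 1 ≤ n) (hkn : k ≤ n) :
    prp n k ^ m * P k n m ≤ Q (Fin n) k m := by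
  have hp0 := prp_nonneg n k
  have h : ∀ m, (prp n k ^ m) • (TP n k ^ m) s ≤ (T (Fin n) k ^ m) s := by
    intro m
    induction m with
    | zero => simp
    | succ m ih =>
      rw [pow_succ' (T (Fin n) k), Module.End.mul_apply]
      refine le_trans ?_ (T_mono k ih)
      rw [map_smul]
      have h1 := T_ge_TP hn hkn (TP_pow_nonneg n k m (s_nonneg (V := Fin n)))
      intro A
      have h2 := h1 A
      simp only [Pi.smul_apply, smul_eq_mul] at h2 ⊢
      rw [pow_succ' (TP n k), Module.End.mul_apply, pow_succ, mul_assoc]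
      exact mul_le_mul_of_nonneg_left h2 (pow_nonneg hp0 m)
  have := h m univ
  rw [P_eq]
  simpa [Q] using this

end Vale.Agent.P170
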