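import Vale.Agent.Lib.P170.Embed

/-! # P170, module SLICE: fixing one variable

`slice A` is the set of the assignments of `V ⊕ Unit` which extend an element of `A` by the value
`true` at the new variable.  A `j`-clause over `V ⊕ Unit` touches the new variable nowhere with
probability `(n/(n+1))^j`, exactly once with probability `j n^{j-1} / (n+1)^j`.  In the second case,
with `c'` the remaining `(j-1)`-clause, `slice (cut c' A) ⊆ cut c (slice A)`.

`unit_identity`: `E[z s] = P(SAT) - P(F ∧ y SAT)`: `T 1 s = s - zs 1` (`T_s`), the operators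
commute, and for `Ψ = (T k)^m ((T j)^b s)` one has `T 1 Ψ univ = Ψ (slice univ)` because `Ψ` is
invariant under permutations of the variables and under flipping values. -/

namespace Vale.Agent.P170

open Finset

set_option linter.unusedSectionVars false

variable {V : Type} [Fintype V] [DecidableEq V]

/-- extension of the assignments by `true` -/
def slice (A : Finset (Asg V)) : Finset (Asg (V ⊕ Unit)) :=
  A.image (fun σ => Sum.elim σ (fun _ => true))

theorem s_slice (A : Finset (Asg V)) : s (slice A) = s A := by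
  unfold s slice; simp only [image_nonempty]

theorem mem_slice (A : Finset (Asg V)) (σ : Asg (V ⊕ Unit)) :
    σ ∈ slice A ↔ (fun v => σ (Sum.inl v)) ∈ A ∧ σ (Sum.inr ()) = true := by
  unfold slice
  rw [mem_image]
  constructor
  · rintro ⟨τ, hτ, rfl⟩
    exact ⟨by simpa using hτ, rfl⟩
  · rintro ⟨h1, h2⟩
    refine ⟨_, h1, ?_⟩
    funext v
    rcases v with v | ⟨⟩
    · rfl
    · exact h2.symm

theorem slice_mono {A B : Finset (Asg V)} (h : A ⊆ B) : slice A ⊆ slice B :=
  image_subset_image h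

variable (V) in
/-- probability that a `j`-clause over `V ⊕ Unit` avoids the new variable -/
noncomputable def p0 (j : ℕ) : ℝ := ((Fintype.card V : ℝ) / (Fintype.card V + 1)) ^ j

variable (V) in
/-- probability that a `j`-clause over `V ⊕ Unit` contains the new variable exactly once -/
noncomputable def p1 (j : ℕ) : ℝ :=
  j * (Fintype.card V : ℝ) ^ (j - 1) / ((Fintype.card V : ℝ) + 1) ^ j

/-- insertion of a literal of the new variable -/
def insC {j : ℕ} (x : (Fin (j + 1) × Bool) × (Fin j → Lit V)) : Fin (j + 1) → Lit (V ⊕ Unit) :=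
  Fin.insertNth (α := fun _ => Lit (V ⊕ Unit)) x.1.1 (Sum.inr (), x.1.2) (inlC Unit x.2)

theorem insC_same {j : ℕ} (x : (Fin (j + 1) × Bool) × (Fin j → Lit V)) :
    insC x x.1.1 = (Sum.inr (), x.1.2) := by
  unfold insC; simp

theorem insC_above {j : ℕ} (x : (Fin (j + 1) × Bool) × (Fin j → Lit V)) (i : Fin j) :
    insC x (x.1.1.succAbove i) = inlC Unit x.2 i := by
  unfold insC; simp

theorem insC_injective (j : ℕ) :
    Function.Injective (insC : (Fin (j + 1) × Bool) × (Fin j → Lit V) → _) := by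
  intro x y h
  have h1 : x.1.1 = y.1.1 := by
    by_contra hne
    obtain ⟨i, hi⟩ := Fin.exists_succAbove_eq hne
    have h2 := congrFun h x.1.1
    rw [insC_same, ← hi, insC_above] at h2
    unfold inlC at h2
    rw [Prod.mk.injEq] at h2
    exact Sum.inr_ne_inl h2.1
  have h3 : x.1.2 = y.1.2 := by
    have h2 := congrFun h x.1.1
    rw [insC_same, h1, insC_same, Prod.mk.injEq] at h2
    exact h2.2
  have h4 : x.2 = y.2 := by
    apply inlC_injective (W := Unit) j
    funext i
    have h2 := congrFun h (x.1.1.succAbove i)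
    rw [insC_above] at h2
    rw [h2, h1, insC_above]
  exact Prod.ext (Prod.ext h1 h3) h4

theorem insC_ne_inlC {j : ℕ} (x : (Fin (j + 1) × Bool) × (Fin j → Lit V))
    (c : Fin (j + 1) → Lit V) : insC x ≠ inlC Unit c := by
  intro h
  have h2 := congrFun h x.1.1
  rw [insC_same] at h2
  unfold inlC at h2
  rw [Prod.mk.injEq] at h2
  exact Sum.inr_ne_inl h2.1

theorem cut_inlC_slice {j : ℕ} (c : Fin j → Lit V) (A : Finset (Asg V)) :
    cut (inlC Unit c) (slice A) = slice (cut c A) := by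
  ext σ
  unfold cut inlC
  rw [mem_filter, mem_slice, mem_slice, mem_filter]
  tauto

theorem cut_insC_slice {j : ℕ} (x : (Fin (j + 1) × Bool) × (Fin j → Lit V))
    (A : Finset (Asg V)) : slice (cut x.2 A) ⊆ cut (insC x) (slice A) := by
  intro σ hσ
  rw [mem_slice] at hσ
  obtain ⟨h1, h2⟩ := hσ
  unfold cut at h1 ⊢
  rw [mem_filter] at h1 ⊢
  obtain ⟨h3, i, hi⟩ := h1
  refine ⟨(mem_slice A σ).2 ⟨h3, h2⟩, x.1.1.succAbove i, ?_⟩
  rw [insC_above]
  exact hi

/-- one step -/
theorem T_slice_ge [Nonempty V] (j : ℕ) (hj : 1 ≤ j) (Φ : Finset (Asg (V ⊕ Unit)) → ℝ)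
    (hΦ : Monotone Φ) (h0 : 0 ≤ Φ) (A : Finset (Asg V)) :
    p0 V j * T V j (fun B => Φ (slice B)) A + p1 V j * T V (j - 1) (fun B => Φ (slice B)) A ≤
      T (V ⊕ Unit) j Φ (slice A) := by
  classical
  obtain ⟨j, rfl⟩ := Nat.exists_eq_add_of_le' hj
  rw [Nat.add_sub_cancel]
  obtain ⟨S0, hS0⟩ : ∃ S0 : Finset (Fin (j + 1) → Lit (V ⊕ Unit)),
      S0 = (univ : Finset (Fin (j + 1) → Lit V)).image (inlC Unit) := ⟨_, rfl⟩
  obtain ⟨S1, hS1⟩ : ∃ S1 : Finset (Fin (j + 1) → Lit (V ⊕ Unit)),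
      S1 = (univ : Finset ((Fin (j + 1) × Bool) × (Fin j → Lit V))).image insC := ⟨_, rfl⟩
  have hdis : Disjoint S0 S1 := by
    rw [hS0, hS1, disjoint_left]
    intro c hc hc'
    obtain ⟨d, _, rfl⟩ := mem_image.1 hc
    obtain ⟨x, _, hx⟩ := mem_image.1 hc'
    exact insC_ne_inlC x d hx
  have h1 : ∑ c ∈ S0, Φ (cut c (slice A)) = ∑ c : Fin (j + 1) → Lit V, Φ (slice (cut c A)) := by
    rw [hS0, sum_image fun c _ d _ h => inlC_injective (j + 1) h]
    exact sum_congr rfl fun c _ => by rw [cut_inlC_slice]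
  have h2 : 2 * ((j : ℝ) + 1) * ∑ c : Fin j → Lit V, Φ (slice (cut c A)) ≤
      ∑ c ∈ S1, Φ (cut c (slice A)) := by
    rw [hS1, sum_image fun c _ d _ h => insC_injective j h]
    calc 2 * ((j : ℝ) + 1) * ∑ c : Fin j → Lit V, Φ (slice (cut c A))
        = ∑ x : (Fin (j + 1) × Bool) × (Fin j → Lit V), Φ (slice (cut x.2 A)) := by
          rw [Fintype.sum_prod_type]
          simp only [sum_const, card_univ, Fintype.card_prod, Fintype.card_fin,
            Fintype.card_bool, nsmul_eq_mul]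
          push_cast
          ring
      _ ≤ _ := sum_le_sum fun x _ => hΦ (cut_insC_slice x A)
  have h3 : ∑ c ∈ S0, Φ (cut c (slice A)) + ∑ c ∈ S1, Φ (cut c (slice A)) ≤
      ∑ c : Fin (j + 1) → Lit (V ⊕ Unit), Φ (cut c (slice A)) := by
    rw [← sum_union hdis]
    exact sum_le_sum_of_subset_of_nonneg (subset_univ _) fun c _ _ => h0 _
  have hn : (0 : ℝ) < Fintype.card V := by exact_mod_cast Fintype.card_pos
  rw [T_apply (j + 1) Φ]
  rw [le_div_iff₀ (den_pos (j + 1))]
  rw [h1] at h3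
  have e1 : p0 V (j + 1) * T V (j + 1) (fun B => Φ (slice B)) A *
      (2 * Fintype.card (V ⊕ Unit) : ℝ) ^ (j + 1) =
      ∑ c : Fin (j + 1) → Lit V, Φ (slice (cut c A)) := by
    rw [T_apply, Fintype.card_sum, Fintype.card_unit]
    unfold p0
    push_cast
    rw [mul_pow, mul_pow, div_pow]
    field_simp
  have e2 : p1 V (j + 1) * T V j (fun B => Φ (slice B)) A *
      (2 * Fintype.card (V ⊕ Unit) : ℝ) ^ (j + 1) =
      2 * ((j : ℝ) + 1) * ∑ c : Fin j → Lit V, Φ (slice (cut c A)) := by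
    rw [T_apply, Fintype.card_sum, Fintype.card_unit]
    unfold p1
    push_cast
    rw [mul_pow, mul_pow]
    field_simp
    ring
  rw [add_mul, e1, e2]
  linarith

theorem T_pow_slice_aux [Nonempty V] (k m : ℕ) (hk : 1 ≤ k) (Φ : Finset (Asg (V ⊕ Unit)) → ℝ)
    (hΦ : Monotone Φ) (h0 : 0 ≤ Φ) (Ψ : Finset (Asg V) → ℝ)
    (h : Ψ ≤ fun B => Φ (slice B)) :
    ((p0 V k • T V k + p1 V k • T V (k - 1)) ^ m) Ψ ≤
      fun B => ((T (V ⊕ Unit) k ^ m) Φ) (slice B) := by
  induction m generalizing Φ Ψ with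
  | zero => simpa using h
  | succ m ih =>
    have a0 : 0 ≤ p0 V k := by unfold p0; positivity
    have a1 : 0 ≤ p1 V k := by unfold p1; positivity
    have h1 : (p0 V k • T V k + p1 V k • T V (k - 1)) Ψ ≤
        fun B => T (V ⊕ Unit) k Φ (slice B) := by
      intro B
      refine le_trans ?_ (T_slice_ge k hk Φ hΦ h0 B)
      simp only [LinearMap.add_apply, LinearMap.smul_apply, Pi.add_apply, Pi.smul_apply,
        smul_eq_mul]
      exact add_le_add (mul_le_mul_of_nonneg_left (T_mono k h B) a0)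
        (mul_le_mul_of_nonneg_left (T_mono (k - 1) h B) a1)
    have h2 := ih (T (V ⊕ Unit) k Φ) (T_monotone k hΦ) (T_nonneg k h0) _ h1
    rw [pow_succ, pow_succ]
    exact h2

theorem T_pow_slice_aux' [Nonempty V] (k m : ℕ) (hk : 1 ≤ k) (Φ : Finset (Asg (V ⊕ Unit)) → ℝ)
    (hΦ : Monotone Φ) (h0 : 0 ≤ Φ) (Ψ : Finset (Asg V) → ℝ) (hΨ : 0 ≤ Ψ)
    (h : Ψ ≤ fun B => Φ (slice B)) :
    ((p0 V k • T V k) ^ m) Ψ ≤ fun B => ((T (V ⊕ Unit) k ^ m) Φ) (slice B) := by
  induction m generalizing Φ Ψ with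
  | zero => simpa using h
  | succ m ih =>
    have a0 : 0 ≤ p0 V k := by unfold p0; positivity
    have a1 : 0 ≤ p1 V k := by unfold p1; positivity
    have h1 : (p0 V k • T V k) Ψ ≤ fun B => T (V ⊕ Unit) k Φ (slice B) := by
      intro B
      refine le_trans ?_ (T_slice_ge k hk Φ hΦ h0 B)
      simp only [LinearMap.smul_apply, Pi.smul_apply, smul_eq_mul]
      have h3 := mul_le_mul_of_nonneg_left (T_mono k h B) a0
      have h4 : 0 ≤ T V (k - 1) (fun B => Φ (slice B)) B :=
        T_nonneg (k - 1) (fun B => h0 (slice B)) B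
      have h5 := mul_nonneg a1 h4
      linarith
    have h6 : 0 ≤ (p0 V k • T V k) Ψ := by
      intro B
      simp only [LinearMap.smul_apply, Pi.smul_apply, smul_eq_mul]
      exact mul_nonneg a0 (T_nonneg k hΨ B)
    have h2 := ih (T (V ⊕ Unit) k Φ) (T_monotone k hΦ) (T_nonneg k h0) _ h6 h1
    rw [pow_succ, pow_succ]
    exact h2

/-- iterated version -/
theorem T_pow_slice_ge [Nonempty V] (k m b : ℕ) (hk : 2 ≤ k) :
    (((p0 V k • T V k + p1 V k • T V (k - 1)) ^ m)
      (((p0 V (k - 1) • T V (k - 1)) ^ b) s)) univ ≤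
      ((T (V ⊕ Unit) k ^ m) ((T (V ⊕ Unit) (k - 1) ^ b) s)) (slice univ) := by
  have h0 : (s : Finset (Asg V) → ℝ) ≤ fun B => s (slice B) := fun B => (s_slice B).ge
  have h1 := T_pow_slice_aux' (V := V) (k - 1) b (by omega) s s_monotone s_nonneg s s_nonneg h0
  exact T_pow_slice_aux k m (by omega) _ (T_pow_monotone (k - 1) b s_monotone)
    (T_pow_nonneg (k - 1) b s_nonneg) _ h1 univ

/-! ### the unit clause identity -/

section sym
variable {W : Type} [Fintype W] [DecidableEq W]

/-- transport by a permutation of the variables and flips of values -/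
def tf (e : W ≃ W) (f : W → Bool) (A : Finset (Asg W)) : Finset (Asg W) :=
  univ.filter (fun σ => (fun w => xor (σ (e w)) (f w)) ∈ A)

theorem mem_tf (e : W ≃ W) (f : W → Bool) (A : Finset (Asg W)) (σ : Asg W) :
    σ ∈ tf e f A ↔ (fun w => xor (σ (e w)) (f w)) ∈ A := by
  unfold tf; simp

/-- the transported clause -/
def tfC (e : W ≃ W) (f : W → Bool) {j : ℕ} (c : Fin j → Lit W) : Fin j → Lit W :=
  fun i => (e (c i).1, xor (c i).2 (f (c i).1))

theorem tf_cut (e : W ≃ W) (f : W → Bool) {j : ℕ} (c : Fin j → Lit W) (A : Finset (Asg W)) :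
    tf e f (cut c A) = cut (tfC e f c) (tf e f A) := by
  ext σ
  unfold cut tfC
  rw [mem_tf, mem_filter, mem_filter, mem_tf]
  have : ∀ i, (xor (σ (e (c i).1)) (f (c i).1) = (c i).2) ↔
      (σ (e (c i).1) = xor (c i).2 (f (c i).1)) := by
    intro i
    cases σ (e (c i).1) <;> cases f (c i).1 <;> cases (c i).2 <;> decide
  simp only [this]

theorem T_tf (e : W ≃ W) (f : W → Bool) (j : ℕ) (Φ : Finset (Asg W) → ℝ)
    (A : Finset (Asg W)) : T W j Φ (tf e f A) = T W j (fun B => Φ (tf e f B)) A := by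
  rw [T_apply, T_apply]
  congr 1
  symm
  have hbij : Function.Bijective (tfC e f : (Fin j → Lit W) → (Fin j → Lit W)) := by
    rw [← Finite.injective_iff_bijective]
    intro c d h
    funext i
    have h1 := congrFun h i
    unfold tfC at h1
    rw [Prod.mk.injEq] at h1
    have h2 : (c i).1 = (d i).1 := e.injective h1.1
    have h3 := h1.2
    rw [h2] at h3
    have h4 : (c i).2 = (d i).2 := by
      revert h3
      cases (c i).2 <;> cases (d i).2 <;> cases f (d i).1 <;> decide
    exact Prod.ext h2 h4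
  refine Fintype.sum_bijective _ hbij _ _ ?_
  intro c
  rw [tf_cut]

theorem T_pow_tf (e : W ≃ W) (f : W → Bool) (j m : ℕ) (Φ : Finset (Asg W) → ℝ)
    (A : Finset (Asg W)) :
    (T W j ^ m) Φ (tf e f A) = (T W j ^ m) (fun B => Φ (tf e f B)) A := by
  induction m generalizing Φ A with
  | zero => simp
  | succ m ih =>
    have h : (fun B => T W j Φ (tf e f B)) = T W j (fun B => Φ (tf e f B)) := by
      funext B
      rw [T_tf]
    rw [pow_succ, Module.End.mul_apply, ih, h, Module.End.mul_apply]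

theorem s_tf (e : W ≃ W) (f : W → Bool) (A : Finset (Asg W)) : s (tf e f A) = s A := by
  unfold s
  have : (tf e f A).Nonempty ↔ A.Nonempty := by
    constructor
    · rintro ⟨σ, hσ⟩
      exact ⟨_, (mem_tf e f A σ).1 hσ⟩
    · rintro ⟨σ, hσ⟩
      refine ⟨fun w => xor (σ (e.symm w)) (f (e.symm w)), ?_⟩
      rw [mem_tf]
      have : (fun w => xor (xor (σ (e.symm (e w))) (f (e.symm (e w)))) (f w)) = σ := by
        funext w
        rw [e.symm_apply_apply]
        cases σ w <;> cases f w <;> rfl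
      rw [this]
      exact hσ
  by_cases h : A.Nonempty
  · rw [if_pos (this.2 h), if_pos h]
  · rw [if_neg (fun h' => h (this.1 h')), if_neg h]

/-- the value at a half cube does not depend on the literal -/
theorem half_cube (k j m b : ℕ) (l l' : Lit W) :
    ((T W k ^ m) ((T W j ^ b) s)) (univ.filter fun σ : Asg W => σ l.1 = l.2) =
      ((T W k ^ m) ((T W j ^ b) s)) (univ.filter fun σ : Asg W => σ l'.1 = l'.2) := by
  have hs : (fun B => ((T W j ^ b) s) (tf (Equiv.swap l.1 l'.1) (fun _ => xor l.2 l'.2) B)) =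
      (T W j ^ b) s := by
    have hss : (fun C : Finset (Asg W) =>
        s (tf (Equiv.swap l.1 l'.1) (fun _ => xor l.2 l'.2) C)) = s := by
      funext C
      rw [s_tf]
    funext B
    rw [T_pow_tf, hss]
  have key := T_pow_tf (Equiv.swap l.1 l'.1) (fun _ => xor l.2 l'.2) k m ((T W j ^ b) s)
    (univ.filter fun σ : Asg W => σ l.1 = l.2)
  rw [hs] at key
  rw [← key]
  have e : tf (Equiv.swap l.1 l'.1) (fun _ => xor l.2 l'.2)
      (univ.filter fun σ : Asg W => σ l.1 = l.2) =
      univ.filter fun σ : Asg W => σ l'.1 = l'.2 := by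
    ext σ
    rw [mem_tf, mem_filter, mem_filter]
    simp only [mem_univ, true_and, Equiv.swap_apply_left]
    cases σ l'.1 <;> cases l.2 <;> cases l'.2 <;> decide
  rw [e]

end sym

/-- the unit clause identity -/
theorem unit_identity [Nonempty V] (k j m b : ℕ) :
    ((T (V ⊕ Unit) k ^ m) ((T (V ⊕ Unit) j ^ b) (zs 1))) univ =
      ((T (V ⊕ Unit) k ^ m) ((T (V ⊕ Unit) j ^ b) s)) univ -
      ((T (V ⊕ Unit) k ^ m) ((T (V ⊕ Unit) j ^ b) s)) (slice univ) := by
  have h1 : (zs 1 : Finset (Asg (V ⊕ Unit)) → ℝ) = s - T (V ⊕ Unit) 1 s := by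
    rw [T_s]; abel
  have h2 : (T (V ⊕ Unit) k ^ m) ((T (V ⊕ Unit) j ^ b) (T (V ⊕ Unit) 1 s)) =
      T (V ⊕ Unit) 1 ((T (V ⊕ Unit) k ^ m) ((T (V ⊕ Unit) j ^ b) s)) := by
    rw [← Module.End.mul_apply, ← Module.End.mul_apply, ← Module.End.mul_apply,
      ← Module.End.mul_apply, mul_assoc, ((T_comm j 1).pow_left b).eq, ← mul_assoc,
      ((T_comm k 1).pow_left m).eq, mul_assoc]
  rw [h1, map_sub, map_sub, h2, Pi.sub_apply]
  congr 1
  rw [T_apply]
  have h3 : ∀ c : Fin 1 → Lit (V ⊕ Unit),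
      ((T (V ⊕ Unit) k ^ m) ((T (V ⊕ Unit) j ^ b) s)) (cut c univ) =
      ((T (V ⊕ Unit) k ^ m) ((T (V ⊕ Unit) j ^ b) s)) (slice univ) := by
    intro c
    have e1 : cut c univ = univ.filter fun σ : Asg (V ⊕ Unit) => σ (c 0).1 = (c 0).2 := by
      ext σ
      unfold cut
      rw [mem_filter, mem_filter]
      simp only [mem_univ, true_and]
      constructor
      · rintro ⟨i, hi⟩
        rwa [Subsingleton.elim i 0] at hi
      · intro h
        exact ⟨0, h⟩
    have e2 : slice (univ : Finset (Asg V)) =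
        univ.filter fun σ : Asg (V ⊕ Unit) =>
          σ ((Sum.inr (), true) : Lit (V ⊕ Unit)).1 = ((Sum.inr (), true) : Lit (V ⊕ Unit)).2 := by
      ext σ
      rw [mem_slice, mem_filter]
      simp only [mem_univ, true_and]
    rw [e1, e2]
    exact half_cube k j m b (c 0) (Sum.inr (), true)
  rw [sum_congr rfl fun c _ => h3 c, sum_const, card_univ, nsmul_eq_mul, card_clause]
  field_simp [(den_pos (V := V ⊕ Unit) 1).ne']

end Vale.Agent.P170
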