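import Vale.Agent.Lib.P170.Embed
import Vale.Agent.Lib.P170.Slice

/-! # P170, module STAR: the one variable recursion

Let `n = |V|`, `X = T V k`, `Y = T V (k-1)`, `p = p0 V k = (n/(n+1))^k`, `p1 = p1 V k`,
`p' = p0 V (k-1)`.  By `unit_identity`, `T_pow_cyl_le` (with `W = Unit`, `j = k-1`) and
`T_pow_slice_ge`, the `m`-th term of `E (V ⊕ Unit) k 1 b M` is at most
`((pX + (1-p))^m (p'Y + (1-p'))^b s - (pX + p1 Y)^m (p' Y)^b s) univ`. -/

namespace Vale.Agent.P170

open Finset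

set_option linter.unusedSectionVars false

variable {V : Type} [Fintype V] [DecidableEq V]

variable (V) in
/-- `∑_{m ≤ M} E[z^j ; SAT]` for `m` random `k`-clauses and `b` random `(k-1)`-clauses -/
noncomputable def E (k j b M : ℕ) : ℝ :=
  ∑ m ∈ range (M + 1), ((T V k ^ m) ((T V (k - 1) ^ b) (zs j))) univ

/-! ### elementary inequalities -/

theorem two_hits (x : ℝ) (h0 : 0 ≤ x) (h1 : x ≤ 1) (j : ℕ) :
    1 - (1 - x) ^ (j + 1) - (j + 1) * x * (1 - x) ^ j ≤ ((j : ℝ) + 1) ^ 2 * x ^ 2 := by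
  induction j with
  | zero => simp; positivity
  | succ j ih =>
    have h2 : (1 - x) ^ j ≤ 1 := pow_le_one₀ (by linarith) (by linarith)
    have h3 : 0 ≤ (1 - x) ^ j := pow_nonneg (by linarith) j
    have e : 1 - (1 - x) ^ (j + 1 + 1) - (((j + 1 : ℕ) : ℝ) + 1) * x * (1 - x) ^ (j + 1) =
        (1 - (1 - x) ^ (j + 1) - (j + 1) * x * (1 - x) ^ j) +
        (j + 1) * x ^ 2 * (1 - x) ^ j := by
      push_cast
      ring
    rw [e]
    push_cast
    have h4 : ((j : ℝ) + 1) * x ^ 2 * (1 - x) ^ j ≤ (j + 1) * x ^ 2 * 1 :=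
      mul_le_mul_of_nonneg_left h2 (by positivity)
    nlinarith [sq_nonneg x, mul_nonneg (Nat.cast_nonneg (α := ℝ) j) (sq_nonneg x)]

theorem p0_eq (j : ℕ) : p0 V j = (1 - 1 / ((Fintype.card V : ℝ) + 1)) ^ j := by
  unfold p0
  congr 1
  have : (Fintype.card V : ℝ) + 1 ≠ 0 := by positivity
  field_simp
  ring

theorem p1_eq (j : ℕ) : p1 V (j + 1) =
    (j + 1) * (1 / ((Fintype.card V : ℝ) + 1)) * (1 - 1 / ((Fintype.card V : ℝ) + 1)) ^ j := by
  have h : (Fintype.card V : ℝ) + 1 ≠ 0 := by positivity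
  have e : 1 - 1 / ((Fintype.card V : ℝ) + 1) = (Fintype.card V : ℝ) / (Fintype.card V + 1) := by
    field_simp
    ring
  unfold p1
  rw [e, div_pow, Nat.add_sub_cancel, pow_succ ((Fintype.card V : ℝ) + 1)]
  push_cast
  field_simp

theorem x_bounds : 0 ≤ 1 / ((Fintype.card V : ℝ) + 1) ∧ 1 / ((Fintype.card V : ℝ) + 1) ≤ 1 := by
  refine ⟨by positivity, ?_⟩
  rw [div_le_one (by positivity)]
  have : (0 : ℝ) ≤ Fintype.card V := by positivity
  linarith

theorem p0_nonneg (j : ℕ) : 0 ≤ p0 V j := by unfold p0; positivity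

theorem p0_le_one (j : ℕ) : p0 V j ≤ 1 := by
  rw [p0_eq]
  have := x_bounds (V := V)
  exact pow_le_one₀ (by linarith [this.2]) (by linarith [this.1])

theorem p1_nonneg (j : ℕ) : 0 ≤ p1 V j := by unfold p1; positivity

theorem one_sub_p0_le (j : ℕ) : 1 - p0 V j ≤ j / ((Fintype.card V : ℝ) + 1) := by
  rw [p0_eq]
  have hx := x_bounds (V := V)
  have h := one_add_mul_le_pow (a := -(1 / ((Fintype.card V : ℝ) + 1))) (by linarith [hx.2]) j
  rw [← sub_eq_add_neg] at h
  have e : (j : ℝ) / ((Fintype.card V : ℝ) + 1) = j * (1 / ((Fintype.card V : ℝ) + 1)) := by ring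
  rw [e]
  linarith

theorem p0_p1_le (k : ℕ) (hk : 1 ≤ k) :
    1 - p0 V k - p1 V k ≤ (k : ℝ) ^ 2 / ((Fintype.card V : ℝ) + 1) ^ 2 := by
  obtain ⟨j, rfl⟩ := Nat.exists_eq_add_of_le hk
  rw [add_comm 1 j, p0_eq, p1_eq]
  have hx := x_bounds (V := V)
  have h := two_hits (1 / ((Fintype.card V : ℝ) + 1)) hx.1 hx.2 j
  refine h.trans (le_of_eq ?_)
  push_cast
  rw [div_pow, one_pow]
  ring

theorem p0_add_p1_le_one (k : ℕ) (hk : 1 ≤ k) : p0 V k + p1 V k ≤ 1 := by
  obtain ⟨j, rfl⟩ := Nat.exists_eq_add_of_le hk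
  rw [add_comm 1 j, p0_eq, p1_eq]
  obtain ⟨x, hx⟩ : ∃ x, x = 1 / ((Fintype.card V : ℝ) + 1) := ⟨_, rfl⟩
  have h := x_bounds (V := V)
  rw [← hx] at h ⊢
  clear hx
  obtain ⟨h0, h1⟩ := h
  induction j with
  | zero => simp
  | succ j ih =>
    have ih' := ih (by omega)
    have h3 : 0 ≤ (1 - x) ^ j := pow_nonneg (by linarith) j
    push_cast at ih' ⊢
    have e : (1 - x) ^ (j + 1 + 1) + ((j : ℝ) + 1 + 1) * x * (1 - x) ^ (j + 1) =
        ((1 - x) ^ (j + 1) + (j + 1) * x * (1 - x) ^ j) - (j + 1) * x ^ 2 * (1 - x) ^ j := by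
      ring
    rw [e]
    have : 0 ≤ ((j : ℝ) + 1) * x ^ 2 * (1 - x) ^ j := by positivity
    linarith

/-! ### operators -/

section ops
variable [Nonempty V]

theorem Mx_apply (j : ℕ) (p : ℝ) (Φ : Finset (Asg V) → ℝ) :
    Mx V j p Φ = p • T V j Φ + (1 - p) • Φ := by
  unfold Mx
  simp

theorem Mx_mono (j : ℕ) (p : ℝ) (h0 : 0 ≤ p) (h1 : p ≤ 1) {Φ Ψ : Finset (Asg V) → ℝ}
    (h : Φ ≤ Ψ) : Mx V j p Φ ≤ Mx V j p Ψ := by
  rw [Mx_apply, Mx_apply]
  exact add_le_add (smul_le_smul_of_nonneg_left (T_mono j h) h0)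
    (smul_le_smul_of_nonneg_left h (by linarith))

theorem Mx_pow_mono (j m : ℕ) (p : ℝ) (h0 : 0 ≤ p) (h1 : p ≤ 1) {Φ Ψ : Finset (Asg V) → ℝ}
    (h : Φ ≤ Ψ) : (Mx V j p ^ m) Φ ≤ (Mx V j p ^ m) Ψ := by
  induction m with
  | zero => simpa using h
  | succ m ih => rw [pow_succ', Module.End.mul_apply, Module.End.mul_apply]; exact Mx_mono j p h0 h1 ih

theorem Mx_const (j : ℕ) (p r : ℝ) : Mx V j p (fun _ => r) = fun _ => r := by
  rw [Mx_apply, T_const]
  funext A
  simp only [Pi.add_apply, Pi.smul_apply, smul_eq_mul]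
  ring

theorem Mx_pow_const (j m : ℕ) (p r : ℝ) : (Mx V j p ^ m) (fun _ => r) = fun _ => r := by
  induction m with
  | zero => simp
  | succ m ih => rw [pow_succ', Module.End.mul_apply, ih, Mx_const]

/-- `(p T + (1-p))^b s ≤ T^b s + b (1-p)` -/
theorem Mx_pow_s_le (j b : ℕ) (p : ℝ) (h0 : 0 ≤ p) (h1 : p ≤ 1) :
    (Mx V j p ^ b) s ≤ (T V j ^ b) s + fun _ => b * (1 - p) := by
  induction b with
  | zero =>
    intro A
    simp
  | succ b ih =>
    rw [pow_succ', Module.End.mul_apply]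
    refine (Mx_mono j p h0 h1 ih).trans ?_
    rw [map_add, Mx_const, Mx_apply, ← Module.End.mul_apply, ← pow_succ']
    intro A
    simp only [Pi.add_apply, Pi.smul_apply, smul_eq_mul]
    have h2 : (0 : ℝ) ≤ (T V j ^ (b + 1)) s A := T_pow_nonneg j (b + 1) s_nonneg A
    have h3 : (T V j ^ b) s A ≤ 1 := by
      have := T_pow_mono j b s_le_one A
      rwa [T_pow_const] at this
    push_cast
    nlinarith

/-- the operator `p X + c Y` -/
noncomputable def Lx (V : Type) [Fintype V] [DecidableEq V] (k : ℕ) (p c : ℝ) :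
    Module.End ℝ (Finset (Asg V) → ℝ) := p • T V k + c • T V (k - 1)

theorem Lx_apply (k : ℕ) (p c : ℝ) (Φ : Finset (Asg V) → ℝ) :
    Lx V k p c Φ = p • T V k Φ + c • T V (k - 1) Φ := by
  unfold Lx; simp

theorem Lx_mono (k : ℕ) (p c : ℝ) (h0 : 0 ≤ p) (h1 : 0 ≤ c) {Φ Ψ : Finset (Asg V) → ℝ}
    (h : Φ ≤ Ψ) : Lx V k p c Φ ≤ Lx V k p c Ψ := by
  rw [Lx_apply, Lx_apply]
  exact add_le_add (smul_le_smul_of_nonneg_left (T_mono k h) h0)
    (smul_le_smul_of_nonneg_left (T_mono (k - 1) h) h1)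

theorem Lx_pow_mono (k m : ℕ) (p c : ℝ) (h0 : 0 ≤ p) (h1 : 0 ≤ c)
    {Φ Ψ : Finset (Asg V) → ℝ} (h : Φ ≤ Ψ) : (Lx V k p c ^ m) Φ ≤ (Lx V k p c ^ m) Ψ := by
  induction m with
  | zero => simpa using h
  | succ m ih => rw [pow_succ', Module.End.mul_apply, Module.End.mul_apply]; exact Lx_mono k p c h0 h1 ih

theorem Lx_const (k : ℕ) (p c r : ℝ) : Lx V k p c (fun _ => r) = fun _ => (p + c) * r := by
  rw [Lx_apply, T_const, T_const]
  funext A
  simp only [Pi.add_apply, Pi.smul_apply, smul_eq_mul]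
  ring

theorem Lx_pow_const (k m : ℕ) (p c r : ℝ) :
    (Lx V k p c ^ m) (fun _ => r) = fun _ => (p + c) ^ m * r := by
  induction m with
  | zero => simp
  | succ m ih =>
    rw [pow_succ', Module.End.mul_apply, ih, Lx_const]
    funext A
    ring

/-- replacing `c` by a larger `c'` -/
theorem Lx_pow_ge (k m : ℕ) (p c c' : ℝ) (h0 : 0 ≤ p) (h1 : 0 ≤ c) (h2 : c ≤ c')
    (h3 : p + c' ≤ 1) (t : Finset (Asg V) → ℝ) (ht : t ≤ fun _ => 1) :
    (Lx V k p c' ^ m) t ≤ (Lx V k p c ^ m) t + fun _ => m * (c' - c) := by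
  induction m with
  | zero => intro A; simp
  | succ m ih =>
    have e : (Lx V k p c' ^ (m + 1)) t = Lx V k p c ((Lx V k p c' ^ m) t) +
        (c' - c) • T V (k - 1) ((Lx V k p c' ^ m) t) := by
      rw [pow_succ', Module.End.mul_apply, Lx_apply, Lx_apply]
      module
    rw [e, pow_succ', Module.End.mul_apply]
    have h4 := Lx_mono k p c h0 h1 ih
    rw [map_add, Lx_const] at h4
    have h5 : T V (k - 1) ((Lx V k p c' ^ m) t) ≤ fun _ => 1 := by
      have h6 := Lx_pow_mono k m p c' h0 (h1.trans h2) ht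
      rw [Lx_pow_const] at h6
      refine (T_mono (k - 1) h6).trans ?_
      rw [T_const]
      intro A
      simp only [mul_one]
      exact pow_le_one₀ (by linarith) h3
    intro A
    have h4' := h4 A
    have h5' := h5 A
    simp only [Pi.add_apply, Pi.smul_apply, smul_eq_mul] at h4' h5' ⊢
    push_cast
    have h7 : (p + c) * ((m : ℝ) * (c' - c)) ≤ 1 * (m * (c' - c)) :=
      mul_le_mul_of_nonneg_right (by linarith)
        (mul_nonneg (Nat.cast_nonneg m) (by linarith))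
    have h8 : (c' - c) * T V (k - 1) ((Lx V k p c' ^ m) t) A ≤ (c' - c) * 1 :=
      mul_le_mul_of_nonneg_left h5' (by linarith)
    linarith

/-- binomial expansions -/
theorem Mx_pow_expand (k m : ℕ) (p : ℝ) (t : Finset (Asg V) → ℝ) (A : Finset (Asg V)) :
    (Mx V k p ^ m) t A = ∑ h ∈ range (m + 1),
      ((m.choose h : ℝ) * (1 - p) ^ h * p ^ (m - h)) * (T V k ^ (m - h)) t A := by
  have hc : Commute ((1 - p) • (1 : Module.End ℝ (Finset (Asg V) → ℝ))) (p • T V k) :=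
    ((Commute.one_left _).smul_left _).smul_right _
  unfold Mx
  rw [add_comm, hc.add_pow, LinearMap.sum_apply, Finset.sum_apply]
  refine sum_congr rfl fun h _ => ?_
  rw [smul_pow, smul_pow, one_pow]
  have e : ((1 - p) ^ h • (1 : Module.End ℝ (Finset (Asg V) → ℝ))) *
      (p ^ (m - h) • T V k ^ (m - h)) * ((m.choose h : ℕ) : Module.End ℝ (Finset (Asg V) → ℝ)) =
      ((m.choose h : ℝ) * (1 - p) ^ h * p ^ (m - h)) • T V k ^ (m - h) := by
    rw [smul_mul_assoc, one_mul, smul_smul, ← nsmul_eq_mul', ← Nat.cast_smul_eq_nsmul ℝ,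
      smul_smul]
    congr 1
    ring
  rw [e, LinearMap.smul_apply, Pi.smul_apply, smul_eq_mul]

theorem Lx_pow_expand (k m : ℕ) (p c : ℝ) (t : Finset (Asg V) → ℝ) (A : Finset (Asg V)) :
    (Lx V k p c ^ m) t A = ∑ h ∈ range (m + 1),
      ((m.choose h : ℝ) * c ^ h * p ^ (m - h)) *
        (T V k ^ (m - h)) ((T V (k - 1) ^ h) t) A := by
  have hc : Commute (c • T V (k - 1)) (p • T V k) :=
    ((T_comm (k - 1) k).smul_left _).smul_right _
  unfold Lx
  rw [add_comm, hc.add_pow, LinearMap.sum_apply, Finset.sum_apply]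
  refine sum_congr rfl fun h _ => ?_
  rw [smul_pow, smul_pow]
  have e : (c ^ h • T V (k - 1) ^ h) * (p ^ (m - h) • T V k ^ (m - h)) *
      ((m.choose h : ℕ) : Module.End ℝ (Finset (Asg V) → ℝ)) =
      ((m.choose h : ℝ) * c ^ h * p ^ (m - h)) • (T V k ^ (m - h) * T V (k - 1) ^ h) := by
    rw [smul_mul_assoc, mul_smul_comm, smul_smul, ← nsmul_eq_mul', ← Nat.cast_smul_eq_nsmul ℝ,
      smul_smul, ((T_comm (k - 1) k).pow_pow h (m - h)).eq]
    congr 1
    ring
  rw [e, LinearMap.smul_apply, Pi.smul_apply, smul_eq_mul, Module.End.mul_apply]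

/-- `t - Y^h t` is a sum of `zs`-terms -/
theorem T_pow_s_telescope (j b h : ℕ) :
    (T V j ^ b) s - (T V j ^ (b + h)) s = ∑ i ∈ range h, (T V j ^ (b + i)) (zs j) := by
  induction h with
  | zero => simp
  | succ h ih =>
    rw [sum_range_succ, ← ih]
    have : (T V j ^ (b + (h + 1))) s = (T V j ^ (b + h)) s - (T V j ^ (b + h)) (zs j) := by
      rw [← add_assoc, pow_succ, Module.End.mul_apply, T_s, map_sub]
    rw [this]
    abel

/-- difference of the two operators -/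
theorem diff_le (k m b : ℕ) (p : ℝ) (h0 : 0 ≤ p) (h1 : p ≤ 1) :
    (Mx V k p ^ m) ((T V (k - 1) ^ b) s) univ - (Lx V k p (1 - p) ^ m) ((T V (k - 1) ^ b) s) univ ≤
      ∑ h ∈ range (m + 1), ((m * (1 - p)) ^ h / h.factorial) *
        ∑ i ∈ range h, (T V k ^ (m - h)) ((T V (k - 1) ^ (b + i)) (zs (k - 1))) univ := by
  rw [Mx_pow_expand, Lx_pow_expand, ← sum_sub_distrib]
  refine sum_le_sum fun h _ => ?_
  rw [← mul_sub, ← Module.End.mul_apply (T V (k - 1) ^ h), ← pow_add]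
  have e : (T V k ^ (m - h)) ((T V (k - 1) ^ b) s) univ -
      (T V k ^ (m - h)) ((T V (k - 1) ^ (h + b)) s) univ =
      ∑ i ∈ range h, (T V k ^ (m - h)) ((T V (k - 1) ^ (b + i)) (zs (k - 1))) univ := by
    rw [← Pi.sub_apply, ← map_sub, add_comm h b, T_pow_s_telescope, map_sum, Finset.sum_apply]
  rw [e]
  have hG : 0 ≤ ∑ i ∈ range h,
      (T V k ^ (m - h)) ((T V (k - 1) ^ (b + i)) (zs (k - 1))) univ :=
    sum_nonneg fun i _ => T_pow_nonneg k (m - h) (T_pow_nonneg (k - 1) (b + i) (zs_nonneg _)) univ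
  apply mul_le_mul_of_nonneg_right _ hG
  have h2 : (m.choose h : ℝ) ≤ (m : ℝ) ^ h / h.factorial := Nat.choose_le_pow_div h m
  have h3 : p ^ (m - h) ≤ 1 := pow_le_one₀ h0 h1
  have h4 : 0 ≤ (1 - p) ^ h := pow_nonneg (by linarith) h
  calc (m.choose h : ℝ) * (1 - p) ^ h * p ^ (m - h)
      ≤ (m.choose h : ℝ) * (1 - p) ^ h * 1 :=
        mul_le_mul_of_nonneg_left h3 (mul_nonneg (Nat.cast_nonneg _) h4)
    _ ≤ ((m : ℝ) ^ h / h.factorial) * (1 - p) ^ h * 1 :=
        mul_le_mul_of_nonneg_right (mul_le_mul_of_nonneg_right h2 h4) (by norm_num)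
    _ = (m * (1 - p)) ^ h / h.factorial := by rw [mul_pow]; ring

/-- one term of `E (V ⊕ Unit)` -/
theorem term_le (k m b : ℕ) (hk : 2 ≤ k) :
    ((T (V ⊕ Unit) k ^ m) ((T (V ⊕ Unit) (k - 1) ^ b) (zs 1))) univ ≤
      (∑ h ∈ range (m + 1), ((m * (1 - p0 V k)) ^ h / h.factorial) *
        ∑ i ∈ range h, (T V k ^ (m - h)) ((T V (k - 1) ^ (b + i)) (zs (k - 1))) univ) +
      m * (1 - p0 V k - p1 V k) + 2 * b * (1 - p0 V (k - 1)) := by
  rw [unit_identity]
  have hpr : ∀ j, pr V Unit ^ j = p0 V j := by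
    intro j
    unfold pr p0
    rw [Fintype.card_unit, Nat.cast_one]
  have hup := T_pow_cyl_le (V := V) (W := Unit) k (k - 1) m b
  rw [hpr, hpr] at hup
  have hlo := T_pow_slice_ge (V := V) k m b hk
  have hLx : (p0 V k • T V k + p1 V k • T V (k - 1)) = Lx V k (p0 V k) (p1 V k) := rfl
  rw [hLx] at hlo
  have a0 := p0_nonneg (V := V) k
  have a1 := p0_le_one (V := V) k
  have b0 := p0_nonneg (V := V) (k - 1)
  have b1 := p0_le_one (V := V) (k - 1)
  have c0 := p1_nonneg (V := V) k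
  have c1 := p0_add_p1_le_one (V := V) k (by omega)
  -- upper part
  have h1 : ((Mx V k (p0 V k) ^ m) ((Mx V (k - 1) (p0 V (k - 1)) ^ b) s)) univ ≤
      (Mx V k (p0 V k) ^ m) ((T V (k - 1) ^ b) s) univ + b * (1 - p0 V (k - 1)) := by
    have h2 := Mx_pow_mono (V := V) k m _ a0 a1 (Mx_pow_s_le (k - 1) b _ b0 b1) univ
    rw [map_add, Mx_pow_const] at h2
    exact h2
  -- lower part
  have h3 : (Lx V k (p0 V k) (p1 V k) ^ m) ((T V (k - 1) ^ b) s) univ - b * (1 - p0 V (k - 1)) ≤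
      ((Lx V k (p0 V k) (p1 V k) ^ m) (((p0 V (k - 1) • T V (k - 1)) ^ b) s)) univ := by
    have h4 : (T V (k - 1) ^ b) s - (fun _ => b * (1 - p0 V (k - 1))) ≤
        ((p0 V (k - 1) • T V (k - 1)) ^ b) s := by
      rw [smul_pow]
      intro A
      simp only [Pi.sub_apply, LinearMap.smul_apply, Pi.smul_apply, smul_eq_mul]
      have h5 : (0 : ℝ) ≤ (T V (k - 1) ^ b) s A := T_pow_nonneg (k - 1) b s_nonneg A
      have h6 : (T V (k - 1) ^ b) s A ≤ 1 := by
        have := T_pow_mono (k - 1) b s_le_one A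
        rwa [T_pow_const] at this
      have h7 := one_add_mul_le_pow (a := -(1 - p0 V (k - 1))) (by linarith) b
      have e : 1 + -(1 - p0 V (k - 1)) = p0 V (k - 1) := by ring
      rw [e] at h7
      have h8 : (1 + (b : ℝ) * -(1 - p0 V (k - 1))) * (T V (k - 1) ^ b) s A ≤
          p0 V (k - 1) ^ b * (T V (k - 1) ^ b) s A := mul_le_mul_of_nonneg_right h7 h5
      have h9 : (b : ℝ) * (1 - p0 V (k - 1)) * (T V (k - 1) ^ b) s A ≤
          b * (1 - p0 V (k - 1)) * 1 :=
        mul_le_mul_of_nonneg_left h6 (mul_nonneg (Nat.cast_nonneg b) (by linarith))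
      linarith
    have h10 := Lx_pow_mono (V := V) k m _ _ a0 c0 h4 univ
    rw [map_sub, Lx_pow_const, Pi.sub_apply] at h10
    have h11 : (p0 V k + p1 V k) ^ m ≤ 1 := pow_le_one₀ (by linarith) c1
    have h12 : (p0 V k + p1 V k) ^ m * ((b : ℝ) * (1 - p0 V (k - 1))) ≤
        1 * (b * (1 - p0 V (k - 1))) :=
      mul_le_mul_of_nonneg_right h11 (mul_nonneg (Nat.cast_nonneg b) (by linarith))
    linarith
  have h13 := Lx_pow_ge (V := V) k m (p0 V k) (p1 V k) (1 - p0 V k) a0 c0 (by linarith) (by linarith)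
    ((T V (k - 1) ^ b) s) (by
      have := T_pow_mono (V := V) (k - 1) b s_le_one
      rwa [T_pow_const] at this) (univ : Finset (Asg V))
  have h14 := diff_le (V := V) k m b (p0 V k) a0 a1
  simp only [Pi.add_apply] at h13
  linarith

theorem star (k b M : ℕ) (hk : 2 ≤ k) :
    E (V ⊕ Unit) k 1 b M ≤
      ∑ h ∈ range (M + 1), ((M * k / (Fintype.card V + 1) : ℝ) ^ h / h.factorial) *
        ∑ i ∈ range h, E V k (k - 1) (b + i) M
      + (M + 1) ^ 2 * k ^ 2 / (Fintype.card V + 1) ^ 2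
      + 2 * b * (M + 1) * k / (Fintype.card V + 1) := by
  obtain ⟨G, hG⟩ : ∃ G : ℕ → ℕ → ℝ, G = fun m' h => ∑ i ∈ range h,
      (T V k ^ m') ((T V (k - 1) ^ (b + i)) (zs (k - 1))) univ := ⟨_, rfl⟩
  have hG0 : ∀ m' h, 0 ≤ G m' h := by
    intro m' h; rw [hG]
    exact sum_nonneg fun i _ => T_pow_nonneg k m' (T_pow_nonneg (k - 1) (b + i) (zs_nonneg _)) univ
  obtain ⟨co, hco⟩ : ∃ co : ℕ → ℝ,
      co = fun h => (M * k / (Fintype.card V + 1) : ℝ) ^ h / h.factorial := ⟨_, rfl⟩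
  have hco0 : ∀ h, 0 ≤ co h := by intro h; rw [hco]; positivity
  have a1 := p0_le_one (V := V) k
  have a2 := one_sub_p0_le (V := V) k
  have a3 := p0_p1_le (V := V) k (by omega)
  have a4 : 1 - p0 V (k - 1) ≤ k / ((Fintype.card V : ℝ) + 1) := by
    refine (one_sub_p0_le (V := V) (k - 1)).trans ?_
    apply div_le_div_of_nonneg_right _ (by positivity)
    exact_mod_cast Nat.sub_le k 1
  have hterm : ∀ m ∈ range (M + 1),
      ((T (V ⊕ Unit) k ^ m) ((T (V ⊕ Unit) (k - 1) ^ b) (zs 1))) univ ≤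
      (∑ h ∈ range (M + 1), co h * (if h ≤ m then G (m - h) h else 0)) +
      (M + 1) * (k ^ 2 / ((Fintype.card V : ℝ) + 1) ^ 2) +
      2 * b * (k / ((Fintype.card V : ℝ) + 1)) := by
    intro m hm
    have hmM : m ≤ M := by have := mem_range.1 hm; omega
    have hmM' : (m : ℝ) ≤ M := by exact_mod_cast hmM
    refine (term_le k m b hk).trans ?_
    have s1 : ∑ h ∈ range (m + 1), ((m * (1 - p0 V k)) ^ h / h.factorial) *
        ∑ i ∈ range h, (T V k ^ (m - h)) ((T V (k - 1) ^ (b + i)) (zs (k - 1))) univ ≤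
        ∑ h ∈ range (M + 1), co h * (if h ≤ m then G (m - h) h else 0) := by
      calc ∑ h ∈ range (m + 1), ((m * (1 - p0 V k)) ^ h / h.factorial) *
            ∑ i ∈ range h, (T V k ^ (m - h)) ((T V (k - 1) ^ (b + i)) (zs (k - 1))) univ
          ≤ ∑ h ∈ range (m + 1), co h * (if h ≤ m then G (m - h) h else 0) := by
            refine sum_le_sum fun h hh => ?_
            have hh' : h ≤ m := by have := mem_range.1 hh; omega
            rw [if_pos hh', hG, hco]
            simp only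
            apply mul_le_mul_of_nonneg_right
            · apply div_le_div_of_nonneg_right _ (by positivity)
              apply pow_le_pow_left₀ (mul_nonneg (Nat.cast_nonneg m) (by linarith))
              rw [mul_div_assoc]
              exact mul_le_mul hmM' a2 (by linarith) (Nat.cast_nonneg M)
            · have := hG0 (m - h) h
              rw [hG] at this
              exact this
        _ ≤ _ := by
            apply sum_le_sum_of_subset_of_nonneg
            · exact range_subset_range.2 (by omega)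
            · intro h _ _
              apply mul_nonneg (hco0 h)
              split_ifs
              · exact hG0 _ _
              · exact le_rfl
    have s2 : (m : ℝ) * (1 - p0 V k - p1 V k) ≤
        (M + 1) * (k ^ 2 / ((Fintype.card V : ℝ) + 1) ^ 2) := by
      apply mul_le_mul (by linarith) a3 _ (by positivity)
      have := p0_add_p1_le_one (V := V) k (by omega)
      linarith
    have s3 : 2 * (b : ℝ) * (1 - p0 V (k - 1)) ≤ 2 * b * (k / ((Fintype.card V : ℝ) + 1)) :=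
      mul_le_mul_of_nonneg_left a4 (by positivity)
    linarith
  have hsum := sum_le_sum hterm
  have hE : E (V ⊕ Unit) k 1 b M = ∑ m ∈ range (M + 1),
      ((T (V ⊕ Unit) k ^ m) ((T (V ⊕ Unit) (k - 1) ^ b) (zs 1))) univ := rfl
  rw [← hE, sum_add_distrib, sum_add_distrib, sum_comm, sum_const, sum_const, card_range,
    nsmul_eq_mul, nsmul_eq_mul] at hsum
  have hmain : ∑ h ∈ range (M + 1), ∑ m ∈ range (M + 1),
      co h * (if h ≤ m then G (m - h) h else 0) ≤
      ∑ h ∈ range (M + 1), co h * ∑ i ∈ range h, E V k (k - 1) (b + i) M := by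
    refine sum_le_sum fun h _ => ?_
    rw [← mul_sum]
    apply mul_le_mul_of_nonneg_left _ (hco0 h)
    have e1 : ∑ i ∈ range h, E V k (k - 1) (b + i) M = ∑ m' ∈ range (M + 1), G m' h := by
      rw [hG]
      unfold E
      rw [sum_comm]
    rw [e1, ← sum_filter]
    have hinj : Set.InjOn (fun m => m - h) ((range (M + 1)).filter (fun m => h ≤ m) : Set ℕ) := by
      intro x hx y hy hxy
      have hx' := (mem_filter.1 (mem_coe.1 hx)).2
      have hy' := (mem_filter.1 (mem_coe.1 hy)).2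
      have hxy' : x - h = y - h := hxy
      omega
    rw [← sum_image (f := fun m' => G m' h) hinj]
    apply sum_le_sum_of_subset_of_nonneg
    · intro x hx
      obtain ⟨y, hy, rfl⟩ := mem_image.1 hx
      have := mem_range.1 (mem_filter.1 hy).1
      exact mem_range.2 (by omega)
    · intro x _ _
      exact hG0 x h
  have e2 : ((M + 1 : ℕ) : ℝ) * ((M + 1) * (k ^ 2 / ((Fintype.card V : ℝ) + 1) ^ 2)) =
      (M + 1) ^ 2 * k ^ 2 / (Fintype.card V + 1) ^ 2 := by push_cast; ring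
  have e3 : ((M + 1 : ℕ) : ℝ) * (2 * b * (k / ((Fintype.card V : ℝ) + 1))) =
      2 * b * (M + 1) * k / (Fintype.card V + 1) := by push_cast; ring
  rw [e2, e3] at hsum
  rw [hco] at hmain hsum
  linarith

end ops

end Vale.Agent.P170
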