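import Vale.Agent.Lib.P170.Window
import Vale.Agent.Lib.P170.Frozen
import Vale.Agent.Lib.P170.Interp
import Vale.Agent.Lib.P170.First
import Vale.Agent.Lib.P170.Limit

/-! # P170, module FINAL (first half): the threshold for independent literals -/

namespace Vale.Agent.P170

open Finset Filter Topology

theorem tq_sum_le (n k M : ℕ) (m R : ℕ) (h : m + R ≤ M + 1) :
    ∑ N ∈ range R, ((T (Fin n) k ^ (m + N)) (zs 1)) univ ≤ E (Fin n) k 1 0 M := by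
  unfold E
  have h1 : ∑ N ∈ range R, ((T (Fin n) k ^ (m + N)) (zs 1)) univ =
      ∑ i ∈ Ico m (m + R), ((T (Fin n) k ^ i) (zs 1)) univ := by
    rw [sum_Ico_eq_sum_range, Nat.add_sub_cancel_left]
  rw [h1]
  calc ∑ i ∈ Ico m (m + R), ((T (Fin n) k ^ i) (zs 1)) univ
      ≤ ∑ i ∈ range (M + 1), ((T (Fin n) k ^ i) (zs 1)) univ := by
        apply sum_le_sum_of_subset_of_nonneg
        · intro i hi
          rw [mem_Ico] at hi
          rw [mem_range]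
          omega
        · intro i _ _
          exact T_pow_nonneg k i (zs_nonneg 1) univ
    _ = _ := by
        refine sum_congr rfl fun i _ => ?_
        rw [pow_zero, Module.End.one_apply]

theorem tq_small (n k m : ℕ) (hn : 1 ≤ n) (hk : 1 ≤ k) :
    1 - E (Fin n) k 1 0 m ≤ Q (Fin n) k m := by
  have : Nonempty (Fin n) := ⟨⟨0, by omega⟩⟩
  have h1 := sum_zs (V := Fin n) k 0 m
  rw [zero_add, Q_zero] at h1
  have h2 : ∑ N ∈ range m, ((T (Fin n) k ^ (0 + N)) (zs k)) univ ≤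
      ∑ N ∈ range m, ((T (Fin n) k ^ (0 + N)) (zs 1)) univ := by
    refine sum_le_sum fun N _ => ?_
    refine T_pow_mono k (0 + N) ?_ univ
    intro A
    have hs := s_nonneg (V := Fin n) A
    simp only [Pi.zero_apply] at hs
    exact mul_le_mul_of_nonneg_right
      (pow_le_pow_of_le_one (z_nonneg A) (z_le_one A) hk) hs
  have h3 := tq_sum_le n k m 0 m (by omega)
  linarith

theorem tq_window_bound (k : ℕ) (hk : 3 ≤ k) (K : ℝ) (hK : 0 < K) :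
    ∃ C : ℝ, ∃ n0 : ℕ, ∀ n m : ℕ, n0 ≤ n → (m : ℝ) ≤ K * n →
      Q (Fin n) k m * (1 - Q (Fin n) k m) ≤
        2 * (Q (Fin n) k m - Q (Fin n) k (m + ⌈(n : ℝ) ^ (7 / 8 : ℝ)⌉₊)) +
        C * (n : ℝ) ^ (-(1 / 8) : ℝ) := by
  obtain ⟨C1, hC1, hC⟩ := frozen k hk (K + 2) (by linarith)
  refine ⟨2 * K * (C1 + 1), 1, ?_⟩
  intro n m hn hm
  have hne : Nonempty (Fin n) := ⟨⟨0, by omega⟩⟩
  have hn1 : (1:ℝ) ≤ n := by exact_mod_cast hn
  have hn0 : (0:ℝ) < n := by linarith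
  set R : ℕ := ⌈(n : ℝ) ^ (7 / 8 : ℝ)⌉₊ with hR
  have hRge : (n : ℝ) ^ (7 / 8 : ℝ) ≤ R := Nat.le_ceil _
  have hx1 : (1:ℝ) ≤ (n : ℝ) ^ (7 / 8 : ℝ) := Real.one_le_rpow hn1 (by norm_num)
  have hR1' : (1:ℝ) ≤ R := le_trans hx1 hRge
  have hR1 : 1 ≤ R := by exact_mod_cast hR1'
  have hRle : (R:ℝ) ≤ n + 1 := by
    have h1 : (n : ℝ) ^ (7 / 8 : ℝ) ≤ n := by
      calc (n : ℝ) ^ (7 / 8 : ℝ) ≤ (n : ℝ) ^ (1 : ℝ) :=
            Real.rpow_le_rpow_of_exponent_le hn1 (by norm_num)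
        _ = n := Real.rpow_one _
    have h2 := (Nat.ceil_lt_add_one (by positivity : (0:ℝ) ≤ (n : ℝ) ^ (7 / 8 : ℝ))).le
    rw [← hR] at h2
    linarith
  rcases Nat.eq_zero_or_pos m with rfl | hm0
  · rw [Q_zero]
    have h1 : Q (Fin n) k (0 + R) ≤ 1 := Q_le_one k _
    have h2 : (0:ℝ) ≤ 2 * K * (C1 + 1) * (n : ℝ) ^ (-(1 / 8) : ℝ) := by positivity
    linarith
  obtain ⟨m, rfl⟩ : ∃ i, m = i + 1 := ⟨m - 1, by omega⟩
  have hkR : (0:ℝ) < k := by exact_mod_cast (by omega : 0 < k)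
  have hk3 : (3:ℝ) ≤ k := by exact_mod_cast hk
  set η : ℝ := (n : ℝ) ^ (-(1 / (2 * k)) : ℝ) with hη
  have hη0 : 0 < η := Real.rpow_pos_of_pos hn0 _
  have hη1 : η ≤ 1 := by
    rw [hη]
    apply Real.rpow_le_one_of_one_le_of_nonpos hn1
    have : (0:ℝ) < 1 / (2 * k) := by positivity
    linarith
  have hηk : η ^ k = (n : ℝ) ^ (-(1 / 2) : ℝ) := by
    rw [hη, ← Real.rpow_natCast, ← Real.rpow_mul hn0.le]
    congr 1
    field_simp
  have hηk1 : η ^ (k - 1) ≤ (n : ℝ) ^ (-(1 / 3) : ℝ) := by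
    rw [hη, ← Real.rpow_natCast, ← Real.rpow_mul hn0.le]
    apply Real.rpow_le_rpow_of_exponent_le hn1
    rw [Nat.cast_sub (by omega : 1 ≤ k), Nat.cast_one]
    have h1 : -(1 / (2 * (k:ℝ))) * ((k:ℝ) - 1) = -(((k:ℝ) - 1) / (2 * k)) := by ring
    rw [h1]
    have h2 : 1 / 3 ≤ ((k:ℝ) - 1) / (2 * k) := by
      rw [le_div_iff₀ (by positivity)]
      linarith
    linarith
  have hw := window (V := Fin n) k m R (by omega) hR1 η hη0 hη1
  have hS : ∑ N ∈ range R, ((T (Fin n) k ^ (m + N)) (zs 1)) univ ≤ C1 := by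
    refine (tq_sum_le n k (m + R) m R (by omega)).trans (hC n (m + R) hn ?_)
    push_cast at hm ⊢
    nlinarith
  have hS0 : 0 ≤ ∑ N ∈ range R, ((T (Fin n) k ^ (m + N)) (zs 1)) univ :=
    sum_nonneg fun N _ => T_pow_nonneg k _ (zs_nonneg 1) univ
  have hm' : (m : ℝ) + 1 ≤ K * n := by
    push_cast at hm
    exact hm
  have hterm1 : η ^ (k - 1) * (∑ N ∈ range R, ((T (Fin n) k ^ (m + N)) (zs 1)) univ) / R ≤
      C1 * ((n : ℝ) ^ (-(1 / 8) : ℝ) / n) := by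
    have h1 : η ^ (k - 1) * (∑ N ∈ range R, ((T (Fin n) k ^ (m + N)) (zs 1)) univ) / R ≤
        (n : ℝ) ^ (-(1 / 3) : ℝ) * C1 / (n : ℝ) ^ (7 / 8 : ℝ) := by
      apply div_le_div₀ (by positivity) _ (by positivity) hRge
      exact mul_le_mul hηk1 hS hS0 (by positivity)
    have h2 : (n : ℝ) ^ (-(1 / 3) : ℝ) * C1 / (n : ℝ) ^ (7 / 8 : ℝ) =
        C1 * ((n : ℝ) ^ (-(1 / 3) : ℝ) / (n : ℝ) ^ (7 / 8 : ℝ)) := by ring
    rw [h2] at h1
    refine h1.trans (mul_le_mul_of_nonneg_left ?_ hC1.le)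
    rw [← Real.rpow_sub hn0]
    have h3 : (n : ℝ) ^ (-(1 / 8) : ℝ) / n = (n : ℝ) ^ (-(1 / 8) - 1 : ℝ) := by
      rw [Real.rpow_sub hn0, Real.rpow_one]
    rw [h3]
    apply Real.rpow_le_rpow_of_exponent_le hn1
    norm_num
  have hterm2 : 1 / (η ^ k * (R:ℝ) ^ 2) ≤ (n : ℝ) ^ (-(1 / 8) : ℝ) / n := by
    have h1 : (n : ℝ) ^ (-(1 / 2) : ℝ) * ((n : ℝ) ^ (7 / 8 : ℝ)) ^ 2 ≤ η ^ k * (R:ℝ) ^ 2 := by
      rw [hηk]
      apply mul_le_mul_of_nonneg_left _ (by positivity)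
      exact pow_le_pow_left₀ (by positivity) hRge 2
    have h2 : (n : ℝ) ^ (-(1 / 2) : ℝ) * ((n : ℝ) ^ (7 / 8 : ℝ)) ^ 2 =
        (n : ℝ) ^ (5 / 4 : ℝ) := by
      rw [← Real.rpow_natCast ((n : ℝ) ^ (7 / 8 : ℝ)), ← Real.rpow_mul hn0.le,
        ← Real.rpow_add hn0]
      norm_num
    rw [h2] at h1
    calc 1 / (η ^ k * (R:ℝ) ^ 2) ≤ 1 / (n : ℝ) ^ (5 / 4 : ℝ) :=
          one_div_le_one_div_of_le (by positivity) h1
      _ = (n : ℝ) ^ (-(5 / 4) : ℝ) := by rw [Real.rpow_neg hn0.le, one_div]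
      _ ≤ (n : ℝ) ^ (-(1 / 8) - 1 : ℝ) := by
          apply Real.rpow_le_rpow_of_exponent_le hn1
          norm_num
      _ = (n : ℝ) ^ (-(1 / 8) : ℝ) / n := by rw [Real.rpow_sub hn0, Real.rpow_one]
  have hfin : 2 * ((m:ℝ) + 1) * (η ^ (k - 1) *
      (∑ N ∈ range R, ((T (Fin n) k ^ (m + N)) (zs 1)) univ) / R + 1 / (η ^ k * (R:ℝ) ^ 2)) ≤
      2 * K * (C1 + 1) * (n : ℝ) ^ (-(1 / 8) : ℝ) := by
    have h1 : η ^ (k - 1) * (∑ N ∈ range R, ((T (Fin n) k ^ (m + N)) (zs 1)) univ) / R +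
        1 / (η ^ k * (R:ℝ) ^ 2) ≤ (C1 + 1) * ((n : ℝ) ^ (-(1 / 8) : ℝ) / n) := by linarith
    have h0 : 0 ≤ η ^ (k - 1) * (∑ N ∈ range R, ((T (Fin n) k ^ (m + N)) (zs 1)) univ) / R +
        1 / (η ^ k * (R:ℝ) ^ 2) := by positivity
    calc 2 * ((m:ℝ) + 1) * (η ^ (k - 1) *
      (∑ N ∈ range R, ((T (Fin n) k ^ (m + N)) (zs 1)) univ) / R + 1 / (η ^ k * (R:ℝ) ^ 2))
        ≤ 2 * (K * n) * ((C1 + 1) * ((n : ℝ) ^ (-(1 / 8) : ℝ) / n)) :=
          mul_le_mul (by linarith) h1 h0 (by positivity)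
      _ = 2 * K * (C1 + 1) * (n : ℝ) ^ (-(1 / 8) : ℝ) := by
          field_simp
  linarith

/-- the threshold for the model with independent literals -/
theorem threshold_Q (k : ℕ) (hk : 3 ≤ k) : ∃ α : ℝ, 0 < α ∧
    (∀ c : ℝ, 0 ≤ c → c < α → Tendsto (fun n : ℕ => Q (Fin n) k ⌊c * n⌋₊) atTop (𝓝 1)) ∧
    (∀ c : ℝ, α < c → Tendsto (fun n : ℕ => Q (Fin n) k ⌊c * n⌋₊) atTop (𝓝 0)) := by
  obtain ⟨K, hK, htop⟩ := top_bound k
  obtain ⟨c0, hc0, n0, hsmall⟩ := frozen_small k hk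
  refine limit_exists (fun n m => Q (Fin n) k m) k K hK ?_ ?_ (tq_window_bound k hk K hK)
    ?_ ?_ htop ?_
  · intro n m hn
    have : Nonempty (Fin n) := ⟨⟨0, by omega⟩⟩
    exact ⟨Q_nonneg k m, Q_le_one k m⟩
  · intro n hn
    have : Nonempty (Fin n) := ⟨⟨0, by omega⟩⟩
    exact Q_antitone k
  · intro a b m ha hb
    have : Nonempty (Fin a) := ⟨⟨0, by omega⟩⟩
    have : Nonempty (Fin b) := ⟨⟨0, by omega⟩⟩
    have h := interp (V := Fin a) (W := Fin b) k m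
    rw [Q_equiv finSumFinEquiv] at h
    have hp : pr (Fin a) (Fin b) = (a : ℝ) / (a + b) := by
      unfold pr; rw [Fintype.card_fin, Fintype.card_fin]
    rw [hp] at h
    exact h
  · intro a b m ha
    have : Nonempty (Fin a) := ⟨⟨0, by omega⟩⟩
    have h := embed (V := Fin a) (W := Fin b) k m
    rw [Q_equiv finSumFinEquiv] at h
    have hp : pr (Fin a) (Fin b) = (a : ℝ) / (a + b) := by
      unfold pr; rw [Fintype.card_fin, Fintype.card_fin]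
    rw [hp] at h
    exact h
  · refine ⟨c0, hc0, max n0 1, ?_⟩
    intro n m hn hm
    have h1 := hsmall n m (le_trans (le_max_left _ _) hn) hm
    have h2 := tq_small n k m (le_trans (le_max_right _ _) hn) (by omega)
    show 3 / 4 ≤ Q (Fin n) k m
    linarith

end Vale.Agent.P170
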