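import Vale.Agent.Lib.P170.Basic

/-! # P170, module WINDOW

Let `w = (1/R) ∑_{N<R} T^N s` (`T = T V k`), `M := m + 1`, `0 ≤ w ≤ s ≤ 1`.
Write `Var h = T^M (h^2) univ - (T^M h univ)^2`.
(a) `Var s = Q(M) (1 - Q(M))`, `Var w ≥ Var s - 2 (T^M (s - w)) univ`,
    `T^M (s-w) univ = (1/R) ∑_{N<R} (Q(M) - Q(M+N)) ≤ Q(M) - Q(M+R)`.
(b) telescoping: `Var w = ∑_{i<M} T^{M-1-i} [ T((T^i w)^2) - (T^{i+1} w)^2 ] univ`.
(c) for every `h`: `T(h^2) A - (T h A)^2 ≤ avg_c (h (cut c A) - h A)^2`.
(d) `h = T^i w`: `h A - h (cut c A) = (1/R) ∑_{N<R} T^{N+i} (s * kill c) A`, split by `z ≤ η`. -/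

namespace Vale.Agent.P170

open Finset

variable {V : Type} [Fintype V] [DecidableEq V]

/-- the variance operator of one step -/
noncomputable def Dv (k : ℕ) (h : Finset (Asg V) → ℝ) : Finset (Asg V) → ℝ :=
  fun A => T V k (fun B => h B ^ 2) A - (T V k h A) ^ 2

theorem var_telescope (k M : ℕ) (w : Finset (Asg V) → ℝ) (A : Finset (Asg V)) :
    (T V k ^ M) (fun B => w B ^ 2) A - ((T V k ^ M) w A) ^ 2 =
      ∑ i ∈ range M, (T V k ^ (M - 1 - i)) (Dv k ((T V k ^ i) w)) A := by
  induction M generalizing w with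
  | zero => simp
  | succ M ih =>
    rw [sum_range_succ']
    have h1 : ∀ i ∈ range M, (T V k ^ (M + 1 - 1 - (i + 1))) (Dv k ((T V k ^ (i + 1)) w)) A =
        (T V k ^ (M - 1 - i)) (Dv k ((T V k ^ i) (T V k w))) A := by
      intro i _
      rw [show M + 1 - 1 - (i + 1) = M - 1 - i by omega, pow_succ, Module.End.mul_apply]
    rw [sum_congr rfl h1, ← ih (T V k w)]
    have h2 : (T V k ^ (M + 1 - 1 - 0)) (Dv k ((T V k ^ 0) w)) A =
        (T V k ^ M) (T V k (fun B => w B ^ 2)) A - (T V k ^ M) (fun B => (T V k w B) ^ 2) A := by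
      have : Dv k ((T V k ^ 0) w) = T V k (fun B => w B ^ 2) - fun B => (T V k w B) ^ 2 := by
        funext B
        simp only [Dv, pow_zero, Module.End.one_apply, Pi.sub_apply]
      rw [this, map_sub, Pi.sub_apply]
      rfl
    rw [h2, pow_succ, Module.End.mul_apply, Module.End.mul_apply]
    ring

theorem Dv_le [Nonempty V] (k : ℕ) (h : Finset (Asg V) → ℝ) (A : Finset (Asg V)) :
    Dv k h A ≤ (∑ c : Fin k → Lit V, (h A - h (cut c A)) ^ 2) / (2 * Fintype.card V : ℝ) ^ k := by
  unfold Dv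
  rw [T_apply, T_apply]
  obtain ⟨N, hN⟩ : ∃ N : ℝ, N = (2 * Fintype.card V : ℝ) ^ k := ⟨_, rfl⟩
  have hpos : 0 < N := hN ▸ den_pos k
  have hcard : ∑ _c : Fin k → Lit V, (1 : ℝ) = N := by
    rw [sum_const, nsmul_eq_mul, mul_one, card_univ, card_clause, hN]
  rw [← hN]
  have e : ∑ c : Fin k → Lit V, (h A - h (cut c A)) ^ 2 =
      h A ^ 2 * N - 2 * h A * (∑ c : Fin k → Lit V, h (cut c A)) +
      ∑ c : Fin k → Lit V, h (cut c A) ^ 2 := by
    rw [← hcard, mul_sum, mul_sum, ← sum_sub_distrib, ← sum_add_distrib]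
    exact sum_congr rfl fun c _ => by ring
  rw [e]
  obtain ⟨S, hS⟩ : ∃ S, S = ∑ c : Fin k → Lit V, h (cut c A) := ⟨_, rfl⟩
  obtain ⟨S2, hS2⟩ : ∃ S2, S2 = ∑ c : Fin k → Lit V, h (cut c A) ^ 2 := ⟨_, rfl⟩
  rw [← hS, ← hS2]
  have : (h A ^ 2 * N - 2 * h A * S + S2) / N - (S2 / N - (S / N) ^ 2) = (h A - S / N) ^ 2 := by
    field_simp
    ring
  have h2 : 0 ≤ (h A - S / N) ^ 2 := sq_nonneg _
  linarith

/-- indicator of `z ≤ η` -/
noncomputable def lo (η : ℝ) (A : Finset (Asg V)) : ℝ := if z A ≤ η then 1 else 0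

theorem lo_nonneg (η : ℝ) (A : Finset (Asg V)) : 0 ≤ lo η A := by unfold lo; split_ifs <;> simp

theorem lo_le_one (η : ℝ) (A : Finset (Asg V)) : lo η A ≤ 1 := by unfold lo; split_ifs <;> simp

/-- averages of iterates -/
noncomputable def av (k i R : ℕ) (Φ : Finset (Asg V) → ℝ) : Finset (Asg V) → ℝ :=
  fun A => (∑ N ∈ range R, (T V k ^ (N + i)) Φ A) / R

theorem av_mono (k i R : ℕ) {Φ Ψ : Finset (Asg V) → ℝ} (h : Φ ≤ Ψ) (A : Finset (Asg V)) :
    av k i R Φ A ≤ av k i R Ψ A :=
  div_le_div_of_nonneg_right (sum_le_sum fun N _ => T_pow_mono k (N + i) h A) (by positivity)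

theorem av_nonneg (k i R : ℕ) {Φ : Finset (Asg V) → ℝ} (h : 0 ≤ Φ) (A : Finset (Asg V)) :
    0 ≤ av k i R Φ A :=
  div_nonneg (sum_nonneg fun N _ => T_pow_nonneg k (N + i) h A) (by positivity)

theorem av_le_one [Nonempty V] (k i R : ℕ) (hR : 1 ≤ R) {Φ : Finset (Asg V) → ℝ}
    (h : Φ ≤ fun _ => 1) (A : Finset (Asg V)) : av k i R Φ A ≤ 1 := by
  refine (av_mono k i R h A).trans ?_
  unfold av
  rw [sum_congr rfl fun N _ => congrFun (T_pow_const k (N + i) (1 : ℝ)) A]
  have : (0 : ℝ) < R := by exact_mod_cast hR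
  simp only [sum_const, card_range, nsmul_eq_mul, mul_one]
  exact (div_self this.ne').le

theorem av_add (k i R : ℕ) (Φ Ψ : Finset (Asg V) → ℝ) (A : Finset (Asg V)) :
    av k i R (fun B => Φ B + Ψ B) A = av k i R Φ A + av k i R Ψ A := by
  have e : (fun B => Φ B + Ψ B) = Φ + Ψ := rfl
  unfold av
  rw [e, ← add_div, ← sum_add_distrib]
  congr 1
  exact sum_congr rfl fun N _ => by rw [map_add, Pi.add_apply]

theorem av_sub (k i R : ℕ) (Φ Ψ : Finset (Asg V) → ℝ) (A : Finset (Asg V)) :
    av k i R (fun B => Φ B - Ψ B) A = av k i R Φ A - av k i R Ψ A := by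
  have e : (fun B => Φ B - Ψ B) = Φ - Ψ := rfl
  unfold av
  rw [e, ← sub_div, ← sum_sub_distrib]
  congr 1
  exact sum_congr rfl fun N _ => by rw [map_sub, Pi.sub_apply]

theorem av_smul (k i R : ℕ) (r : ℝ) (Φ : Finset (Asg V) → ℝ) (A : Finset (Asg V)) :
    av k i R (fun B => r * Φ B) A = r * av k i R Φ A := by
  have e : (fun B => r * Φ B) = r • Φ := rfl
  unfold av
  rw [e, ← mul_div_assoc, mul_sum]
  congr 1
  exact sum_congr rfl fun N _ => by rw [map_smul, Pi.smul_apply, smul_eq_mul]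

theorem av_sum {ι : Type*} (k i R : ℕ) (S : Finset ι) (Φ : ι → Finset (Asg V) → ℝ)
    (A : Finset (Asg V)) :
    av k i R (fun B => ∑ c ∈ S, Φ c B) A = ∑ c ∈ S, av k i R (Φ c) A := by
  have e : (fun B => ∑ c ∈ S, Φ c B) = ∑ c ∈ S, Φ c := by
    funext B; rw [Finset.sum_apply]
  unfold av
  rw [e, ← sum_div, sum_comm]
  congr 1
  exact sum_congr rfl fun N _ => by rw [map_sum, Finset.sum_apply]

theorem av_zs [Nonempty V] (k i R : ℕ) (A : Finset (Asg V)) :
    ∑ N ∈ range R, (T V k ^ (N + i)) (zs k) A =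
      (T V k ^ i) s A - (T V k ^ (R + i)) s A := by
  induction R with
  | zero => simp
  | succ R ih =>
    rw [sum_range_succ, ih]
    have : (T V k ^ (R + 1 + i)) s = (T V k ^ (R + i)) s - (T V k ^ (R + i)) (zs k) := by
      rw [show R + 1 + i = R + i + 1 by ring, pow_succ, Module.End.mul_apply, T_s, map_sub]
    rw [this, Pi.sub_apply]
    ring

/-- the one-step variance bound -/
theorem Dv_av_le [Nonempty V] (k i R : ℕ) (hR : 1 ≤ R) (η : ℝ) (h0 : 0 < η)
    (hk : 1 ≤ k) (A : Finset (Asg V)) :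
    Dv k (av k i R s) A ≤ 2 * η ^ (k - 1) * av k i R (zs 1) A +
      2 * (1 / (η ^ k * R)) * av k i R (zs k) A := by
  have hRpos : (0 : ℝ) < R := by exact_mod_cast hR
  have hηk : 0 < η ^ k := pow_pos h0 k
  refine (Dv_le k _ A).trans ?_
  -- the two parts
  obtain ⟨a, ha⟩ : ∃ a : (Fin k → Lit V) → ℝ,
      a = fun c => av k i R (fun B => s B * kill c B * lo η B) A := ⟨_, rfl⟩
  obtain ⟨b, hb⟩ : ∃ b : (Fin k → Lit V) → ℝ,
      b = fun c => av k i R (fun B => s B * kill c B * (1 - lo η B)) A := ⟨_, rfl⟩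
  have hdiff : ∀ c : Fin k → Lit V, av k i R s A - av k i R s (cut c A) = a c + b c := by
    intro c
    rw [ha, hb]
    simp only
    rw [← av_add]
    have e1 : av k i R s (cut c A) = av k i R (fun B => s (cut c B)) A := by
      unfold av
      congr 1
      exact sum_congr rfl fun N _ => by rw [T_pow_cut]
    rw [e1, ← av_sub]
    congr 1
    funext B
    have := s_sub_cut c B
    linarith
  have ha0 : ∀ c, 0 ≤ a c := by
    intro c; rw [ha]
    exact av_nonneg k i R (fun B => mul_nonneg (mul_nonneg (s_nonneg B) (kill_nonneg c B))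
      (lo_nonneg η B)) A
  have ha1 : ∀ c, a c ≤ 1 := by
    intro c; rw [ha]
    exact av_le_one k i R hR (fun B => mul_le_one₀ (mul_le_one₀ (s_le_one B) (kill_nonneg c B)
      (kill_le_one c B)) (lo_nonneg η B) (lo_le_one η B)) A
  have hb0 : ∀ c, 0 ≤ b c := by
    intro c; rw [hb]
    exact av_nonneg k i R (fun B => mul_nonneg (mul_nonneg (s_nonneg B) (kill_nonneg c B))
      (by have := lo_le_one η B; linarith)) A
  have hb1 : ∀ c, b c ≤ 1 / (η ^ k * R) := by
    intro c; rw [hb]
    have h1 : av k i R (fun B => s B * kill c B * (1 - lo η B)) A ≤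
        av k i R (fun B => (1 / η ^ k) * zs k B) A := by
      apply av_mono
      intro B
      simp only
      unfold zs lo
      have hs : (0 : ℝ) ≤ s B := s_nonneg B
      have hz := z_nonneg B
      have hk0 := kill_nonneg c B
      have hk1 := kill_le_one c B
      split_ifs with hle
      · rw [sub_self, mul_zero]
        positivity
      · push Not at hle
        have h2 : η ^ k ≤ z B ^ k := pow_le_pow_left₀ h0.le hle.le k
        have h3 : 1 ≤ 1 / η ^ k * z B ^ k := by
          rw [one_div, inv_mul_eq_div, le_div_iff₀ hηk, one_mul]; exact h2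
        calc s B * kill c B * (1 - 0) ≤ s B * 1 * (1 - 0) := by
              apply mul_le_mul_of_nonneg_right _ (by norm_num)
              exact mul_le_mul_of_nonneg_left hk1 hs
          _ = 1 * s B := by ring
          _ ≤ (1 / η ^ k * z B ^ k) * s B := mul_le_mul_of_nonneg_right h3 hs
          _ = 1 / η ^ k * (z B ^ k * s B) := by ring
    refine h1.trans ?_
    rw [av_smul]
    unfold av
    rw [av_zs]
    have h3 : (T V k ^ i) s A ≤ 1 := by
      have := T_pow_mono k i s_le_one A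
      rwa [T_pow_const] at this
    have h4 : 0 ≤ (T V k ^ (R + i)) s A := T_pow_nonneg k (R + i) s_nonneg A
    calc 1 / η ^ k * (((T V k ^ i) s A - (T V k ^ (R + i)) s A) / R) ≤ 1 / η ^ k * (1 / R) := by
          apply mul_le_mul_of_nonneg_left _ (by positivity)
          exact div_le_div_of_nonneg_right (by linarith) hRpos.le
      _ = 1 / (η ^ k * R) := by field_simp
  have hsq : ∀ c : Fin k → Lit V, (av k i R s A - av k i R s (cut c A)) ^ 2 ≤
      2 * a c + 2 * (1 / (η ^ k * R)) * b c := by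
    intro c
    rw [hdiff c]
    have h1 := ha0 c
    have h2 := ha1 c
    have h3 := hb0 c
    have h4 := hb1 c
    nlinarith [mul_nonneg h1 (sub_nonneg.2 h2), mul_nonneg h3 (sub_nonneg.2 h4),
      sq_nonneg (a c - b c)]
  have hN := den_pos (V := V) k
  -- averages of `a` and `b`
  have hA : (∑ c, a c) / (2 * Fintype.card V : ℝ) ^ k ≤ η ^ (k - 1) * av k i R (zs 1) A := by
    rw [ha]
    simp only
    rw [← av_sum, div_eq_inv_mul, ← av_smul, ← av_smul]
    apply av_mono
    intro B
    simp only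
    have e : ∑ c : Fin k → Lit V, s B * kill c B * lo η B =
        (s B * lo η B) * ∑ c : Fin k → Lit V, kill c B := by
      rw [mul_sum]
      exact sum_congr rfl fun c _ => by ring
    have e2 := sum_kill k B
    rw [div_eq_inv_mul] at e2
    rw [e, mul_left_comm, e2]
    unfold zs lo
    have hs : (0 : ℝ) ≤ s B := s_nonneg B
    have hz := z_nonneg B
    split_ifs with hle
    · have h5 : z B ^ k ≤ η ^ (k - 1) * z B := by
        obtain ⟨k', rfl⟩ := Nat.exists_eq_add_of_le hk
        rw [show 1 + k' - 1 = k' by omega, add_comm, pow_succ]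
        exact mul_le_mul_of_nonneg_right (pow_le_pow_left₀ hz hle k') hz
      nlinarith
    · have : 0 ≤ η ^ (k - 1) * (z B ^ 1 * s B) := by positivity
      simpa using this
  have hB : (∑ c, b c) / (2 * Fintype.card V : ℝ) ^ k ≤ av k i R (zs k) A := by
    rw [hb]
    simp only
    rw [← av_sum, div_eq_inv_mul, ← av_smul]
    apply av_mono
    intro B
    simp only
    have e : ∑ c : Fin k → Lit V, s B * kill c B * (1 - lo η B) =
        (s B * (1 - lo η B)) * ∑ c : Fin k → Lit V, kill c B := by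
      rw [mul_sum]
      exact sum_congr rfl fun c _ => by ring
    have e2 := sum_kill k B
    rw [div_eq_inv_mul] at e2
    rw [e, mul_left_comm, e2]
    unfold zs
    have hs : (0 : ℝ) ≤ s B := s_nonneg B
    have hz := pow_nonneg (z_nonneg B) k
    have hl0 := lo_nonneg η B
    have hl1 := lo_le_one η B
    nlinarith [mul_nonneg (mul_nonneg hs hz) hl0]
  calc (∑ c : Fin k → Lit V, (av k i R s A - av k i R s (cut c A)) ^ 2) /
        (2 * Fintype.card V : ℝ) ^ k
      ≤ (∑ c : Fin k → Lit V, (2 * a c + 2 * (1 / (η ^ k * R)) * b c)) /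
        (2 * Fintype.card V : ℝ) ^ k :=
        div_le_div_of_nonneg_right (sum_le_sum fun c _ => hsq c) hN.le
    _ = 2 * ((∑ c, a c) / (2 * Fintype.card V : ℝ) ^ k) +
        2 * (1 / (η ^ k * R)) * ((∑ c, b c) / (2 * Fintype.card V : ℝ) ^ k) := by
        rw [sum_add_distrib, ← mul_sum, ← mul_sum, add_div]
        ring
    _ ≤ 2 * (η ^ (k - 1) * av k i R (zs 1) A) + 2 * (1 / (η ^ k * R)) * av k i R (zs k) A := by
        apply add_le_add
        · linarith
        · exact mul_le_mul_of_nonneg_left hB (by positivity)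
    _ = _ := by ring

theorem av_iter (k i j R : ℕ) (Φ : Finset (Asg V) → ℝ) :
    (T V k ^ j) (av k i R Φ) = av k (i + j) R Φ := by
  have e : av k i R Φ = (1 / R : ℝ) • ∑ N ∈ range R, (T V k ^ (N + i)) Φ := by
    funext A
    unfold av
    rw [Pi.smul_apply, Finset.sum_apply, smul_eq_mul]
    ring
  rw [e, map_smul, map_sum]
  funext A
  unfold av
  rw [Pi.smul_apply, Finset.sum_apply, smul_eq_mul, one_div, div_eq_inv_mul]
  congr 1
  refine sum_congr rfl fun N _ => ?_
  rw [← Module.End.mul_apply, ← pow_add, show j + (N + i) = N + (i + j) by ring]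

theorem window {V : Type} [Fintype V] [DecidableEq V] [Nonempty V] (k m R : ℕ) (hk : 1 ≤ k)
    (hR : 1 ≤ R) (η : ℝ) (h0 : 0 < η) (h1 : η ≤ 1) :
    Q V k (m + 1) * (1 - Q V k (m + 1)) ≤
      2 * (Q V k (m + 1) - Q V k (m + 1 + R)) +
      2 * (m + 1) * (η ^ (k - 1) * (∑ N ∈ range R, ((T V k ^ (m + N)) (zs 1)) univ) / R +
        1 / (η ^ k * R ^ 2)) := by
  have hRpos : (0 : ℝ) < R := by exact_mod_cast hR
  have hηk : 0 < η ^ k := pow_pos h0 k
  obtain ⟨w, hw⟩ : ∃ w : Finset (Asg V) → ℝ, w = av k 0 R s := ⟨_, rfl⟩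
  -- upper bound for the variance
  have hup : (T V k ^ (m + 1)) (fun B => w B ^ 2) univ - ((T V k ^ (m + 1)) w univ) ^ 2 ≤
      (m + 1) * (2 * (η ^ (k - 1) * (∑ N ∈ range R, ((T V k ^ (m + N)) (zs 1)) univ) / R +
        1 / (η ^ k * R ^ 2))) := by
    rw [var_telescope]
    have hterm : ∀ i ∈ range (m + 1),
        (T V k ^ (m + 1 - 1 - i)) (Dv k ((T V k ^ i) w)) univ ≤
        2 * (η ^ (k - 1) * (∑ N ∈ range R, ((T V k ^ (m + N)) (zs 1)) univ) / R +
        1 / (η ^ k * R ^ 2)) := by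
      intro i hi
      have hi' : i ≤ m := by have := mem_range.1 hi; omega
      rw [hw, av_iter, show m + 1 - 1 - i = m - i by omega]
      have hle : Dv k (av k (0 + i) R (s : Finset (Asg V) → ℝ)) ≤
          (2 * η ^ (k - 1)) • av k (0 + i) R (zs 1) +
          (2 * (1 / (η ^ k * R))) • av k (0 + i) R (zs k) := by
        intro A
        have := Dv_av_le (V := V) k (0 + i) R hR η h0 hk A
        simpa only [Pi.add_apply, Pi.smul_apply, smul_eq_mul] using this
      refine (T_pow_mono k (m - i) hle univ).trans ?_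
      rw [map_add, map_smul, map_smul, Pi.add_apply, Pi.smul_apply, Pi.smul_apply, av_iter,
        av_iter, smul_eq_mul, smul_eq_mul, show 0 + i + (m - i) = m by omega]
      unfold av
      have e1 : ∀ Φ : Finset (Asg V) → ℝ, ∑ N ∈ range R, (T V k ^ (N + m)) Φ univ =
          ∑ N ∈ range R, (T V k ^ (m + N)) Φ univ := fun Φ =>
        sum_congr rfl fun N _ => by rw [add_comm]
      rw [e1, e1, sum_zs (V := V)]
      have hq : Q V k m - Q V k (m + R) ≤ 1 := by
        have h3 := Q_le_one (V := V) k m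
        have h4 := Q_nonneg (V := V) k (m + R)
        linarith
      have h5 : 2 * (1 / (η ^ k * R)) * ((Q V k m - Q V k (m + R)) / R) ≤
          2 * (1 / (η ^ k * R ^ 2)) := by
        calc 2 * (1 / (η ^ k * R)) * ((Q V k m - Q V k (m + R)) / R)
            ≤ 2 * (1 / (η ^ k * R)) * (1 / R) := by
              apply mul_le_mul_of_nonneg_left _ (by positivity)
              exact div_le_div_of_nonneg_right hq hRpos.le
          _ = _ := by field_simp
      have h6 : 2 * η ^ (k - 1) * ((∑ N ∈ range R, ((T V k ^ (m + N)) (zs 1)) univ) / R) =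
          2 * (η ^ (k - 1) * (∑ N ∈ range R, ((T V k ^ (m + N)) (zs 1)) univ) / R) := by ring
      rw [h6]
      linarith
    refine (sum_le_sum hterm).trans (le_of_eq ?_)
    rw [sum_const, card_range, nsmul_eq_mul]
    push_cast
    ring
  -- lower bound for the variance
  have hws : w ≤ s := by
    intro A
    rw [hw]
    unfold av
    rw [div_le_iff₀ hRpos]
    calc ∑ N ∈ range R, (T V k ^ (N + 0)) s A ≤ ∑ _N ∈ range R, s A := by
          refine sum_le_sum fun N _ => ?_
          rw [add_zero]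
          have h3 : ∀ N, (T V k ^ N) s ≤ s := by
            intro N
            induction N with
            | zero => simp
            | succ N ih =>
              rw [pow_succ', Module.End.mul_apply]
              exact (T_mono k ih).trans (T_le k s_monotone)
          exact h3 N A
      _ = s A * R := by rw [sum_const, card_range, nsmul_eq_mul, mul_comm]
  have hw0 : 0 ≤ w := by
    intro A; rw [hw]; exact av_nonneg k 0 R s_nonneg A
  obtain ⟨q, hq⟩ : ∃ q, q = Q V k (m + 1) := ⟨_, rfl⟩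
  have hTs : (T V k ^ (m + 1)) s univ = q := by rw [hq]; rfl
  have hs2 : (T V k ^ (m + 1)) (fun B => s B ^ 2) univ = q := by
    have e : (fun B : Finset (Asg V) => s B ^ 2) = s := by
      funext B
      rw [sq, s_sq]
    rw [e, hTs]
  obtain ⟨t, ht⟩ : ∃ t, t = (T V k ^ (m + 1)) w univ := ⟨_, rfl⟩
  have htq : t ≤ q := by
    rw [ht, ← hTs]; exact T_pow_mono k (m + 1) hws univ
  have ht0 : 0 ≤ t := by
    rw [ht]; exact T_pow_nonneg k (m + 1) hw0 univ
  have hsqdiff : (T V k ^ (m + 1)) (fun B => s B ^ 2) univ -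
      (T V k ^ (m + 1)) (fun B => w B ^ 2) univ ≤ 2 * (q - t) := by
    rw [← hTs, ht]
    have h7 : (fun B => s B ^ 2) - (fun B => w B ^ 2) ≤ (2 : ℝ) • (s - w) := by
      intro B
      simp only [Pi.sub_apply, Pi.smul_apply, smul_eq_mul]
      have h8 := hws B
      have h9 := hw0 B
      have h10 := s_le_one B
      have h9' : (0 : ℝ) ≤ w B := h9
      have h10' : s B ≤ 1 := h10
      nlinarith
    have h11 := T_pow_mono k (m + 1) h7 univ
    rw [map_sub, map_smul, map_sub, Pi.sub_apply, Pi.smul_apply, Pi.sub_apply, smul_eq_mul]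
      at h11
    exact h11
  have hqt : q - t ≤ Q V k (m + 1) - Q V k (m + 1 + R) := by
    have h12 : Q V k (m + 1 + R) ≤ t := by
      rw [ht, hw, av_iter]
      unfold av
      rw [le_div_iff₀ hRpos]
      calc Q V k (m + 1 + R) * R = ∑ _N ∈ range R, Q V k (m + 1 + R) := by
            rw [sum_const, card_range, nsmul_eq_mul, mul_comm]
        _ ≤ ∑ N ∈ range R, (T V k ^ (N + (0 + (m + 1)))) s univ := by
            refine sum_le_sum fun N hN => ?_
            have : (T V k ^ (N + (0 + (m + 1)))) s univ = Q V k (N + (0 + (m + 1))) := rfl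
            rw [this]
            apply Q_antitone
            have := mem_range.1 hN
            omega
    rw [hq]; linarith
  rw [← hq] at hqt ⊢
  nlinarith

end Vale.Agent.P170
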